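/-!
Fixed-point Taylor models over the natural numbers, in a form that the kernel evaluates quickly,
and a certificate checker for a polynomial inequality in two triples of nonnegative variables.
No Mathlib here: the certificate files import only this file.
-/

namespace Vale.Agent.P154q4.TMC

noncomputable section

/-- A Taylor model: centre, three slopes, remainder (scaled by `2^40`). -/
structure T where
  c : Nat
  a : Nat
  b : Nat
  d : Nat
  r : Nat

/-- Truncation of the scale. -/
def shr (x : Nat) : Nat := Nat.shiftRight x 40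

/-- The constant one. -/
def one : T := ⟨1099511627776, 0, 0, 0, 0⟩

/-- The zero model. -/
def zeroT : T := ⟨0, 0, 0, 0, 0⟩

/-- Sum of slopes and remainder. -/
def T.w (X : T) : Nat := Nat.add X.a (Nat.add X.b (Nat.add X.d X.r))

/-- Product. -/
def mul (X Y : T) : T :=
  ⟨shr (Nat.mul X.c Y.c),
   shr (Nat.add (Nat.mul X.c Y.a) (Nat.mul Y.c X.a)),
   shr (Nat.add (Nat.mul X.c Y.b) (Nat.mul Y.c X.b)),
   shr (Nat.add (Nat.mul X.c Y.d) (Nat.mul Y.c X.d)),
   Nat.add (shr (Nat.add (Nat.add (Nat.mul X.c Y.r) (Nat.mul Y.c X.r)) (Nat.mul X.w Y.w))) 5⟩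

/-- A trie of monomials in three variables. -/
inductive MT where
  | nil : MT
  | p : MT → MT → MT
  | t : MT → MT → MT
  | e : MT → MT → MT

/-- The models of the monomials of a trie, depth first, in front of `rest`. -/
def emit (P Q R : T) (m : MT) : T → List T → List T :=
  MT.rec (motive := fun _ => T → List T → List T)
    (fun _ rest => rest)
    (fun _ _ ihc ihs acc rest => let x := mul P acc; x :: ihc x (ihs acc rest))
    (fun _ _ ihc ihs acc rest => let x := mul Q acc; x :: ihc x (ihs acc rest))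
    (fun _ _ ihc ihs acc rest => let x := mul R acc; x :: ihc x (ihs acc rest))
    m

/-- Positive and negative part of a combination, unscaled. -/
structure PN where
  pos : T
  neg : T

/-- `A + n X`, unscaled. -/
def addm (n : Nat) (X A : T) : T :=
  ⟨Nat.add A.c (Nat.mul n X.c), Nat.add A.a (Nat.mul n X.a), Nat.add A.b (Nat.mul n X.b),
   Nat.add A.d (Nat.mul n X.d), Nat.add A.r (Nat.mul n X.r)⟩

/-- Combination of a list of models with integer coefficients (the lists are aligned). -/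
def dot (cs : List Int) : List T → PN :=
  List.rec (motive := fun _ => List T → PN)
    (fun _ => ⟨zeroT, zeroT⟩)
    (fun c _ ih ms =>
      List.rec (motive := fun _ => PN) ⟨zeroT, zeroT⟩
        (fun m ms' _ =>
          Int.rec (motive := fun _ => PN)
            (fun n => Nat.rec (motive := fun _ => PN) (ih ms')
                (fun _ _ => let R := ih ms'; ⟨addm n m R.pos, R.neg⟩) n)
            (fun n => let R := ih ms'; ⟨R.pos, addm (Nat.succ n) m R.neg⟩) c)
        ms)
    cs

/-- Net model, in sign-magnitude form, at scale `2^40`. -/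
structure Z where
  cp : Nat
  cn : Nat
  ap : Nat
  an : Nat
  bp : Nat
  bn : Nat
  dp : Nat
  dn : Nat
  v : Nat   -- cp + cn
  w : Nat   -- the four slopes and the remainder
  r : Nat

/-- The net of a pair, shifted down by `s`. -/
def net (s : Nat) (P : PN) : Z :=
  let cp := Nat.shiftRight (Nat.sub P.pos.c P.neg.c) s
  let cn := Nat.shiftRight (Nat.sub P.neg.c P.pos.c) s
  let ap := Nat.shiftRight (Nat.sub P.pos.a P.neg.a) s
  let an := Nat.shiftRight (Nat.sub P.neg.a P.pos.a) s
  let bp := Nat.shiftRight (Nat.sub P.pos.b P.neg.b) s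
  let bn := Nat.shiftRight (Nat.sub P.neg.b P.pos.b) s
  let dp := Nat.shiftRight (Nat.sub P.pos.d P.neg.d) s
  let dn := Nat.shiftRight (Nat.sub P.neg.d P.pos.d) s
  let r := Nat.add (Nat.shiftRight (Nat.add P.pos.r P.neg.r) s) 5
  ⟨cp, cn, ap, an, bp, bn, dp, dn, Nat.add cp cn,
   Nat.add (Nat.add ap an) (Nat.add (Nat.add bp bn) (Nat.add (Nat.add dp dn) r)), r⟩

/-- The coefficient models of the `y` monomials. -/
def coefs (s : Nat) (ms : List T) (l : List (List Int)) : List Z :=
  List.rec (motive := fun _ => List Z) [] (fun cs _ ih => net s (dot cs ms) :: ih) l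

/-- Accumulator of the pairing. -/
structure Ac where
  vp : Nat
  vn : Nat
  z1p : Nat
  z1n : Nat
  z2p : Nat
  z2n : Nat
  z3p : Nat
  z3n : Nat
  y1p : Nat
  y1n : Nat
  y2p : Nat
  y2n : Nat
  y3p : Nat
  y3n : Nat
  e : Nat

/-- Pairing of the coefficient models with the `y` monomial models. -/
def pair (zs : List Z) : List T → Ac :=
  List.rec (motive := fun _ => List T → Ac)
    (fun _ => ⟨0, 0, 0, 0, 0, 0, 0, 0, 0, 0, 0, 0, 0, 0, 0⟩)
    (fun z _ ih ms =>
      List.rec (motive := fun _ => Ac) ⟨0, 0, 0, 0, 0, 0, 0, 0, 0, 0, 0, 0, 0, 0, 0⟩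
        (fun m ms' _ =>
          let R := ih ms'
          ⟨Nat.add (Nat.mul z.cp m.c) R.vp, Nat.add (Nat.mul z.cn m.c) R.vn,
           Nat.add (Nat.mul z.ap m.c) R.z1p, Nat.add (Nat.mul z.an m.c) R.z1n,
           Nat.add (Nat.mul z.bp m.c) R.z2p, Nat.add (Nat.mul z.bn m.c) R.z2n,
           Nat.add (Nat.mul z.dp m.c) R.z3p, Nat.add (Nat.mul z.dn m.c) R.z3n,
           Nat.add (Nat.mul z.cp m.a) R.y1p, Nat.add (Nat.mul z.cn m.a) R.y1n,
           Nat.add (Nat.mul z.cp m.b) R.y2p, Nat.add (Nat.mul z.cn m.b) R.y2n,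
           Nat.add (Nat.mul z.cp m.d) R.y3p, Nat.add (Nat.mul z.cn m.d) R.y3n,
           Nat.add (Nat.add (Nat.add (Nat.mul z.v m.r) (Nat.mul m.c z.r)) (Nat.mul z.w m.w)) R.e⟩)
        ms)
    zs

/-- Absolute difference. -/
def adiff (x y : Nat) : Nat := Nat.add (Nat.sub x y) (Nat.sub y x)

/-- The total that is subtracted from `vp` for a lower bound (scale `2^80`). -/
def tot (A : Ac) : Nat :=
  Nat.add A.vn (Nat.add A.e (Nat.add (adiff A.z1p A.z1n) (Nat.add (adiff A.z2p A.z2n)
    (Nat.add (adiff A.z3p A.z3n) (Nat.add (adiff A.y1p A.y1n)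
      (Nat.add (adiff A.y2p A.y2n) (adiff A.y3p A.y3n)))))))

/-- A box: integer end points at scale `2^24`. -/
structure Box where
  p1 : Nat
  p2 : Nat
  t1 : Nat
  t2 : Nat
  e1 : Nat
  e2 : Nat

/-- Centre-radius model of a variable at scale `2^24`, as slope `i` (0,1,2). -/
def vP (B : Box) : T := ⟨Nat.mul (Nat.add B.p1 B.p2) 32768, Nat.mul (Nat.sub B.p2 B.p1) 32768, 0, 0, 0⟩
def vQ (B : Box) : T := ⟨Nat.mul (Nat.add B.t1 B.t2) 32768, 0, Nat.mul (Nat.sub B.t2 B.t1) 32768, 0, 0⟩
def vR (B : Box) : T := ⟨Nat.mul (Nat.add B.e1 B.e2) 32768, 0, 0, Nat.mul (Nat.sub B.e2 B.e1) 32768, 0⟩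

/-- Global data of one sign branch. -/
structure Data where
  sz : Bool      -- sign of `t` in `z` (`true` = plus)
  sy : Bool      -- sign of `t` in `y`
  s : Nat        -- common shift of the coefficients
  zt : MT        -- the `z` monomials
  yt : MT        -- the `y` monomials
  cf : List (List Int)  -- coefficient rows, one row per `y` monomial
  mode : Bool    -- `true`: first form, `false`: second form
  A : Nat        -- constant of the linear term
  Bc : Nat       -- constant of the product term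

/-- The coefficient models of a `z` box. -/
def zData (D : Data) (B : Box) : List Z :=
  coefs D.s (one :: emit (vP B) (vQ B) (vR B) D.zt one []) D.cf

/-- The monomial models of a `y` box. -/
def yData (D : Data) (B : Box) : List T :=
  one :: emit (vP B) (vQ B) (vR B) D.yt one []

/-- The test at a leaf: `0 ≤ A x + Bc w lb`, with `lb = vp - tot`, with `x` the lower end of
the first coordinate on one side and `w` the upper end on the other side. -/
def leafTest (D : Data) (zd : List Z) (yd : List T) (ZB YB : Box) : Bool :=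
  let P := pair zd yd
  let w := Nat.mul D.Bc (cond D.mode ZB.p2 YB.p2)
  Nat.ble (Nat.mul w (tot P)) (Nat.add (Nat.mul D.A (cond D.mode YB.p1 ZB.p1)) (Nat.mul w P.vp))

/-- Scale of the boxes as a number. -/
def BB : Nat := 16777216

/-- Exclusion tests for a box; code: 0 = g6, 1 = g5, 2 = g2, 3 = g3, 4 = the discriminant.
`s` is the sign of `t`. -/
def excl (s : Bool) (B : Box) (code : Nat) : Bool :=
  Nat.rec (motive := fun _ => Bool)
    (Nat.blt (Nat.mul B.p2 BB) (Nat.mul 27 (Nat.mul B.t1 B.t1)))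
    (fun n _ => Nat.rec (motive := fun _ => Bool)
      (Nat.blt (Nat.mul B.p2 (Nat.mul B.e2 B.e2)) (Nat.mul 3 (Nat.mul (Nat.mul B.t1 B.t1) BB)))
      (fun n _ => Nat.rec (motive := fun _ => Bool)
        (cond s
          (Nat.blt (Nat.add (Nat.mul BB BB) (Nat.mul 2 (Nat.mul B.p2 B.t2))) (Nat.mul B.p1 BB))
          (Nat.blt (Nat.mul BB BB) (Nat.add (Nat.mul B.p1 BB) (Nat.mul 2 (Nat.mul B.p1 B.t1)))))
        (fun n _ => Nat.rec (motive := fun _ => Bool)
          (let d := Nat.max (adiff BB B.p1) (adiff BB B.p2)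
           cond s
            (Nat.blt (Nat.add (Nat.mul (Nat.mul d d) BB) (Nat.mul 8 (Nat.mul (Nat.mul B.p2 B.t2) BB)))
              (Nat.mul 4 (Nat.mul (Nat.mul B.p1 B.p1) B.e1)))
            (Nat.blt (Nat.mul (Nat.mul d d) BB)
              (Nat.add (Nat.mul 4 (Nat.mul (Nat.mul B.p1 B.p1) B.e1))
                (Nat.mul 8 (Nat.mul (Nat.mul B.p1 B.t1) BB)))))
          (fun _ _ =>
            let f1 := Nat.sub BB (Nat.mul 4 B.e1)
            let f2 := Nat.sub (Nat.mul 4 B.e1) BB
            let t2 := Nat.mul B.t1 B.t1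
            Nat.blt
              (Nat.add (Nat.mul (Nat.mul (Nat.mul B.p2 B.p2) (Nat.mul B.e2 B.e2)) f1)
                (Nat.mul 18 (Nat.mul (Nat.mul (Nat.mul B.p2 B.e2) (Nat.mul B.t2 B.t2)) BB)))
              (Nat.add (Nat.mul 4 (Nat.mul (Nat.mul B.p1 t2) (Nat.mul BB BB)))
                (Nat.add (Nat.mul 27 (Nat.mul (Nat.mul t2 t2) BB))
                  (Nat.mul (Nat.mul (Nat.mul B.p1 B.p1) (Nat.mul B.e1 B.e1)) f2)))) n) n) n) code

/-- Update of a box at a split; `v` is the variable, `m` the cut. -/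
def cutL (v m : Nat) (B : Box) : Box :=
  Nat.rec (motive := fun _ => Box) ⟨B.p1, m, B.t1, B.t2, B.e1, B.e2⟩
    (fun n _ => Nat.rec (motive := fun _ => Box) ⟨B.p1, B.p2, B.t1, m, B.e1, B.e2⟩
      (fun _ _ => ⟨B.p1, B.p2, B.t1, B.t2, B.e1, m⟩) n) v
def cutR (v m : Nat) (B : Box) : Box :=
  Nat.rec (motive := fun _ => Box) ⟨m, B.p2, B.t1, B.t2, B.e1, B.e2⟩
    (fun n _ => Nat.rec (motive := fun _ => Box) ⟨B.p1, B.p2, m, B.t2, B.e1, B.e2⟩
      (fun _ _ => ⟨B.p1, B.p2, B.t1, B.t2, m, B.e2⟩) n) v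

/-- Certificate trees. -/
inductive Tr where
  | lf : Tr
  | zs : Nat → Nat → Tr → Tr → Tr
  | ys : Nat → Nat → Tr → Tr → Tr
  | zx : Nat → Tr
  | yx : Nat → Tr
  | zt : Nat → Tr → Tr       -- tighten `t2` of `z` to the value given
  | yt : Nat → Tr → Tr
  | zf : Nat → Tr → Tr       -- raise `e1` of `z`
  | yf : Nat → Tr → Tr       -- raise `e1` of `y`

/-- The check of a tightening of `t2`. -/
def okT (B : Box) (v : Nat) : Bool := Nat.ble (Nat.mul B.p2 BB) (Nat.mul 27 (Nat.mul v v))

/-- The check of a raising of `e1`. -/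
def okE (B : Box) (v : Nat) : Bool :=
  Nat.ble (Nat.mul B.p2 (Nat.mul v v)) (Nat.mul 3 (Nat.mul (Nat.mul B.t1 B.t1) BB))

/-- The recursive checker. -/
def chk (D : Data) (t : Tr) : Box → Box → List Z → List T → Bool :=
  Tr.rec (motive := fun _ => Box → Box → List Z → List T → Bool)
    (fun ZB YB zd yd => leafTest D zd yd ZB YB)
    (fun v m _ _ il ir ZB YB _ yd =>
      and (il (cutL v m ZB) YB (zData D (cutL v m ZB)) yd)
          (ir (cutR v m ZB) YB (zData D (cutR v m ZB)) yd))
    (fun v m _ _ il ir ZB YB zd _ =>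
      and (il ZB (cutL v m YB) zd (yData D (cutL v m YB)))
          (ir ZB (cutR v m YB) zd (yData D (cutR v m YB))))
    (fun c ZB _ _ _ => excl D.sz ZB c)
    (fun c _ YB _ _ => excl D.sy YB c)
    (fun v _ ih ZB YB _ yd =>
      let B : Box := ⟨ZB.p1, ZB.p2, ZB.t1, v, ZB.e1, ZB.e2⟩
      and (okT ZB v) (ih B YB (zData D B) yd))
    (fun v _ ih ZB YB zd _ =>
      let B : Box := ⟨YB.p1, YB.p2, YB.t1, v, YB.e1, YB.e2⟩
      and (okT YB v) (ih ZB B zd (yData D B)))
    (fun v _ ih ZB YB _ yd =>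
      let B : Box := ⟨ZB.p1, ZB.p2, ZB.t1, ZB.t2, v, ZB.e2⟩
      and (okE ZB v) (ih B YB (zData D B) yd))
    (fun v _ ih ZB YB zd _ =>
      let B : Box := ⟨YB.p1, YB.p2, YB.t1, YB.t2, v, YB.e2⟩
      and (okE YB v) (ih ZB B zd (yData D B)))
    t

/-- The check from a pair of boxes. -/
def chkRoot (D : Data) (t : Tr) (ZB YB : Box) : Bool :=
  chk D t ZB YB (zData D ZB) (yData D YB)

end

end Vale.Agent.P154q4.TMC
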