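import Mathlib
import Vale.Agent.P154q4.TM

/-! MODULE S (soundness of the Taylor model checker Vale/Agent/P154q4/TM.lean).
All statements below are proved as specified by helper20.  Names and shapes are used by generated files. -/

open Vale.Agent.P154q4.TMC

namespace Vale.Agent.P154q4.TMS

/-- Exponents along a trie, depth first, in the same order as `emit`. -/
def MT.exps : MT → (Nat × Nat × Nat) → List (Nat × Nat × Nat) → List (Nat × Nat × Nat)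
  | .nil, _, rest => rest
  | .p c s, (i, j, k), rest => (i + 1, j, k) :: MT.exps c (i + 1, j, k) (MT.exps s (i, j, k) rest)
  | .t c s, (i, j, k), rest => (i, j + 1, k) :: MT.exps c (i, j + 1, k) (MT.exps s (i, j, k) rest)
  | .e c s, (i, j, k), rest => (i, j, k + 1) :: MT.exps c (i, j, k + 1) (MT.exps s (i, j, k) rest)

/-- The list of monomial exponents of a trie (the constant monomial first). -/
def mexps (m : MT) : List (Nat × Nat × Nat) := (0, 0, 0) :: MT.exps m (0, 0, 0) []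

/-- Value of a monomial at a point of `ℝ³`. -/
noncomputable def mval (x : ℝ × ℝ × ℝ) (e : Nat × Nat × Nat) : ℝ :=
  x.1 ^ e.1 * x.2.1 ^ e.2.1 * x.2.2 ^ e.2.2

/-- Integer combination of the monomials (zip semantics). -/
noncomputable def rowVal (x : ℝ × ℝ × ℝ) : List Int → List (Nat × Nat × Nat) → ℝ
  | c :: cs, e :: es => (c : ℝ) * mval x e + rowVal x cs es
  | _, _ => 0

/-- Sum over the rows (zip semantics): `∑ (row value at x) * (y monomial at y)`. -/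
noncomputable def tabVal (x y : ℝ × ℝ × ℝ) (es : List (Nat × Nat × Nat)) :
    List (List Int) → List (Nat × Nat × Nat) → ℝ
  | r :: rs, f :: fs => rowVal x r es * mval y f + tabVal x y es rs fs
  | _, _ => 0

/-- The polynomial of a data set, divided by `2^s`. -/
noncomputable def Aval (D : Data) (x y : ℝ × ℝ × ℝ) : ℝ :=
  tabVal x y (mexps D.zt) D.cf (mexps D.yt) / 2 ^ D.s

/-- The inequality certified at a point pair: `0 ≤ A X₁ + Bc X₂ 2^80 Aval`, where `(X₁, X₂) = (y₁, x₁)` in the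
first mode and `(x₁, y₁)` in the second. -/
noncomputable def Goal (D : Data) (x y : ℝ × ℝ × ℝ) : ℝ :=
  (D.A : ℝ) * (if D.mode then y.1 else x.1)
    + (D.Bc : ℝ) * (if D.mode then x.1 else y.1) * 2 ^ 80 * Aval D x y

/-- A point lies in a box (end points at scale `2^24`). -/
def InBox (B : Box) (x : ℝ × ℝ × ℝ) : Prop :=
  (B.p1 : ℝ) ≤ 2 ^ 24 * x.1 ∧ 2 ^ 24 * x.1 ≤ B.p2 ∧
  (B.t1 : ℝ) ≤ 2 ^ 24 * x.2.1 ∧ 2 ^ 24 * x.2.1 ≤ B.t2 ∧
  (B.e1 : ℝ) ≤ 2 ^ 24 * x.2.2 ∧ 2 ^ 24 * x.2.2 ≤ B.e2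

/-- The region in the coordinates `(p, t, e)`, for the sign `s` of `t`. -/
structure Reg (s : Bool) (x : ℝ × ℝ × ℝ) : Prop where
  p_pos : 0 < x.1
  t_nn : 0 ≤ x.2.1
  e_nn : 0 ≤ x.2.2
  g2 : 0 ≤ 1 - x.1 + (if s then 2 else -2) * x.1 * x.2.1
  g3 : 0 ≤ (1 - x.1) ^ 2 + (if s then 8 else -8) * x.1 * x.2.1 - 4 * x.1 ^ 2 * x.2.2
  g5 : 3 * x.2.1 ^ 2 ≤ x.1 * x.2.2 ^ 2
  g6 : 27 * x.2.1 ^ 2 ≤ x.1
  g7 : 0 ≤ x.1 ^ 2 * x.2.2 ^ 2 * (1 - 4 * x.2.2) + 18 * x.1 * x.2.2 * x.2.1 ^ 2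
      - 4 * x.1 * x.2.1 ^ 2 - 27 * x.2.1 ^ 4

/-- What a pair of boxes certifies. -/
def Cov (D : Data) (ZB YB : Box) : Prop :=
  ∀ x y, InBox ZB x → InBox YB y → Reg D.sz x → Reg D.sy y → 0 ≤ Goal D x y

/-! ### The Taylor model relation -/

/-- A Taylor model encloses `u` (scaled by `2^40`) at the parameter point `δ`. -/
def InT (δ : ℝ × ℝ × ℝ) (X : T) (u : ℝ) : Prop :=
  |u * 2 ^ 40 - ((X.c : ℝ) + (X.a : ℝ) * δ.1 + (X.b : ℝ) * δ.2.1 + (X.d : ℝ) * δ.2.2)| ≤ (X.r : ℝ)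

/-- Admissible parameter points. -/
def Dl (δ : ℝ × ℝ × ℝ) : Prop := |δ.1| ≤ 1 ∧ |δ.2.1| ≤ 1 ∧ |δ.2.2| ≤ 1

lemma shiftR_le (x s : ℕ) : ((Nat.shiftRight x s : ℕ) : ℝ) * 2 ^ s ≤ x := by
  have h : Nat.shiftRight x s = x / 2 ^ s := Nat.shiftRight_eq_div_pow x s
  rw [h]
  have := Nat.div_mul_le_self x (2 ^ s)
  exact_mod_cast this

lemma lt_shiftR (x s : ℕ) : (x : ℝ) < (((Nat.shiftRight x s : ℕ) : ℝ) + 1) * 2 ^ s := by
  have h : Nat.shiftRight x s = x / 2 ^ s := Nat.shiftRight_eq_div_pow x s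
  rw [h]
  have h2 : x < (x / 2 ^ s + 1) * 2 ^ s := by
    have := Nat.lt_div_mul_add (a := x) (b := 2 ^ s) (by positivity)
    nlinarith
  exact_mod_cast h2

lemma one_in (δ : ℝ × ℝ × ℝ) : InT δ one 1 := by
  unfold InT one
  norm_num

/-- Scalar core of the product. -/
lemma mul_core {c1 a1 b1 e1 r1 c2 a2 b2 e2 r2 d1 d2 d3 U V s0 s1 s2 s3 s4 : ℝ}
    (hc1 : 0 ≤ c1) (hc2 : 0 ≤ c2) (ha1 : 0 ≤ a1) (hb1 : 0 ≤ b1) (he1 : 0 ≤ e1)
    (ha2 : 0 ≤ a2) (hb2 : 0 ≤ b2) (he2 : 0 ≤ e2) (hr1 : 0 ≤ r1) (hr2 : 0 ≤ r2)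
    (hd1 : |d1| ≤ 1) (hd2 : |d2| ≤ 1) (hd3 : |d3| ≤ 1)
    (hU : |U - (c1 + a1 * d1 + b1 * d2 + e1 * d3)| ≤ r1)
    (hV : |V - (c2 + a2 * d1 + b2 * d2 + e2 * d3)| ≤ r2)
    (h0a : s0 * 2 ^ 40 ≤ c1 * c2) (h0b : c1 * c2 < (s0 + 1) * 2 ^ 40)
    (h1a : s1 * 2 ^ 40 ≤ c1 * a2 + c2 * a1) (h1b : c1 * a2 + c2 * a1 < (s1 + 1) * 2 ^ 40)
    (h2a : s2 * 2 ^ 40 ≤ c1 * b2 + c2 * b1) (h2b : c1 * b2 + c2 * b1 < (s2 + 1) * 2 ^ 40)
    (h3a : s3 * 2 ^ 40 ≤ c1 * e2 + c2 * e1) (h3b : c1 * e2 + c2 * e1 < (s3 + 1) * 2 ^ 40)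
    (h4b : c1 * r2 + c2 * r1 + (a1 + (b1 + (e1 + r1))) * (a2 + (b2 + (e2 + r2))) < (s4 + 1) * 2 ^ 40) :
    |U * V / 2 ^ 40 - (s0 + s1 * d1 + s2 * d2 + s3 * d3)| ≤ s4 + 5 := by
  -- errors
  set E1 := U - (c1 + a1 * d1 + b1 * d2 + e1 * d3) with hE1
  set E2 := V - (c2 + a2 * d1 + b2 * d2 + e2 * d3) with hE2
  have hU' : U = c1 + a1 * d1 + b1 * d2 + e1 * d3 + E1 := by rw [hE1]; ring
  have hV' : V = c2 + a2 * d1 + b2 * d2 + e2 * d3 + E2 := by rw [hE2]; ring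
  set L1 := a1 * d1 + b1 * d2 + e1 * d3 + E1 with hL1
  set L2 := a2 * d1 + b2 * d2 + e2 * d3 + E2 with hL2
  have hLa : |L1| ≤ a1 + (b1 + (e1 + r1)) := by
    have t1 : |a1 * d1| ≤ a1 := by
      rw [abs_mul, abs_of_nonneg ha1]; exact mul_le_of_le_one_right ha1 hd1
    have t2 : |b1 * d2| ≤ b1 := by
      rw [abs_mul, abs_of_nonneg hb1]; exact mul_le_of_le_one_right hb1 hd2
    have t3 : |e1 * d3| ≤ e1 := by
      rw [abs_mul, abs_of_nonneg he1]; exact mul_le_of_le_one_right he1 hd3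
    have t1' := abs_le.1 t1
    have t2' := abs_le.1 t2
    have t3' := abs_le.1 t3
    have t4' := abs_le.1 hU
    rw [abs_le]
    constructor <;> linarith [t1'.1, t1'.2, t2'.1, t2'.2, t3'.1, t3'.2, t4'.1, t4'.2]
  have hLb : |L2| ≤ a2 + (b2 + (e2 + r2)) := by
    have t1 : |a2 * d1| ≤ a2 := by
      rw [abs_mul, abs_of_nonneg ha2]; exact mul_le_of_le_one_right ha2 hd1
    have t2 : |b2 * d2| ≤ b2 := by
      rw [abs_mul, abs_of_nonneg hb2]; exact mul_le_of_le_one_right hb2 hd2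
    have t3 : |e2 * d3| ≤ e2 := by
      rw [abs_mul, abs_of_nonneg he2]; exact mul_le_of_le_one_right he2 hd3
    have t1' := abs_le.1 t1
    have t2' := abs_le.1 t2
    have t3' := abs_le.1 t3
    have t4' := abs_le.1 hV
    rw [abs_le]
    constructor <;> linarith [t1'.1, t1'.2, t2'.1, t2'.2, t3'.1, t3'.2, t4'.1, t4'.2]
  have hLL : |L1 * L2| ≤ (a1 + (b1 + (e1 + r1))) * (a2 + (b2 + (e2 + r2))) := by
    rw [abs_mul]
    exact mul_le_mul hLa hLb (abs_nonneg _) (by positivity)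
  have hc1E : |c1 * E2| ≤ c1 * r2 := by
    rw [abs_mul, abs_of_nonneg hc1]; exact mul_le_mul_of_nonneg_left hV hc1
  have hc2E : |c2 * E1| ≤ c2 * r1 := by
    rw [abs_mul, abs_of_nonneg hc2]; exact mul_le_mul_of_nonneg_left hU hc2
  have hUV : U * V = c1 * c2 + (c1 * a2 + c2 * a1) * d1 + (c1 * b2 + c2 * b1) * d2
      + (c1 * e2 + c2 * e1) * d3 + (c1 * E2 + c2 * E1 + L1 * L2) := by
    rw [hU', hV', hL1, hL2]; ring
  have hP : (0 : ℝ) < 2 ^ 40 := by positivity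
  -- the normalized pieces
  set t0 := c1 * c2 / 2 ^ 40 - s0 with ht0
  set t1 := (c1 * a2 + c2 * a1) / 2 ^ 40 - s1 with ht1
  set t2 := (c1 * b2 + c2 * b1) / 2 ^ 40 - s2 with ht2
  set t3 := (c1 * e2 + c2 * e1) / 2 ^ 40 - s3 with ht3
  have bd : ∀ {x s : ℝ}, s * 2 ^ 40 ≤ x → x < (s + 1) * 2 ^ 40 → |x / 2 ^ 40 - s| ≤ 1 := by
    intro x s h1 h2
    rw [abs_le]
    constructor
    · have : s ≤ x / 2 ^ 40 := by rw [le_div_iff₀ hP]; exact h1
      linarith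
    · have : x / 2 ^ 40 < s + 1 := by rw [div_lt_iff₀ hP]; exact h2
      linarith
  have b0 := bd h0a h0b
  have b1' := bd h1a h1b
  have b2' := bd h2a h2b
  have b3' := bd h3a h3b
  have m1 : |t1 * d1| ≤ 1 := by
    rw [abs_mul]; exact mul_le_one₀ b1' (abs_nonneg _) hd1
  have m2 : |t2 * d2| ≤ 1 := by
    rw [abs_mul]; exact mul_le_one₀ b2' (abs_nonneg _) hd2
  have m3 : |t3 * d3| ≤ 1 := by
    rw [abs_mul]; exact mul_le_one₀ b3' (abs_nonneg _) hd3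
  have hrest : |(c1 * E2 + c2 * E1 + L1 * L2) / 2 ^ 40| ≤ s4 + 1 := by
    rw [abs_div, abs_of_pos hP, div_le_iff₀ hP]
    have p1 := abs_le.1 hc1E
    have p2 := abs_le.1 hc2E
    have p3 := abs_le.1 hLL
    have : |c1 * E2 + c2 * E1 + L1 * L2| ≤ c1 * r2 + c2 * r1
        + (a1 + (b1 + (e1 + r1))) * (a2 + (b2 + (e2 + r2))) := by
      rw [abs_le]
      constructor <;> linarith [p1.1, p1.2, p2.1, p2.2, p3.1, p3.2]
    linarith
  have key : U * V / 2 ^ 40 - (s0 + s1 * d1 + s2 * d2 + s3 * d3)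
      = t0 + t1 * d1 + t2 * d2 + t3 * d3 + (c1 * E2 + c2 * E1 + L1 * L2) / 2 ^ 40 := by
    rw [hUV, ht0, ht1, ht2, ht3]
    field_simp
    ring
  rw [key]
  have q0 := abs_le.1 b0
  have q1 := abs_le.1 m1
  have q2 := abs_le.1 m2
  have q3 := abs_le.1 m3
  have q4 := abs_le.1 hrest
  rw [abs_le]
  constructor <;> linarith [q0.1, q0.2, q1.1, q1.2, q2.1, q2.2, q3.1, q3.2, q4.1, q4.2]

lemma mul_in {δ : ℝ × ℝ × ℝ} (hδ : Dl δ) {X Y : T} {u v : ℝ} (hX : InT δ X u) (hY : InT δ Y v) :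
    InT δ (mul X Y) (u * v) := by
  unfold InT at *
  obtain ⟨hd1, hd2, hd3⟩ := hδ
  have e : u * v * 2 ^ 40 = (u * 2 ^ 40) * (v * 2 ^ 40) / 2 ^ 40 := by
    field_simp
  rw [e]
  have h0a := shiftR_le (X.c * Y.c) 40
  have h0b := lt_shiftR (X.c * Y.c) 40
  have h1a := shiftR_le (X.c * Y.a + Y.c * X.a) 40
  have h1b := lt_shiftR (X.c * Y.a + Y.c * X.a) 40
  have h2a := shiftR_le (X.c * Y.b + Y.c * X.b) 40
  have h2b := lt_shiftR (X.c * Y.b + Y.c * X.b) 40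
  have h3a := shiftR_le (X.c * Y.d + Y.c * X.d) 40
  have h3b := lt_shiftR (X.c * Y.d + Y.c * X.d) 40
  have h4b := lt_shiftR (X.c * Y.r + Y.c * X.r + X.w * Y.w) 40
  push_cast at h0a h0b h1a h1b h2a h2b h3a h3b h4b
  have core := mul_core (c1 := X.c) (a1 := X.a) (b1 := X.b) (e1 := X.d) (r1 := X.r)
    (c2 := Y.c) (a2 := Y.a) (b2 := Y.b) (e2 := Y.d) (r2 := Y.r)
    (Nat.cast_nonneg _) (Nat.cast_nonneg _) (Nat.cast_nonneg _) (Nat.cast_nonneg _)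
    (Nat.cast_nonneg _) (Nat.cast_nonneg _) (Nat.cast_nonneg _) (Nat.cast_nonneg _)
    (Nat.cast_nonneg _) (Nat.cast_nonneg _) hd1 hd2 hd3 hX hY h0a h0b h1a h1b h2a h2b h3a h3b
    (s4 := ((Nat.shiftRight (X.c * Y.r + Y.c * X.r + X.w * Y.w) 40 : ℕ) : ℝ))
    (by simpa [T.w] using h4b)
  simpa [mul, shr, T.w] using core


/-! ### Monomials -/

lemma mval_zero (x : ℝ × ℝ × ℝ) : mval x (0, 0, 0) = 1 := by simp [mval]

lemma emit_sound {δ : ℝ × ℝ × ℝ} (hδ : Dl δ) {x : ℝ × ℝ × ℝ} {P Q R : T}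
    (hP : InT δ P x.1) (hQ : InT δ Q x.2.1) (hR : InT δ R x.2.2) (m : MT) :
    ∀ (acc : T) (e : ℕ × ℕ × ℕ) (rest : List T) (restE : List (ℕ × ℕ × ℕ)),
      InT δ acc (mval x e) → List.Forall₂ (fun X f => InT δ X (mval x f)) rest restE →
      List.Forall₂ (fun X f => InT δ X (mval x f)) (emit P Q R m acc rest)
        (MT.exps m e restE) := by
  induction m with
  | nil =>
    intro acc e rest restE _ h
    obtain ⟨i, j, k⟩ := e
    exact h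
  | p c s ihc ihs =>
    intro acc e rest restE ha h
    obtain ⟨i, j, k⟩ := e
    have hx : InT δ (mul P acc) (mval x (i + 1, j, k)) := by
      have : mval x (i + 1, j, k) = x.1 * mval x (i, j, k) := by
        simp only [mval]; ring
      rw [this]
      exact mul_in hδ hP ha
    exact List.Forall₂.cons hx (ihc _ _ _ _ hx (ihs _ _ _ _ ha h))
  | t c s ihc ihs =>
    intro acc e rest restE ha h
    obtain ⟨i, j, k⟩ := e
    have hx : InT δ (mul Q acc) (mval x (i, j + 1, k)) := by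
      have : mval x (i, j + 1, k) = x.2.1 * mval x (i, j, k) := by
        simp only [mval]; ring
      rw [this]
      exact mul_in hδ hQ ha
    exact List.Forall₂.cons hx (ihc _ _ _ _ hx (ihs _ _ _ _ ha h))
  | e c s ihc ihs =>
    intro acc e rest restE ha h
    obtain ⟨i, j, k⟩ := e
    have hx : InT δ (mul R acc) (mval x (i, j, k + 1)) := by
      have : mval x (i, j, k + 1) = x.2.2 * mval x (i, j, k) := by
        simp only [mval]; ring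
      rw [this]
      exact mul_in hδ hR ha
    exact List.Forall₂.cons hx (ihc _ _ _ _ hx (ihs _ _ _ _ ha h))

/-- The list of monomial models of a trie. -/
lemma monos_sound {δ : ℝ × ℝ × ℝ} (hδ : Dl δ) {x : ℝ × ℝ × ℝ} {P Q R : T}
    (hP : InT δ P x.1) (hQ : InT δ Q x.2.1) (hR : InT δ R x.2.2) (m : MT) :
    List.Forall₂ (fun X f => InT δ X (mval x f)) (one :: emit P Q R m one []) (mexps m) := by
  have h1 : InT δ one (mval x (0, 0, 0)) := by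
    rw [mval_zero]; exact one_in δ
  exact List.Forall₂.cons h1 (emit_sound hδ hP hQ hR m one (0, 0, 0) [] [] h1 List.Forall₂.nil)

/-! ### Signed combinations -/

/-- A pair of unscaled models encloses `u`. -/
def InPN (δ : ℝ × ℝ × ℝ) (P : PN) (u : ℝ) : Prop :=
  |u * 2 ^ 40 - (((P.pos.c : ℝ) - P.neg.c) + ((P.pos.a : ℝ) - P.neg.a) * δ.1
      + ((P.pos.b : ℝ) - P.neg.b) * δ.2.1 + ((P.pos.d : ℝ) - P.neg.d) * δ.2.2)|
    ≤ (P.pos.r : ℝ) + P.neg.r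

lemma dot_sound {δ : ℝ × ℝ × ℝ} {x : ℝ × ℝ × ℝ} (cs : List ℤ) :
    ∀ (ms : List T) (es : List (ℕ × ℕ × ℕ)),
      List.Forall₂ (fun X f => InT δ X (mval x f)) ms es →
      InPN δ (dot cs ms) (rowVal x cs es) := by
  induction cs with
  | nil =>
    intro ms es _
    have : rowVal x [] es = 0 := by
      cases es <;> rfl
    rw [this]
    have h : dot [] ms = ⟨zeroT, zeroT⟩ := rfl
    rw [h]
    simp [InPN, zeroT]
  | cons c cs ih =>
    intro ms es h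
    cases h with
    | nil =>
      have h : dot (c :: cs) [] = ⟨zeroT, zeroT⟩ := rfl
      rw [h]
      simp [InPN, zeroT, rowVal]
    | @cons m f ms' es' hm hr =>
      have hi := ih ms' es' hr
      have hrow : rowVal x (c :: cs) (f :: es') = (c : ℝ) * mval x f + rowVal x cs es' := rfl
      rw [hrow]
      unfold InT at hm
      unfold InPN at hi
      generalize hR : dot cs ms' = R at hi
      cases c with
      | ofNat n =>
        cases n with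
        | zero =>
          have h1 : dot (Int.ofNat 0 :: cs) (m :: ms') = R := by rw [← hR]; rfl
          rw [h1]
          unfold InPN
          simpa using hi
        | succ n =>
          have h1 : dot (Int.ofNat (n + 1) :: cs) (m :: ms')
              = ⟨addm (n + 1) m R.pos, R.neg⟩ := by rw [← hR]; rfl
          rw [h1]
          unfold InPN
          simp only [addm, Nat.add_eq, Nat.mul_eq]
          have hc : (((Int.ofNat (n + 1) : ℤ)) : ℝ) = (n : ℝ) + 1 := by simp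
          rw [hc]
          push_cast
          have hn : (0 : ℝ) ≤ (n : ℝ) + 1 := by positivity
          have h2 := mul_le_mul_of_nonneg_left (abs_le.1 hm).2 hn
          have h3 := mul_le_mul_of_nonneg_left (abs_le.1 hm).1 hn
          have h4 := abs_le.1 hi
          rw [abs_le]
          constructor <;> linarith [h2, h3, h4.1, h4.2]
      | negSucc n =>
        have h1 : dot (Int.negSucc n :: cs) (m :: ms')
            = ⟨R.pos, addm (n + 1) m R.neg⟩ := by rw [← hR]; rfl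
        rw [h1]
        unfold InPN
        simp only [addm, Nat.add_eq, Nat.mul_eq, Int.cast_negSucc]
        push_cast
        have hn : (0 : ℝ) ≤ (n : ℝ) + 1 := by positivity
        have h2 := mul_le_mul_of_nonneg_left (abs_le.1 hm).2 hn
        have h3 := mul_le_mul_of_nonneg_left (abs_le.1 hm).1 hn
        have h4 := abs_le.1 hi
        rw [abs_le]
        constructor <;> linarith [h2, h3, h4.1, h4.2]


/-! ### The net model -/

/-- A net model encloses `u`. -/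
structure GoodZ (δ : ℝ × ℝ × ℝ) (z : Z) (u : ℝ) : Prop where
  bd : |u * 2 ^ 40 - (((z.cp : ℝ) - z.cn) + ((z.ap : ℝ) - z.an) * δ.1
      + ((z.bp : ℝ) - z.bn) * δ.2.1 + ((z.dp : ℝ) - z.dn) * δ.2.2)| ≤ (z.r : ℝ)
  hv : (z.v : ℝ) = (z.cp : ℝ) + z.cn
  hw : (z.w : ℝ) = (z.ap : ℝ) + z.an + ((z.bp : ℝ) + z.bn + ((z.dp : ℝ) + z.dn + z.r))

lemma signed_shift (x y s : ℕ) :
    |((x : ℝ) - y) / 2 ^ s - (((Nat.shiftRight (x - y) s : ℕ) : ℝ)
        - ((Nat.shiftRight (y - x) s : ℕ) : ℝ))| ≤ 1 := by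
  have hP : (0 : ℝ) < 2 ^ s := by positivity
  rcases le_total y x with h | h
  · have e : y - x = 0 := Nat.sub_eq_zero_of_le h
    have e0 : Nat.shiftRight 0 s = 0 := Nat.zero_shiftRight s
    rw [e, e0]
    have h1 := shiftR_le (x - y) s
    have h2 := lt_shiftR (x - y) s
    have e2 : ((x - y : ℕ) : ℝ) = (x : ℝ) - y := by
      rw [Nat.cast_sub h]
    rw [e2] at h1 h2
    rw [abs_le]
    constructor
    · have : ((Nat.shiftRight (x - y) s : ℕ) : ℝ) ≤ ((x : ℝ) - y) / 2 ^ s := by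
        rw [le_div_iff₀ hP]; exact h1
      simp only [Nat.cast_zero, sub_zero]
      linarith
    · have : ((x : ℝ) - y) / 2 ^ s < ((Nat.shiftRight (x - y) s : ℕ) : ℝ) + 1 := by
        rw [div_lt_iff₀ hP]; exact h2
      simp only [Nat.cast_zero, sub_zero]
      linarith
  · have e : x - y = 0 := Nat.sub_eq_zero_of_le h
    have e0 : Nat.shiftRight 0 s = 0 := Nat.zero_shiftRight s
    rw [e, e0]
    have h1 := shiftR_le (y - x) s
    have h2 := lt_shiftR (y - x) s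
    have e2 : ((y - x : ℕ) : ℝ) = (y : ℝ) - x := by
      rw [Nat.cast_sub h]
    rw [e2] at h1 h2
    have e3 : ((x : ℝ) - y) / 2 ^ s = -(((y : ℝ) - x) / 2 ^ s) := by ring
    rw [e3, abs_le]
    constructor
    · have : ((y : ℝ) - x) / 2 ^ s < ((Nat.shiftRight (y - x) s : ℕ) : ℝ) + 1 := by
        rw [div_lt_iff₀ hP]; exact h2
      simp only [Nat.cast_zero, zero_sub]
      linarith
    · have : ((Nat.shiftRight (y - x) s : ℕ) : ℝ) ≤ ((y : ℝ) - x) / 2 ^ s := by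
        rw [le_div_iff₀ hP]; exact h1
      simp only [Nat.cast_zero, zero_sub]
      linarith

lemma net_sound {δ : ℝ × ℝ × ℝ} (hδ : Dl δ) {P : PN} {u : ℝ} (s : ℕ) (h : InPN δ P u) :
    GoodZ δ (net s P) (u / 2 ^ s) := by
  obtain ⟨hd1, hd2, hd3⟩ := hδ
  refine ⟨?_, ?_, ?_⟩
  · have hP : (0 : ℝ) < 2 ^ s := by positivity
    unfold InPN at h
    have hc := signed_shift P.pos.c P.neg.c s
    have ha := signed_shift P.pos.a P.neg.a s
    have hb := signed_shift P.pos.b P.neg.b s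
    have hd := signed_shift P.pos.d P.neg.d s
    have hr := lt_shiftR (P.pos.r + P.neg.r) s
    push_cast at hr
    have hdiv : |(u * 2 ^ 40 - (((P.pos.c : ℝ) - P.neg.c) + ((P.pos.a : ℝ) - P.neg.a) * δ.1
        + ((P.pos.b : ℝ) - P.neg.b) * δ.2.1 + ((P.pos.d : ℝ) - P.neg.d) * δ.2.2)) / 2 ^ s|
        ≤ ((Nat.shiftRight (P.pos.r + P.neg.r) s : ℕ) : ℝ) + 1 := by
      rw [abs_div, abs_of_pos hP, div_le_iff₀ hP]
      linarith
    simp only [net, Nat.add_eq, Nat.sub_eq]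
    push_cast
    set cc := ((Nat.shiftRight (P.pos.c - P.neg.c) s : ℕ) : ℝ)
      - ((Nat.shiftRight (P.neg.c - P.pos.c) s : ℕ) : ℝ) with hcc
    set aa := ((Nat.shiftRight (P.pos.a - P.neg.a) s : ℕ) : ℝ)
      - ((Nat.shiftRight (P.neg.a - P.pos.a) s : ℕ) : ℝ) with haa
    set bb := ((Nat.shiftRight (P.pos.b - P.neg.b) s : ℕ) : ℝ)
      - ((Nat.shiftRight (P.neg.b - P.pos.b) s : ℕ) : ℝ) with hbb
    set dd := ((Nat.shiftRight (P.pos.d - P.neg.d) s : ℕ) : ℝ)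
      - ((Nat.shiftRight (P.neg.d - P.pos.d) s : ℕ) : ℝ) with hdd
    have key : u / 2 ^ s * 2 ^ 40 - (cc + aa * δ.1 + bb * δ.2.1 + dd * δ.2.2)
        = (u * 2 ^ 40 - (((P.pos.c : ℝ) - P.neg.c) + ((P.pos.a : ℝ) - P.neg.a) * δ.1
        + ((P.pos.b : ℝ) - P.neg.b) * δ.2.1 + ((P.pos.d : ℝ) - P.neg.d) * δ.2.2)) / 2 ^ s
        + (((P.pos.c : ℝ) - P.neg.c) / 2 ^ s - cc)
        + (((P.pos.a : ℝ) - P.neg.a) / 2 ^ s - aa) * δ.1
        + (((P.pos.b : ℝ) - P.neg.b) / 2 ^ s - bb) * δ.2.1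
        + (((P.pos.d : ℝ) - P.neg.d) / 2 ^ s - dd) * δ.2.2 := by
      field_simp
      ring
    have m1 : |(((P.pos.a : ℝ) - P.neg.a) / 2 ^ s - aa) * δ.1| ≤ 1 := by
      rw [abs_mul]; exact mul_le_one₀ ha (abs_nonneg _) hd1
    have m2 : |(((P.pos.b : ℝ) - P.neg.b) / 2 ^ s - bb) * δ.2.1| ≤ 1 := by
      rw [abs_mul]; exact mul_le_one₀ hb (abs_nonneg _) hd2
    have m3 : |(((P.pos.d : ℝ) - P.neg.d) / 2 ^ s - dd) * δ.2.2| ≤ 1 := by
      rw [abs_mul]; exact mul_le_one₀ hd (abs_nonneg _) hd3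
    have q0 := abs_le.1 hc
    have q1 := abs_le.1 m1
    have q2 := abs_le.1 m2
    have q3 := abs_le.1 m3
    have q4 := abs_le.1 hdiv
    rw [abs_le]
    constructor <;> linarith [q0.1, q0.2, q1.1, q1.2, q2.1, q2.2, q3.1, q3.2, q4.1, q4.2, key]
  · simp only [net, Nat.add_eq, Nat.sub_eq]
    push_cast
    ring
  · simp only [net, Nat.add_eq, Nat.sub_eq]
    push_cast
    ring


/-! ### The pairing -/

/-- An accumulator encloses `S` (scale `2^80`). -/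
def InAc (δ δ' : ℝ × ℝ × ℝ) (A : Ac) (S : ℝ) : Prop :=
  |S - (((A.vp : ℝ) - A.vn) + ((A.z1p : ℝ) - A.z1n) * δ.1 + ((A.z2p : ℝ) - A.z2n) * δ.2.1
      + ((A.z3p : ℝ) - A.z3n) * δ.2.2 + ((A.y1p : ℝ) - A.y1n) * δ'.1
      + ((A.y2p : ℝ) - A.y2n) * δ'.2.1 + ((A.y3p : ℝ) - A.y3n) * δ'.2.2)| ≤ (A.e : ℝ)

/-- Scalar core of one pairing step. -/
lemma pair_core {C A B D r v w c a b d r' W d1 d2 d3 g1 g2 g3 U Y : ℝ}
    (hc : 0 ≤ c) (hv : |C| ≤ v)
    (hU : |U - (C + A * d1 + B * d2 + D * d3)| ≤ r)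
    (hY : |Y - (c + a * g1 + b * g2 + d * g3)| ≤ r')
    (hL1 : |A * d1 + B * d2 + D * d3 + (U - (C + A * d1 + B * d2 + D * d3))| ≤ w)
    (hL2 : |a * g1 + b * g2 + d * g3 + (Y - (c + a * g1 + b * g2 + d * g3))| ≤ W) :
    |U * Y - (C * c + A * c * d1 + B * c * d2 + D * c * d3 + C * a * g1 + C * b * g2 + C * d * g3)|
      ≤ v * r' + c * r + w * W := by
  set E1 := U - (C + A * d1 + B * d2 + D * d3) with hE1
  set E2 := Y - (c + a * g1 + b * g2 + d * g3) with hE2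
  set L1 := A * d1 + B * d2 + D * d3 + E1 with hLL1
  set L2 := a * g1 + b * g2 + d * g3 + E2 with hLL2
  have hr' : 0 ≤ r' := (abs_nonneg _).trans hY
  have key : U * Y - (C * c + A * c * d1 + B * c * d2 + D * c * d3 + C * a * g1 + C * b * g2
        + C * d * g3) = C * E2 + c * E1 + L1 * L2 := by
    have hU' : U = C + L1 := by rw [hLL1, hE1]; ring
    have hY' : Y = c + L2 := by rw [hLL2, hE2]; ring
    rw [hU', hY', hLL1, hLL2]
    ring
  rw [key]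
  have t1 : |C * E2| ≤ v * r' := by
    rw [abs_mul]; exact mul_le_mul hv hY (abs_nonneg _) ((abs_nonneg _).trans hv)
  have t2 : |c * E1| ≤ c * r := by
    rw [abs_mul, abs_of_nonneg hc]; exact mul_le_mul_of_nonneg_left hU hc
  have t3 : |L1 * L2| ≤ w * W := by
    rw [abs_mul]; exact mul_le_mul hL1 hL2 (abs_nonneg _) ((abs_nonneg _).trans hL1)
  have q1 := abs_le.1 t1
  have q2 := abs_le.1 t2
  have q3 := abs_le.1 t3
  rw [abs_le]
  constructor <;> linarith [q1.1, q1.2, q2.1, q2.2, q3.1, q3.2]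

lemma abs_slopes_le {a b d A' B' D' d1 d2 d3 E r : ℝ} (hd1 : |d1| ≤ 1) (hd2 : |d2| ≤ 1) (hd3 : |d3| ≤ 1)
    (ha : |a| ≤ A') (hb : |b| ≤ B') (hd : |d| ≤ D') (hE : |E| ≤ r) :
    |a * d1 + b * d2 + d * d3 + E| ≤ A' + (B' + (D' + r)) := by
  have hA' : 0 ≤ A' := (abs_nonneg _).trans ha
  have hB' : 0 ≤ B' := (abs_nonneg _).trans hb
  have hD' : 0 ≤ D' := (abs_nonneg _).trans hd
  have t1 : |a * d1| ≤ A' := by
    rw [abs_mul]; calc |a| * |d1| ≤ A' * 1 := mul_le_mul ha hd1 (abs_nonneg _) hA'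
      _ = A' := mul_one _
  have t2 : |b * d2| ≤ B' := by
    rw [abs_mul]; calc |b| * |d2| ≤ B' * 1 := mul_le_mul hb hd2 (abs_nonneg _) hB'
      _ = B' := mul_one _
  have t3 : |d * d3| ≤ D' := by
    rw [abs_mul]; calc |d| * |d3| ≤ D' * 1 := mul_le_mul hd hd3 (abs_nonneg _) hD'
      _ = D' := mul_one _
  have q1 := abs_le.1 t1
  have q2 := abs_le.1 t2
  have q3 := abs_le.1 t3
  have q4 := abs_le.1 hE
  rw [abs_le]
  constructor <;> linarith [q1.1, q1.2, q2.1, q2.2, q3.1, q3.2, q4.1, q4.2]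

lemma abs_nat_sub_le (x y : ℕ) : |(x : ℝ) - y| ≤ (x : ℝ) + y := by
  have hx : (0 : ℝ) ≤ x := Nat.cast_nonneg _
  have hy : (0 : ℝ) ≤ y := Nat.cast_nonneg _
  rw [abs_le]
  constructor <;> linarith

lemma nat_abs_self (x : ℕ) : |(x : ℝ)| ≤ x := by
  rw [abs_of_nonneg (Nat.cast_nonneg _)]

/-- One step: the model of a product of a net model and a `y` monomial. -/
lemma pair_step {δ δ' : ℝ × ℝ × ℝ} (hδ : Dl δ) (hδ' : Dl δ') {z : Z} {m : T} {u v : ℝ}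
    (hz : GoodZ δ z u) (hm : InT δ' m v) :
    |u * 2 ^ 40 * (v * 2 ^ 40) - ((((z.cp : ℝ) - z.cn)) * m.c + ((z.ap : ℝ) - z.an) * m.c * δ.1
        + ((z.bp : ℝ) - z.bn) * m.c * δ.2.1 + ((z.dp : ℝ) - z.dn) * m.c * δ.2.2
        + ((z.cp : ℝ) - z.cn) * m.a * δ'.1 + ((z.cp : ℝ) - z.cn) * m.b * δ'.2.1
        + ((z.cp : ℝ) - z.cn) * m.d * δ'.2.2)|
      ≤ (z.v : ℝ) * m.r + (m.c : ℝ) * z.r + (z.w : ℝ) * T.w m := by
  obtain ⟨h1, h2, h3⟩ := hδ
  obtain ⟨g1, g2, g3⟩ := hδ'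
  have hw' : ((T.w m : ℕ) : ℝ) = (m.a : ℝ) + ((m.b : ℝ) + ((m.d : ℝ) + m.r)) := by
    simp only [T.w, Nat.add_eq]; push_cast; ring
  have hzw := hz.hw
  have hzv := hz.hv
  refine pair_core (Nat.cast_nonneg _) ?_ hz.bd hm ?_ ?_
  · rw [hzv]; exact abs_nat_sub_le _ _
  · rw [hzw]
    have := abs_slopes_le (E := (u * 2 ^ 40 - (((z.cp : ℝ) - z.cn) + ((z.ap : ℝ) - z.an) * δ.1
      + ((z.bp : ℝ) - z.bn) * δ.2.1 + ((z.dp : ℝ) - z.dn) * δ.2.2))) h1 h2 h3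
      (abs_nat_sub_le z.ap z.an) (abs_nat_sub_le z.bp z.bn) (abs_nat_sub_le z.dp z.dn) hz.bd
    exact this
  · rw [hw']
    have := abs_slopes_le (E := (v * 2 ^ 40 - ((m.c : ℝ) + (m.a : ℝ) * δ'.1
      + (m.b : ℝ) * δ'.2.1 + (m.d : ℝ) * δ'.2.2))) g1 g2 g3
      (nat_abs_self m.a) (nat_abs_self m.b) (nat_abs_self m.d) hm
    exact this

/-- Soundness of the pairing. -/
lemma pair_sound {δ δ' : ℝ × ℝ × ℝ} (hδ : Dl δ) (hδ' : Dl δ') {x y : ℝ × ℝ × ℝ} {ms : List T}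
    {es : List (ℕ × ℕ × ℕ)} (hms : List.Forall₂ (fun X f => InT δ X (mval x f)) ms es) (s : ℕ)
    (rows : List (List ℤ)) :
    ∀ (ms' : List T) (fs : List (ℕ × ℕ × ℕ)),
      List.Forall₂ (fun X f => InT δ' X (mval y f)) ms' fs →
      InAc δ δ' (pair (coefs s ms rows) ms') (2 ^ 80 * (tabVal x y es rows fs / 2 ^ s)) := by
  induction rows with
  | nil =>
    intro ms' fs _
    have h1 : tabVal x y es [] fs = 0 := by cases fs <;> rfl
    have h2 : pair (coefs s ms []) ms' = ⟨0, 0, 0, 0, 0, 0, 0, 0, 0, 0, 0, 0, 0, 0, 0⟩ := rfl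
    rw [h1, h2]
    simp [InAc]
  | cons r rs ih =>
    intro ms' fs h
    cases h with
    | nil =>
      have h1 : tabVal x y es (r :: rs) [] = 0 := rfl
      have h2 : pair (coefs s ms (r :: rs)) [] = ⟨0, 0, 0, 0, 0, 0, 0, 0, 0, 0, 0, 0, 0, 0, 0⟩ := rfl
      rw [h1, h2]
      simp [InAc]
    | @cons m f ms'' fs' hm hrest =>
      have hi := ih ms'' fs' hrest
      have hz := net_sound hδ s (dot_sound (δ := δ) (x := x) r ms es hms)
      have hstep := pair_step hδ hδ' hz hm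
      have ht : tabVal x y es (r :: rs) (f :: fs') = rowVal x r es * mval y f + tabVal x y es rs fs' :=
        rfl
      generalize hzz : net s (dot r ms) = z at hz hstep
      have hp : pair (coefs s ms (r :: rs)) (m :: ms'') =
          ⟨z.cp * m.c + (pair (coefs s ms rs) ms'').vp, z.cn * m.c + (pair (coefs s ms rs) ms'').vn,
           z.ap * m.c + (pair (coefs s ms rs) ms'').z1p, z.an * m.c + (pair (coefs s ms rs) ms'').z1n,
           z.bp * m.c + (pair (coefs s ms rs) ms'').z2p, z.bn * m.c + (pair (coefs s ms rs) ms'').z2n,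
           z.dp * m.c + (pair (coefs s ms rs) ms'').z3p, z.dn * m.c + (pair (coefs s ms rs) ms'').z3n,
           z.cp * m.a + (pair (coefs s ms rs) ms'').y1p, z.cn * m.a + (pair (coefs s ms rs) ms'').y1n,
           z.cp * m.b + (pair (coefs s ms rs) ms'').y2p, z.cn * m.b + (pair (coefs s ms rs) ms'').y2n,
           z.cp * m.d + (pair (coefs s ms rs) ms'').y3p, z.cn * m.d + (pair (coefs s ms rs) ms'').y3n,
           z.v * m.r + m.c * z.r + z.w * T.w m + (pair (coefs s ms rs) ms'').e⟩ := by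
        rw [← hzz]; rfl
      rw [hp, ht]
      unfold InAc at hi ⊢
      generalize pair (coefs s ms rs) ms'' = R at hi
      push_cast
      have e : (2 : ℝ) ^ 80 * ((rowVal x r es * mval y f + tabVal x y es rs fs') / 2 ^ s)
          = rowVal x r es / 2 ^ s * 2 ^ 40 * (mval y f * 2 ^ 40)
            + 2 ^ 80 * (tabVal x y es rs fs' / 2 ^ s) := by
        ring
      rw [e]
      have q1 := abs_le.1 hstep
      have q2 := abs_le.1 hi
      rw [abs_le]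
      constructor <;> linarith [q1.1, q1.2, q2.1, q2.2]

lemma adiff_cast (x y : ℕ) : ((adiff x y : ℕ) : ℝ) = |(x : ℝ) - y| := by
  simp only [adiff, Nat.add_eq, Nat.sub_eq]
  rcases le_total y x with h | h
  · rw [Nat.sub_eq_zero_of_le h, add_zero, Nat.cast_sub h, abs_of_nonneg]
    have : (y : ℝ) ≤ x := by exact_mod_cast h
    linarith
  · rw [Nat.sub_eq_zero_of_le h, zero_add, Nat.cast_sub h, abs_of_nonpos]
    · ring
    · have : (x : ℝ) ≤ y := by exact_mod_cast h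
      linarith

lemma sl_lb (a d : ℝ) (hd : |d| ≤ 1) : -|a| ≤ a * d := by
  have h1 : |a * d| ≤ |a| := by
    rw [abs_mul]; exact mul_le_of_le_one_right (abs_nonneg _) hd
  exact (abs_le.1 h1).1

/-- The lower bound of an accumulator. -/
lemma lb_of_InAc {δ δ' : ℝ × ℝ × ℝ} (hδ : Dl δ) (hδ' : Dl δ') {A : Ac} {S : ℝ}
    (h : InAc δ δ' A S) : (A.vp : ℝ) - ((tot A : ℕ) : ℝ) ≤ S := by
  obtain ⟨h1, h2, h3⟩ := hδ
  obtain ⟨g1, g2, g3⟩ := hδ'
  unfold InAc at h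
  have hh := (abs_le.1 h).1
  have t : ((tot A : ℕ) : ℝ) = (A.vn : ℝ) + ((A.e : ℝ) + (|(A.z1p : ℝ) - A.z1n| + (|(A.z2p : ℝ) - A.z2n|
      + (|(A.z3p : ℝ) - A.z3n| + (|(A.y1p : ℝ) - A.y1n| + (|(A.y2p : ℝ) - A.y2n|
        + |(A.y3p : ℝ) - A.y3n|)))))) := by
    simp only [tot, Nat.add_eq]
    push_cast
    simp only [adiff_cast]
  rw [t]
  linarith [sl_lb ((A.z1p : ℝ) - A.z1n) _ h1, sl_lb ((A.z2p : ℝ) - A.z2n) _ h2,
    sl_lb ((A.z3p : ℝ) - A.z3n) _ h3, sl_lb ((A.y1p : ℝ) - A.y1n) _ g1,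
    sl_lb ((A.y2p : ℝ) - A.y2n) _ g2, sl_lb ((A.y3p : ℝ) - A.y3n) _ g3]


/-! ### Boxes -/

lemma exists_t {l u : ℕ} {X : ℝ} (h1 : (l : ℝ) ≤ X) (h2 : X ≤ u) :
    ∃ t : ℝ, |t| ≤ 1 ∧
      X * 65536 = ((l + u : ℕ) : ℝ) * 32768 + (((u - l : ℕ) : ℝ) * 32768) * t := by
  have hlu : l ≤ u := by exact_mod_cast h1.trans h2
  rw [Nat.cast_sub hlu, Nat.cast_add]
  rcases eq_or_lt_of_le hlu with h | h
  · subst h
    refine ⟨0, by simp, ?_⟩
    have : X = l := le_antisymm h2 h1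
    rw [this]; ring
  · have hlt : (l : ℝ) < u := by exact_mod_cast h
    have hpos : (0 : ℝ) < (u : ℝ) - l := by linarith
    refine ⟨(2 * X - (l + u)) / ((u : ℝ) - l), ?_, ?_⟩
    · rw [abs_le]
      constructor
      · rw [le_div_iff₀ hpos]; linarith
      · rw [div_le_iff₀ hpos]; linarith
    · field_simp
      ring

/-- A point of a box has parameters. -/
lemma box_param {B : Box} {x : ℝ × ℝ × ℝ} (h : InBox B x) :
    ∃ δ, Dl δ ∧ InT δ (vP B) x.1 ∧ InT δ (vQ B) x.2.1 ∧ InT δ (vR B) x.2.2 := by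
  obtain ⟨a1, a2, a3, a4, a5, a6⟩ := h
  obtain ⟨t1, ht1, e1⟩ := exists_t a1 a2
  obtain ⟨t2, ht2, e2⟩ := exists_t a3 a4
  obtain ⟨t3, ht3, e3⟩ := exists_t a5 a6
  refine ⟨(t1, t2, t3), ⟨ht1, ht2, ht3⟩, ?_, ?_, ?_⟩
  · unfold InT vP
    simp only [Nat.mul_eq, Nat.add_eq, Nat.sub_eq]
    push_cast at e1 ⊢
    have : x.1 * 2 ^ 40 = 2 ^ 24 * x.1 * 65536 := by ring
    rw [this, e1]
    simp
  · unfold InT vQ
    simp only [Nat.mul_eq, Nat.add_eq, Nat.sub_eq]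
    push_cast at e2 ⊢
    have : x.2.1 * 2 ^ 40 = 2 ^ 24 * x.2.1 * 65536 := by ring
    rw [this, e2]
    simp
  · unfold InT vR
    simp only [Nat.mul_eq, Nat.add_eq, Nat.sub_eq]
    push_cast at e3 ⊢
    have : x.2.2 * 2 ^ 40 = 2 ^ 24 * x.2.2 * 65536 := by ring
    rw [this, e3]
    simp

/-- Scalar core of the leaf test. -/
lemma leaf_core {A Bc p1 p2 X1 X2 S lb : ℝ} (hA : 0 ≤ A) (hB : 0 ≤ Bc) (h1 : p1 ≤ 2 ^ 24 * X1)
    (h2 : 2 ^ 24 * X2 ≤ p2) (hX1 : 0 < X1) (hX2 : 0 < X2) (hlb : lb ≤ S)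
    (htest : 0 ≤ A * p1 + Bc * p2 * lb) : 0 ≤ A * X1 + Bc * X2 * S := by
  have hP : (0 : ℝ) < 2 ^ 24 := by positivity
  rcases le_total 0 S with hS | hS
  · positivity
  · have t1 : A * p1 ≤ A * (2 ^ 24 * X1) := mul_le_mul_of_nonneg_left h1 hA
    have t2 : Bc * S * p2 ≤ Bc * S * (2 ^ 24 * X2) :=
      mul_le_mul_of_nonpos_left h2 (mul_nonpos_of_nonneg_of_nonpos hB hS)
    have hp2 : 0 ≤ p2 := le_trans (by positivity) h2
    have t3 : Bc * p2 * lb ≤ Bc * p2 * S := mul_le_mul_of_nonneg_left hlb (by positivity)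
    have : 0 ≤ 2 ^ 24 * (A * X1 + Bc * X2 * S) := by nlinarith
    exact nonneg_of_mul_nonneg_right this hP

theorem leaf_sound (D : Data) (ZB YB : Box) {x y : ℝ × ℝ × ℝ} (hx : InBox ZB x) (hy : InBox YB y)
    (hrx : Reg D.sz x) (hry : Reg D.sy y)
    (h : leafTest D (zData D ZB) (yData D YB) ZB YB = true) : 0 ≤ Goal D x y := by
  obtain ⟨δ, hδ, h1, h2, h3⟩ := box_param hx
  obtain ⟨δ', hδ', g1, g2, g3⟩ := box_param hy
  have hac := pair_sound hδ hδ' (monos_sound hδ h1 h2 h3 D.zt) D.s D.cf _ _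
    (monos_sound hδ' g1 g2 g3 D.yt)
  have hlb := lb_of_InAc hδ hδ' hac
  have hz : pair (coefs D.s (one :: emit (vP ZB) (vQ ZB) (vR ZB) D.zt one []) D.cf)
      (one :: emit (vP YB) (vQ YB) (vR YB) D.yt one []) = pair (zData D ZB) (yData D YB) := rfl
  rw [hz] at hlb
  unfold leafTest at h
  generalize pair (zData D ZB) (yData D YB) = P at h hlb
  have hb : D.Bc * (cond D.mode ZB.p2 YB.p2) * tot P
      ≤ D.A * (cond D.mode YB.p1 ZB.p1) + D.Bc * (cond D.mode ZB.p2 YB.p2) * P.vp :=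
    Nat.le_of_ble_eq_true h
  have hbr : ((D.Bc : ℝ) * ((cond D.mode ZB.p2 YB.p2 : ℕ) : ℝ)) * ((tot P : ℕ) : ℝ)
      ≤ (D.A : ℝ) * ((cond D.mode YB.p1 ZB.p1 : ℕ) : ℝ)
        + ((D.Bc : ℝ) * ((cond D.mode ZB.p2 YB.p2 : ℕ) : ℝ)) * (P.vp : ℝ) := by
    exact_mod_cast hb
  unfold Goal
  obtain ⟨hx1, hx2, -⟩ := hx
  obtain ⟨hy1, hy2, -⟩ := hy
  have hA : (0 : ℝ) ≤ D.A := Nat.cast_nonneg _
  have hB : (0 : ℝ) ≤ D.Bc := Nat.cast_nonneg _
  have e : (2 : ℝ) ^ 80 * (tabVal x y (mexps D.zt) D.cf (mexps D.yt) / 2 ^ D.s)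
      = 2 ^ 80 * Aval D x y := rfl
  rw [e] at hlb
  cases hm : D.mode with
  | true =>
    rw [hm] at hbr
    simp only [cond_true] at hbr
    simp only [if_true]
    have := leaf_core hA hB hy1 hx2 hry.p_pos hrx.p_pos hlb (by nlinarith)
    nlinarith
  | false =>
    rw [hm] at hbr
    simp only [cond_false] at hbr
    simp only [Bool.false_eq_true, if_false]
    have := leaf_core hA hB hx1 hy2 hrx.p_pos hry.p_pos hlb (by nlinarith)
    nlinarith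


/-! ### Exclusions -/

lemma bb_cast : ((BB : ℕ) : ℝ) = 2 ^ 24 := by
  simp only [BB]
  norm_num

/-- The exclusion test with the scale as a parameter (the kernel must not multiply the literal
scale out when it compares terms). -/
def exclK (K : ℕ) (s : Bool) (B : Box) (code : ℕ) : Bool :=
  Nat.rec (motive := fun _ => Bool)
    (Nat.blt (Nat.mul B.p2 K) (Nat.mul 27 (Nat.mul B.t1 B.t1)))
    (fun n _ => Nat.rec (motive := fun _ => Bool)
      (Nat.blt (Nat.mul B.p2 (Nat.mul B.e2 B.e2)) (Nat.mul 3 (Nat.mul (Nat.mul B.t1 B.t1) K)))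
      (fun n _ => Nat.rec (motive := fun _ => Bool)
        (cond s
          (Nat.blt (Nat.add (Nat.mul K K) (Nat.mul 2 (Nat.mul B.p2 B.t2))) (Nat.mul B.p1 K))
          (Nat.blt (Nat.mul K K) (Nat.add (Nat.mul B.p1 K) (Nat.mul 2 (Nat.mul B.p1 B.t1)))))
        (fun n _ => Nat.rec (motive := fun _ => Bool)
          (let d := Nat.max (adiff K B.p1) (adiff K B.p2)
           cond s
            (Nat.blt (Nat.add (Nat.mul (Nat.mul d d) K) (Nat.mul 8 (Nat.mul (Nat.mul B.p2 B.t2) K)))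
              (Nat.mul 4 (Nat.mul (Nat.mul B.p1 B.p1) B.e1)))
            (Nat.blt (Nat.mul (Nat.mul d d) K)
              (Nat.add (Nat.mul 4 (Nat.mul (Nat.mul B.p1 B.p1) B.e1))
                (Nat.mul 8 (Nat.mul (Nat.mul B.p1 B.t1) K)))))
          (fun _ _ =>
            let f1 := Nat.sub K (Nat.mul 4 B.e1)
            let f2 := Nat.sub (Nat.mul 4 B.e1) K
            let t2 := Nat.mul B.t1 B.t1
            Nat.blt
              (Nat.add (Nat.mul (Nat.mul (Nat.mul B.p2 B.p2) (Nat.mul B.e2 B.e2)) f1)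
                (Nat.mul 18 (Nat.mul (Nat.mul (Nat.mul B.p2 B.e2) (Nat.mul B.t2 B.t2)) K)))
              (Nat.add (Nat.mul 4 (Nat.mul (Nat.mul B.p1 t2) (Nat.mul K K)))
                (Nat.add (Nat.mul 27 (Nat.mul (Nat.mul t2 t2) K))
                  (Nat.mul (Nat.mul (Nat.mul B.p1 B.p1) (Nat.mul B.e1 B.e1)) f2)))) n) n) n) code

lemma excl_eq (s : Bool) (B : Box) (c : ℕ) : excl s B c = exclK BB s B c := rfl

lemma exclK_0 (K : ℕ) (s : Bool) (B : Box) :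
    exclK K s B 0 = Nat.blt (B.p2 * K) (27 * (B.t1 * B.t1)) := rfl
lemma exclK_1 (K : ℕ) (s : Bool) (B : Box) :
    exclK K s B 1 = Nat.blt (B.p2 * (B.e2 * B.e2)) (3 * (B.t1 * B.t1 * K)) := rfl
lemma exclK_2t (K : ℕ) (B : Box) :
    exclK K true B 2 = Nat.blt (K * K + 2 * (B.p2 * B.t2)) (B.p1 * K) := rfl
lemma exclK_2f (K : ℕ) (B : Box) :
    exclK K false B 2 = Nat.blt (K * K) (B.p1 * K + 2 * (B.p1 * B.t1)) := rfl
lemma exclK_3t (K : ℕ) (B : Box) :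
    exclK K true B 3 = Nat.blt
      (Nat.max (adiff K B.p1) (adiff K B.p2) * Nat.max (adiff K B.p1) (adiff K B.p2) * K
        + 8 * (B.p2 * B.t2 * K)) (4 * (B.p1 * B.p1 * B.e1)) := rfl
lemma exclK_3f (K : ℕ) (B : Box) :
    exclK K false B 3 = Nat.blt
      (Nat.max (adiff K B.p1) (adiff K B.p2) * Nat.max (adiff K B.p1) (adiff K B.p2) * K)
      (4 * (B.p1 * B.p1 * B.e1) + 8 * (B.p1 * B.t1 * K)) := rfl

lemma exclK_4 (K : ℕ) (s : Bool) (B : Box) (n : ℕ) :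
    exclK K s B (n + 4) = Nat.blt
      (B.p2 * B.p2 * (B.e2 * B.e2) * (K - 4 * B.e1) + 18 * (B.p2 * B.e2 * (B.t2 * B.t2) * K))
      (4 * (B.p1 * (B.t1 * B.t1) * (K * K)) + (27 * (B.t1 * B.t1 * (B.t1 * B.t1) * K)
        + B.p1 * B.p1 * (B.e1 * B.e1) * (4 * B.e1 - K))) := rfl

/-- Excluded boxes contain no point of the region. -/
theorem excl_sound {s : Bool} {B : Box} {c : ℕ} (h : excl s B c = true) {x : ℝ × ℝ × ℝ}
    (hx : InBox B x) (hr : Reg s x) : False := by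
  obtain ⟨a1, a2, a3, a4, a5, a6⟩ := hx
  have hp0 := hr.p_pos
  have ht0 := hr.t_nn
  have he0 := hr.e_nn
  set X := 2 ^ 24 * x.1 with hX
  set Y := 2 ^ 24 * x.2.1 with hY
  set E := 2 ^ 24 * x.2.2 with hE
  have hX0 : 0 < X := by positivity
  have hY0 : 0 ≤ Y := by positivity
  have hE0 : 0 ≤ E := by positivity
  have p1nn : (0 : ℝ) ≤ B.p1 := Nat.cast_nonneg _
  have t1nn : (0 : ℝ) ≤ B.t1 := Nat.cast_nonneg _
  have e1nn : (0 : ℝ) ≤ B.e1 := Nat.cast_nonneg _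
  have p2nn : (0 : ℝ) ≤ B.p2 := Nat.cast_nonneg _
  have t2nn : (0 : ℝ) ≤ B.t2 := Nat.cast_nonneg _
  have e2nn : (0 : ℝ) ≤ B.e2 := Nat.cast_nonneg _
  have hBB : (2 : ℝ) ^ 24 = 16777216 := by norm_num
  have ex : x.1 = X / 2 ^ 24 := by rw [hX]; field_simp
  have ey : x.2.1 = Y / 2 ^ 24 := by rw [hY]; field_simp
  have ez : x.2.2 = E / 2 ^ 24 := by rw [hE]; field_simp
  have g2 := hr.g2
  have g3 := hr.g3
  have g5 := hr.g5
  have g6 := hr.g6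
  rw [ex, ey] at g6
  rw [ex, ey, ez] at g5
  rw [ex, ey] at g2
  rw [ex, ey, ez] at g3
  have htt : (B.t1 : ℝ) ^ 2 ≤ Y ^ 2 := pow_le_pow_left₀ t1nn a3 2
  have hpp : (B.p1 : ℝ) ^ 2 ≤ X ^ 2 := pow_le_pow_left₀ p1nn a1 2
  have hee : E ^ 2 ≤ (B.e2 : ℝ) ^ 2 := pow_le_pow_left₀ hE0 a6 2
  have g6' : 27 * Y ^ 2 ≤ X * 2 ^ 24 := by
    field_simp at g6
    linarith
  have g5' : 3 * Y ^ 2 * 2 ^ 24 ≤ X * E ^ 2 := by
    field_simp at g5
    linarith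
  have hc : c = 0 ∨ c = 1 ∨ c = 2 ∨ c = 3 ∨ ∃ n, c = n + 4 := by
    by_cases h4 : 4 ≤ c
    · exact Or.inr (Or.inr (Or.inr (Or.inr ⟨c - 4, by omega⟩)))
    · omega
  rcases hc with rfl | rfl | rfl | rfl | ⟨n, rfl⟩
  · -- the code g6
    have h0 : B.p2 * BB < 27 * (B.t1 * B.t1) := by
      rw [excl_eq, exclK_0, Nat.blt_eq] at h; exact h
    have h1 : (B.p2 : ℝ) * 2 ^ 24 < 27 * ((B.t1 : ℝ) * B.t1) := by
      rw [← bb_cast]; exact_mod_cast h0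
    linarith only [h1, g6', htt, a2]
  · -- the code g5
    have h0 : B.p2 * (B.e2 * B.e2) < 3 * (B.t1 * B.t1 * BB) := by
      rw [excl_eq, exclK_1, Nat.blt_eq] at h; exact h
    have h1 : (B.p2 : ℝ) * ((B.e2 : ℝ) * B.e2) < 3 * ((B.t1 : ℝ) * B.t1 * 2 ^ 24) := by
      rw [← bb_cast]; exact_mod_cast h0
    have h2 : X * E ^ 2 ≤ (B.p2 : ℝ) * (B.e2 : ℝ) ^ 2 :=
      mul_le_mul a2 hee (sq_nonneg _) p2nn
    linarith only [h1, h2, g5', htt]
  · -- the code g2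
    have hxy : X * Y ≤ (B.p2 : ℝ) * B.t2 := mul_le_mul a2 a4 hY0 p2nn
    have hxy2 : (B.p1 : ℝ) * B.t1 ≤ X * Y := mul_le_mul a1 a3 t1nn hX0.le
    cases s with
    | true =>
      have h0 : BB * BB + 2 * (B.p2 * B.t2) < B.p1 * BB := by
        rw [excl_eq, exclK_2t, Nat.blt_eq] at h; exact h
      have h1 : (2 : ℝ) ^ 24 * 2 ^ 24 + 2 * ((B.p2 : ℝ) * B.t2) < (B.p1 : ℝ) * 2 ^ 24 := by
        rw [← bb_cast]; exact_mod_cast h0
      simp only [if_true] at g2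
      have g2' : X * 2 ^ 24 ≤ 2 ^ 24 * 2 ^ 24 + 2 * (X * Y) := by
        field_simp at g2
        linarith only [g2]
      linarith only [h1, g2', hxy, a1]
    | false =>
      have h0 : BB * BB < B.p1 * BB + 2 * (B.p1 * B.t1) := by
        rw [excl_eq, exclK_2f, Nat.blt_eq] at h; exact h
      have h1 : (2 : ℝ) ^ 24 * 2 ^ 24 < (B.p1 : ℝ) * 2 ^ 24 + 2 * ((B.p1 : ℝ) * B.t1) := by
        rw [← bb_cast]; exact_mod_cast h0
      simp only [Bool.false_eq_true, if_false] at g2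
      have g2' : X * 2 ^ 24 + 2 * (X * Y) ≤ 2 ^ 24 * 2 ^ 24 := by
        field_simp at g2
        linarith only [g2]
      linarith only [h1, g2', hxy2, a1]
  · -- the code g3
    have hxy : X * Y ≤ (B.p2 : ℝ) * B.t2 := mul_le_mul a2 a4 hY0 p2nn
    have hxy2 : (B.p1 : ℝ) * B.t1 ≤ X * Y := mul_le_mul a1 a3 t1nn hX0.le
    have hppe : (B.p1 : ℝ) ^ 2 * B.e1 ≤ X ^ 2 * E := mul_le_mul hpp a5 e1nn (sq_nonneg _)
    have hd1 : |(2 : ℝ) ^ 24 - B.p1| ≤ (Nat.max (adiff BB B.p1) (adiff BB B.p2) : ℕ) := by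
      have : adiff BB B.p1 ≤ Nat.max (adiff BB B.p1) (adiff BB B.p2) := Nat.le_max_left _ _
      have h2 : ((adiff BB B.p1 : ℕ) : ℝ) ≤ (Nat.max (adiff BB B.p1) (adiff BB B.p2) : ℕ) := by
        exact_mod_cast this
      rw [adiff_cast, bb_cast] at h2
      exact h2
    have hd2 : |(2 : ℝ) ^ 24 - B.p2| ≤ (Nat.max (adiff BB B.p1) (adiff BB B.p2) : ℕ) := by
      have : adiff BB B.p2 ≤ Nat.max (adiff BB B.p1) (adiff BB B.p2) := Nat.le_max_right _ _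
      have h2 : ((adiff BB B.p2 : ℕ) : ℝ) ≤ (Nat.max (adiff BB B.p1) (adiff BB B.p2) : ℕ) := by
        exact_mod_cast this
      rw [adiff_cast, bb_cast] at h2
      exact h2
    cases s with
    | true =>
      rw [excl_eq, exclK_3t, Nat.blt_eq] at h
      generalize Nat.max (adiff BB B.p1) (adiff BB B.p2) = D at h hd1 hd2
      have hdd : ((2 : ℝ) ^ 24 - X) ^ 2 ≤ (D : ℝ) ^ 2 := by
        have h5 : |(2 : ℝ) ^ 24 - X| ≤ D := by
          have q1 := abs_le.1 hd1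
          have q2 := abs_le.1 hd2
          rw [abs_le]
          constructor <;> linarith only [q1.1, q1.2, q2.1, q2.2, a1, a2]
        have := abs_le.1 h5
        exact sq_le_sq' (by linarith only [this.1]) this.2
      have h1 : (D : ℝ) * D * 2 ^ 24 + 8 * ((B.p2 : ℝ) * B.t2 * 2 ^ 24)
          < 4 * ((B.p1 : ℝ) * B.p1 * B.e1) := by
        rw [← bb_cast]; exact_mod_cast h
      simp only [if_true] at g3
      have g3' : 4 * (X ^ 2 * E) ≤ (2 ^ 24 - X) ^ 2 * 2 ^ 24 + 8 * (X * Y) * 2 ^ 24 := by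
        field_simp at g3
        linarith only [g3]
      linarith only [h1, g3', hdd, hxy, hppe]
    | false =>
      rw [excl_eq, exclK_3f, Nat.blt_eq] at h
      generalize Nat.max (adiff BB B.p1) (adiff BB B.p2) = D at h hd1 hd2
      have hdd : ((2 : ℝ) ^ 24 - X) ^ 2 ≤ (D : ℝ) ^ 2 := by
        have h5 : |(2 : ℝ) ^ 24 - X| ≤ D := by
          have q1 := abs_le.1 hd1
          have q2 := abs_le.1 hd2
          rw [abs_le]
          constructor <;> linarith only [q1.1, q1.2, q2.1, q2.2, a1, a2]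
        have := abs_le.1 h5
        exact sq_le_sq' (by linarith only [this.1]) this.2
      have h1 : (D : ℝ) * D * 2 ^ 24
          < 4 * ((B.p1 : ℝ) * B.p1 * B.e1) + 8 * ((B.p1 : ℝ) * B.t1 * 2 ^ 24) := by
        rw [← bb_cast]; exact_mod_cast h
      simp only [Bool.false_eq_true, if_false] at g3
      have g3' : 4 * (X ^ 2 * E) + 8 * (X * Y) * 2 ^ 24 ≤ (2 ^ 24 - X) ^ 2 * 2 ^ 24 := by
        field_simp at g3
        linarith only [g3]
      linarith only [h1, g3', hdd, hxy2, hppe]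
  · -- the code g7
    rw [excl_eq, exclK_4, Nat.blt_eq] at h
    have g7 := hr.g7
    rw [ex, ey, ez] at g7
    have g7' : 0 ≤ X ^ 2 * E ^ 2 * (2 ^ 24 - 4 * E) + 18 * (X * E * Y ^ 2) * 2 ^ 24
        - 4 * (X * Y ^ 2) * (2 ^ 24 * 2 ^ 24) - 27 * (Y ^ 2 * Y ^ 2) * 2 ^ 24 := by
      have e7 : X ^ 2 * E ^ 2 * (2 ^ 24 - 4 * E) + 18 * (X * E * Y ^ 2) * 2 ^ 24
          - 4 * (X * Y ^ 2) * (2 ^ 24 * 2 ^ 24) - 27 * (Y ^ 2 * Y ^ 2) * 2 ^ 24
          = (2 ^ 24) ^ 5 * ((X / 2 ^ 24) ^ 2 * (E / 2 ^ 24) ^ 2 * (1 - 4 * (E / 2 ^ 24))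
            + 18 * (X / 2 ^ 24) * (E / 2 ^ 24) * (Y / 2 ^ 24) ^ 2
            - 4 * (X / 2 ^ 24) * (Y / 2 ^ 24) ^ 2 - 27 * (Y / 2 ^ 24) ^ 4) := by
        field_simp
      rw [e7]
      exact mul_nonneg (by positivity) g7
    -- the products of the box bounds
    have hXE : (B.p1 : ℝ) ^ 2 * (B.e1 : ℝ) ^ 2 ≤ X ^ 2 * E ^ 2 :=
      mul_le_mul hpp (pow_le_pow_left₀ e1nn a5 2) (sq_nonneg _) (sq_nonneg _)
    have hXE2 : X ^ 2 * E ^ 2 ≤ (B.p2 : ℝ) ^ 2 * (B.e2 : ℝ) ^ 2 :=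
      mul_le_mul (pow_le_pow_left₀ hX0.le a2 2) hee (sq_nonneg _) (sq_nonneg _)
    have hY2 : Y ^ 2 ≤ (B.t2 : ℝ) ^ 2 := pow_le_pow_left₀ hY0 a4 2
    have hXEY : X * E * Y ^ 2 ≤ (B.p2 : ℝ) * B.e2 * (B.t2 : ℝ) ^ 2 :=
      mul_le_mul (mul_le_mul a2 a6 hE0 p2nn) hY2 (sq_nonneg _) (mul_nonneg p2nn e2nn)
    have hXY : (B.p1 : ℝ) * (B.t1 : ℝ) ^ 2 ≤ X * Y ^ 2 :=
      mul_le_mul a1 htt (sq_nonneg _) hX0.le
    have hY4 : (B.t1 : ℝ) ^ 2 * (B.t1 : ℝ) ^ 2 ≤ Y ^ 2 * Y ^ 2 :=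
      mul_le_mul htt htt (sq_nonneg _) (sq_nonneg _)
    have h1 : ((B.p2 : ℝ) * B.p2 * ((B.e2 : ℝ) * B.e2) * ((BB - 4 * B.e1 : ℕ) : ℝ)
        + 18 * ((B.p2 : ℝ) * B.e2 * ((B.t2 : ℝ) * B.t2) * (BB : ℕ)))
        < 4 * ((B.p1 : ℝ) * ((B.t1 : ℝ) * B.t1) * ((BB : ℕ) * (BB : ℕ)))
          + (27 * ((B.t1 : ℝ) * B.t1 * ((B.t1 : ℝ) * B.t1) * (BB : ℕ))
            + (B.p1 : ℝ) * B.p1 * ((B.e1 : ℝ) * B.e1) * ((4 * B.e1 - BB : ℕ) : ℝ)) := by
      exact_mod_cast h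
    rw [bb_cast] at h1
    rcases le_total (4 * B.e1) BB with hc | hc
    · have f1 : ((BB - 4 * B.e1 : ℕ) : ℝ) = 2 ^ 24 - 4 * B.e1 := by
        rw [Nat.cast_sub hc, bb_cast]; push_cast; ring
      have f2 : ((4 * B.e1 - BB : ℕ) : ℝ) = 0 := by
        rw [Nat.sub_eq_zero_of_le hc]; simp
      rw [f1, f2] at h1
      have hfe : (2 : ℝ) ^ 24 - 4 * E ≤ 2 ^ 24 - 4 * B.e1 := by linarith only [a5]
      have hf0 : (0 : ℝ) ≤ 2 ^ 24 - 4 * B.e1 := by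
        have : ((4 * B.e1 : ℕ) : ℝ) ≤ (BB : ℕ) := by exact_mod_cast hc
        rw [bb_cast] at this
        push_cast at this
        linarith only [this]
      have t1 : X ^ 2 * E ^ 2 * (2 ^ 24 - 4 * E) ≤ X ^ 2 * E ^ 2 * (2 ^ 24 - 4 * B.e1) :=
        mul_le_mul_of_nonneg_left hfe (by positivity)
      have t2 : X ^ 2 * E ^ 2 * (2 ^ 24 - 4 * B.e1)
          ≤ (B.p2 : ℝ) ^ 2 * (B.e2 : ℝ) ^ 2 * (2 ^ 24 - 4 * B.e1) :=
        mul_le_mul_of_nonneg_right hXE2 hf0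
      nlinarith only [h1, g7', t1, t2, hXEY, hXY, hY4]
    · have f1 : ((BB - 4 * B.e1 : ℕ) : ℝ) = 0 := by
        rw [Nat.sub_eq_zero_of_le hc]; simp
      have f2 : ((4 * B.e1 - BB : ℕ) : ℝ) = 4 * B.e1 - 2 ^ 24 := by
        rw [Nat.cast_sub hc, bb_cast]; push_cast; ring
      rw [f1, f2] at h1
      have hfe : (2 : ℝ) ^ 24 - 4 * E ≤ 2 ^ 24 - 4 * B.e1 := by linarith only [a5]
      have hf0 : (0 : ℝ) ≤ 4 * B.e1 - 2 ^ 24 := by
        have : ((BB : ℕ) : ℝ) ≤ ((4 * B.e1 : ℕ) : ℝ) := by exact_mod_cast hc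
        rw [bb_cast] at this
        push_cast at this
        linarith only [this]
      have t1 : X ^ 2 * E ^ 2 * (2 ^ 24 - 4 * E) ≤ X ^ 2 * E ^ 2 * (2 ^ 24 - 4 * B.e1) :=
        mul_le_mul_of_nonneg_left hfe (by positivity)
      have t2 : (B.p1 : ℝ) ^ 2 * (B.e1 : ℝ) ^ 2 * (4 * B.e1 - 2 ^ 24)
          ≤ X ^ 2 * E ^ 2 * (4 * B.e1 - 2 ^ 24) :=
        mul_le_mul_of_nonneg_right hXE hf0
      nlinarith only [h1, g7', t1, t2, hXEY, hXY, hY4]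

/-! ### Cuts and tightenings -/

theorem Cov_zs (D : Data) (v m : Nat) (ZB YB : Box)
    (h1 : Cov D (cutL v m ZB) YB) (h2 : Cov D (cutR v m ZB) YB) : Cov D ZB YB := by
  intro x y hx hy hrx hry
  obtain ⟨a1, a2, a3, a4, a5, a6⟩ := hx
  match v, h1, h2 with
  | 0, h1, h2 =>
    rcases le_total (2 ^ 24 * x.1) (m : ℝ) with h | h
    · exact h1 x y ⟨a1, h, a3, a4, a5, a6⟩ hy hrx hry
    · exact h2 x y ⟨h, a2, a3, a4, a5, a6⟩ hy hrx hry
  | 1, h1, h2 =>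
    rcases le_total (2 ^ 24 * x.2.1) (m : ℝ) with h | h
    · exact h1 x y ⟨a1, a2, a3, h, a5, a6⟩ hy hrx hry
    · exact h2 x y ⟨a1, a2, h, a4, a5, a6⟩ hy hrx hry
  | n + 2, h1, h2 =>
    rcases le_total (2 ^ 24 * x.2.2) (m : ℝ) with h | h
    · exact h1 x y ⟨a1, a2, a3, a4, a5, h⟩ hy hrx hry
    · exact h2 x y ⟨a1, a2, a3, a4, h, a6⟩ hy hrx hry

theorem Cov_ys (D : Data) (v m : Nat) (ZB YB : Box)
    (h1 : Cov D ZB (cutL v m YB)) (h2 : Cov D ZB (cutR v m YB)) : Cov D ZB YB := by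
  intro x y hx hy hrx hry
  obtain ⟨a1, a2, a3, a4, a5, a6⟩ := hy
  match v, h1, h2 with
  | 0, h1, h2 =>
    rcases le_total (2 ^ 24 * y.1) (m : ℝ) with h | h
    · exact h1 x y hx ⟨a1, h, a3, a4, a5, a6⟩ hrx hry
    · exact h2 x y hx ⟨h, a2, a3, a4, a5, a6⟩ hrx hry
  | 1, h1, h2 =>
    rcases le_total (2 ^ 24 * y.2.1) (m : ℝ) with h | h
    · exact h1 x y hx ⟨a1, a2, a3, h, a5, a6⟩ hrx hry
    · exact h2 x y hx ⟨a1, a2, h, a4, a5, a6⟩ hrx hry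
  | n + 2, h1, h2 =>
    rcases le_total (2 ^ 24 * y.2.2) (m : ℝ) with h | h
    · exact h1 x y hx ⟨a1, a2, a3, a4, a5, h⟩ hrx hry
    · exact h2 x y hx ⟨a1, a2, a3, a4, h, a6⟩ hrx hry

/-- The tightening of `t2`. -/
lemma okT_sound {s : Bool} {B : Box} {v : ℕ} (h0 : okT B v = true) {x : ℝ × ℝ × ℝ}
    (hx : InBox B x) (hr : Reg s x) : 2 ^ 24 * x.2.1 ≤ (v : ℝ) := by
  obtain ⟨a1, a2, a3, a4, a5, a6⟩ := hx
  have h1 : B.p2 * BB ≤ 27 * (v * v) := Nat.le_of_ble_eq_true h0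
  have h2 : (B.p2 : ℝ) * 2 ^ 24 ≤ 27 * ((v : ℝ) * v) := by
    rw [← bb_cast]; exact_mod_cast h1
  have hv : (0 : ℝ) ≤ v := Nat.cast_nonneg _
  have g6 := hr.g6
  have ht0 := hr.t_nn
  by_contra hc
  push Not at hc
  have h3 : (v : ℝ) * v < (2 ^ 24 * x.2.1) * (2 ^ 24 * x.2.1) :=
    mul_self_lt_mul_self hv hc
  have h4 : 2 ^ 24 * x.1 * 2 ^ 24 ≤ (B.p2 : ℝ) * 2 ^ 24 :=
    mul_le_mul_of_nonneg_right a2 (by positivity)
  nlinarith

theorem Cov_zt (D : Data) (v : Nat) (ZB YB : Box) (h0 : okT ZB v = true)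
    (h : Cov D ⟨ZB.p1, ZB.p2, ZB.t1, v, ZB.e1, ZB.e2⟩ YB) : Cov D ZB YB := by
  intro x y hx hy hrx hry
  have hle := okT_sound h0 hx hrx
  obtain ⟨a1, a2, a3, a4, a5, a6⟩ := hx
  exact h x y ⟨a1, a2, a3, hle, a5, a6⟩ hy hrx hry

theorem Cov_yt (D : Data) (v : Nat) (ZB YB : Box) (h0 : okT YB v = true)
    (h : Cov D ZB ⟨YB.p1, YB.p2, YB.t1, v, YB.e1, YB.e2⟩) : Cov D ZB YB := by
  intro x y hx hy hrx hry
  have hle := okT_sound h0 hy hry
  obtain ⟨a1, a2, a3, a4, a5, a6⟩ := hy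
  exact h x y hx ⟨a1, a2, a3, hle, a5, a6⟩ hrx hry

/-- The raising of `e1`. -/
lemma okE_sound {s : Bool} {B : Box} {v : ℕ} (h0 : okE B v = true) {x : ℝ × ℝ × ℝ}
    (hx : InBox B x) (hr : Reg s x) : (v : ℝ) ≤ 2 ^ 24 * x.2.2 := by
  obtain ⟨a1, a2, a3, a4, a5, a6⟩ := hx
  have h1 : B.p2 * (v * v) ≤ 3 * (B.t1 * B.t1 * BB) := Nat.le_of_ble_eq_true h0
  have h2 : (B.p2 : ℝ) * ((v : ℝ) * v) ≤ 3 * ((B.t1 : ℝ) * B.t1 * 2 ^ 24) := by
    rw [← bb_cast]; exact_mod_cast h1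
  have g5 := hr.g5
  have he0 := hr.e_nn
  have hp0 := hr.p_pos
  by_contra hc
  push Not at hc
  set X := 2 ^ 24 * x.1 with hX
  set Y := 2 ^ 24 * x.2.1 with hY
  set E := 2 ^ 24 * x.2.2 with hE
  have hE0 : 0 ≤ E := by positivity
  have hX0 : 0 < X := by positivity
  have hp2 : (0 : ℝ) < B.p2 := lt_of_lt_of_le hX0 a2
  have t1nn : (0 : ℝ) ≤ B.t1 := Nat.cast_nonneg _
  have h3 : E * E < (v : ℝ) * v := mul_self_lt_mul_self hE0 hc
  have h4 : (B.p2 : ℝ) * (E * E) < (B.p2 : ℝ) * ((v : ℝ) * v) :=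
    mul_lt_mul_of_pos_left h3 hp2
  have h5 : X * (E * E) ≤ (B.p2 : ℝ) * (E * E) :=
    mul_le_mul_of_nonneg_right a2 (mul_self_nonneg _)
  have htt : (B.t1 : ℝ) * B.t1 ≤ Y * Y := mul_self_le_mul_self t1nn a3
  have g5' : 3 * (Y * Y) * 2 ^ 24 ≤ X * (E * E) := by
    have ex : x.1 = X / 2 ^ 24 := by rw [hX]; field_simp
    have ey : x.2.1 = Y / 2 ^ 24 := by rw [hY]; field_simp
    have ez : x.2.2 = E / 2 ^ 24 := by rw [hE]; field_simp
    rw [ex, ey, ez] at g5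
    field_simp at g5
    linarith only [g5]
  linarith only [h2, h4, h5, htt, g5']

theorem Cov_zf (D : Data) (v : Nat) (ZB YB : Box) (h0 : okE ZB v = true)
    (h : Cov D ⟨ZB.p1, ZB.p2, ZB.t1, ZB.t2, v, ZB.e2⟩ YB) : Cov D ZB YB := by
  intro x y hx hy hrx hry
  have hle := okE_sound h0 hx hrx
  obtain ⟨a1, a2, a3, a4, a5, a6⟩ := hx
  exact h x y ⟨a1, a2, a3, a4, hle, a6⟩ hy hrx hry

theorem Cov_yf (D : Data) (v : Nat) (ZB YB : Box) (h0 : okE YB v = true)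
    (h : Cov D ZB ⟨YB.p1, YB.p2, YB.t1, YB.t2, v, YB.e2⟩) : Cov D ZB YB := by
  intro x y hx hy hrx hry
  have hle := okE_sound h0 hy hry
  obtain ⟨a1, a2, a3, a4, a5, a6⟩ := hy
  exact h x y hx ⟨a1, a2, a3, a4, hle, a6⟩ hrx hry

/-! ### The checker -/

lemma and_eq_true' {a b : Bool} (h : and a b = true) : a = true ∧ b = true := by
  simpa using h

theorem chk_sound (D : Data) (t : Tr) :
    ∀ (ZB YB : Box), chk D t ZB YB (zData D ZB) (yData D YB) = true → Cov D ZB YB := by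
  induction t with
  | lf =>
    intro ZB YB h x y hx hy hrx hry
    exact leaf_sound D ZB YB hx hy hrx hry h
  | zs v m l r il ir =>
    intro ZB YB h
    obtain ⟨h1, h2⟩ := and_eq_true' (a := chk D l (cutL v m ZB) YB (zData D (cutL v m ZB)) (yData D YB))
      (b := chk D r (cutR v m ZB) YB (zData D (cutR v m ZB)) (yData D YB)) h
    exact Cov_zs D v m ZB YB (il _ _ h1) (ir _ _ h2)
  | ys v m l r il ir =>
    intro ZB YB h
    obtain ⟨h1, h2⟩ := and_eq_true' (a := chk D l ZB (cutL v m YB) (zData D ZB) (yData D (cutL v m YB)))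
      (b := chk D r ZB (cutR v m YB) (zData D ZB) (yData D (cutR v m YB))) h
    exact Cov_ys D v m ZB YB (il _ _ h1) (ir _ _ h2)
  | zx c =>
    intro ZB YB h x y hx hy hrx hry
    exact (excl_sound (s := D.sz) (B := ZB) (c := c) h hx hrx).elim
  | yx c =>
    intro ZB YB h x y hx hy hrx hry
    exact (excl_sound (s := D.sy) (B := YB) (c := c) h hy hry).elim
  | zt v t ih =>
    intro ZB YB h
    obtain ⟨h0, h1⟩ := and_eq_true' (a := okT ZB v)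
      (b := chk D t ⟨ZB.p1, ZB.p2, ZB.t1, v, ZB.e1, ZB.e2⟩ YB
        (zData D ⟨ZB.p1, ZB.p2, ZB.t1, v, ZB.e1, ZB.e2⟩) (yData D YB)) h
    exact Cov_zt D v ZB YB h0 (ih _ _ h1)
  | yt v t ih =>
    intro ZB YB h
    obtain ⟨h0, h1⟩ := and_eq_true' (a := okT YB v)
      (b := chk D t ZB ⟨YB.p1, YB.p2, YB.t1, v, YB.e1, YB.e2⟩
        (zData D ZB) (yData D ⟨YB.p1, YB.p2, YB.t1, v, YB.e1, YB.e2⟩)) h
    exact Cov_yt D v ZB YB h0 (ih _ _ h1)
  | zf v t ih =>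
    intro ZB YB h
    obtain ⟨h0, h1⟩ := and_eq_true' (a := okE ZB v)
      (b := chk D t ⟨ZB.p1, ZB.p2, ZB.t1, ZB.t2, v, ZB.e2⟩ YB
        (zData D ⟨ZB.p1, ZB.p2, ZB.t1, ZB.t2, v, ZB.e2⟩) (yData D YB)) h
    exact Cov_zf D v ZB YB h0 (ih _ _ h1)
  | yf v t ih =>
    intro ZB YB h
    obtain ⟨h0, h1⟩ := and_eq_true' (a := okE YB v)
      (b := chk D t ZB ⟨YB.p1, YB.p2, YB.t1, YB.t2, v, YB.e2⟩
        (zData D ZB) (yData D ⟨YB.p1, YB.p2, YB.t1, YB.t2, v, YB.e2⟩)) h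
    exact Cov_yf D v ZB YB h0 (ih _ _ h1)

/-- Main theorem. -/
theorem chkRoot_sound (D : Data) (t : Tr) (ZB YB : Box) (h : chkRoot D t ZB YB = true) :
    Cov D ZB YB := chk_sound D t ZB YB h

end Vale.Agent.P154q4.TMS
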