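import Vale.Agent.P154q4.Master

/-!
Fourier form of the two-point potentials for the four-colour channel, the sum over the
`24` colour permutations and the region facts.
-/

open Finset BigOperators

namespace Vale.Agent.P154q4

/-- Fourier coordinates on Z2 x Z2 of a colour vector. -/
noncomputable def fa (v : Fin 4 → ℝ) : ℝ := (v 0 + v 1 - v 2 - v 3) / 4
noncomputable def fb (v : Fin 4 → ℝ) : ℝ := (v 0 - v 1 + v 2 - v 3) / 4
noncomputable def fc (v : Fin 4 → ℝ) : ℝ := (v 0 - v 1 - v 2 + v 3) / 4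

/-- Polynomials in the six Fourier coordinates `(a,b,c)` of `z` and `(y1,y2,y3)` of the message. -/
def uu (a b c y1 y2 y3 : ℝ) : ℝ := a * y1 + b * y2 + c * y3
def hh1 (a b c y1 y2 y3 : ℝ) : ℝ := (1 - a ^ 2) * y1 + (c - a * b) * y2 + (b - a * c) * y3
def hh2 (a b c y1 y2 y3 : ℝ) : ℝ := (c - a * b) * y1 + (1 - b ^ 2) * y2 + (a - b * c) * y3
def hh3 (a b c y1 y2 y3 : ℝ) : ℝ := (b - a * c) * y1 + (a - b * c) * y2 + (1 - c ^ 2) * y3
def XX (a b c y1 y2 y3 : ℝ) : ℝ :=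
  hh1 a b c y1 y2 y3 ^ 2 + hh2 a b c y1 y2 y3 ^ 2 + hh3 a b c y1 y2 y3 ^ 2
def ZH (a b c y1 y2 y3 : ℝ) : ℝ :=
  a * hh1 a b c y1 y2 y3 + b * hh2 a b c y1 y2 y3 + c * hh3 a b c y1 y2 y3
def QQ (a b c y1 y2 y3 : ℝ) : ℝ :=
  a * (hh2 a b c y1 y2 y3 * hh3 a b c y1 y2 y3) + b * (hh1 a b c y1 y2 y3 * hh3 a b c y1 y2 y3)
    + c * (hh1 a b c y1 y2 y3 * hh2 a b c y1 y2 y3)
def AH (a b c y1 y2 y3 : ℝ) : ℝ :=
  hh1 a b c y1 y2 y3 * hh2 a b c y1 y2 y3 * hh3 a b c y1 y2 y3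

/-- The potential `tau - k p^2`. -/
noncomputable def Lk (k : ℝ) (v : Fin 4 → ℝ) : ℝ := fa v * fb v * fc v - k * s2 v ^ 2

lemma v_eq (v : Fin 4 → ℝ) (hv : ∑ i, v i = 0) :
    v 0 = fa v + fb v + fc v ∧ v 1 = fa v - fb v - fc v ∧ v 2 = - fa v + fb v - fc v
      ∧ v 3 = - fa v - fb v + fc v := by
  simp only [Fin.sum_univ_four] at hv
  simp only [fa, fb, fc]
  refine ⟨?_, ?_, ?_, ?_⟩ <;> linarith

lemma s2_fourier_aux (z : Fin 4 → ℝ) (hz : ∑ i, z i = 0) :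
    s2 z = fa z ^ 2 + fb z ^ 2 + fc z ^ 2 := by
  obtain ⟨h0, h1, h2, h3⟩ := v_eq z hz
  simp only [s2, Fin.sum_univ_four]
  rw [h0, h1, h2, h3]
  generalize fa z = a
  generalize fb z = b
  generalize fc z = c
  ring

theorem s2_fourier (z m : Fin 4 → ℝ) (hz : ∑ i, z i = 0) (_hm : ∑ i, m i = 0) :
    s2 z = fa z ^ 2 + fb z ^ 2 + fc z ^ 2 := s2_fourier_aux z hz

/-- The product vector. -/
private def xx (z m : Fin 4 → ℝ) : Fin 4 → ℝ := fun i => (1 + z i) * (1 + m i)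

/-- The product message in Fourier coordinates. -/
private lemma o_coords (z m : Fin 4 → ℝ) (hz : ∑ i, z i = 0) (hm : ∑ i, m i = 0)
    (hD : 1 + uu (fa z) (fb z) (fc z) (fa m) (fb m) (fc m) ≠ 0) :
    let a := fa z; let b := fb z; let c := fc z
    let y1 := fa m; let y2 := fb m; let y3 := fc m
    let r := (1 + uu a b c y1 y2 y3)⁻¹
    (∑ i, xx z m i) = 4 * (1 + uu a b c y1 y2 y3) ∧
    fa (fun i => 4 * xx z m i / (∑ k, xx z m k) - 1) = a + hh1 a b c y1 y2 y3 * r ∧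
    fb (fun i => 4 * xx z m i / (∑ k, xx z m k) - 1) = b + hh2 a b c y1 y2 y3 * r ∧
    fc (fun i => 4 * xx z m i / (∑ k, xx z m k) - 1) = c + hh3 a b c y1 y2 y3 * r ∧
    ∑ i, (4 * xx z m i / (∑ k, xx z m k) - 1) = 0 := by
  intro a b c y1 y2 y3 r
  set x := xx z m with hxx
  obtain ⟨z0, z1, z2, z3⟩ := v_eq z hz
  obtain ⟨m0, m1, m2, m3⟩ := v_eq m hm
  have hS : (∑ i, x i) = 4 * (1 + uu a b c y1 y2 y3) := by
    simp only [hxx, xx, Fin.sum_univ_four]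
    rw [z0, z1, z2, z3, m0, m1, m2, m3]
    simp only [uu, a, b, c, y1, y2, y3]
    ring
  have hD' : (1 + uu a b c y1 y2 y3) ≠ 0 := hD
  have hrD : (1 + uu a b c y1 y2 y3) * r = 1 := mul_inv_cancel₀ hD'
  have hdiv : ∀ i, 4 * x i / (∑ k, x k) - 1 = x i * r - 1 := by
    intro i
    rw [hS, mul_div_mul_left _ _ (by norm_num : (4 : ℝ) ≠ 0), div_eq_mul_inv]
  clear_value r
  have hx0 : x 0 = (1 + (a + b + c)) * (1 + (y1 + y2 + y3)) := by
    simp only [hxx, xx]; rw [z0, m0]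
  have hx1 : x 1 = (1 + (a - b - c)) * (1 + (y1 - y2 - y3)) := by
    simp only [hxx, xx]; rw [z1, m1]
  have hx2 : x 2 = (1 + (-a + b - c)) * (1 + (-y1 + y2 - y3)) := by
    simp only [hxx, xx]; rw [z2, m2]
  have hx3 : x 3 = (1 + (-a - b + c)) * (1 + (-y1 - y2 + y3)) := by
    simp only [hxx, xx]; rw [z3, m3]
  refine ⟨hS, ?_, ?_, ?_, ?_⟩
  · simp only [fa, hdiv]
    rw [hx0, hx1, hx2, hx3]
    simp only [hh1, uu] at hrD ⊢
    linear_combination a * hrD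
  · simp only [fb, hdiv]
    rw [hx0, hx1, hx2, hx3]
    simp only [hh2, uu] at hrD ⊢
    linear_combination b * hrD
  · simp only [fc, hdiv]
    rw [hx0, hx1, hx2, hx3]
    simp only [hh3, uu] at hrD ⊢
    linear_combination c * hrD
  · have hsum : ∑ i, (4 * x i / (∑ k, x k) - 1) = ∑ i, (x i * r - 1) :=
      Finset.sum_congr rfl (fun i _ => hdiv i)
    rw [hsum, Fin.sum_univ_four, hx0, hx1, hx2, hx3]
    simp only [uu] at hrD
    linear_combination 4 * hrD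

/-- `D |o|^2` in Fourier coordinates; `u = uu (fa z) (fb z) (fc z) (fa m) (fb m) (fc m)`. -/
theorem Kp_s2_fourier (z m : Fin 4 → ℝ) (hz : ∑ i, z i = 0) (hm : ∑ i, m i = 0)
    (hD : 1 + uu (fa z) (fb z) (fc z) (fa m) (fb m) (fc m) ≠ 0) :
    Kp s2 z m =
      (1 + uu (fa z) (fb z) (fc z) (fa m) (fb m) (fc m)) * (fa z ^ 2 + fb z ^ 2 + fc z ^ 2)
      + 2 * ZH (fa z) (fb z) (fc z) (fa m) (fb m) (fc m)
      + XX (fa z) (fb z) (fc z) (fa m) (fb m) (fc m)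
          * (1 + uu (fa z) (fb z) (fc z) (fa m) (fb m) (fc m))⁻¹ := by
  obtain ⟨hS, ha, hb, hc, hs⟩ := o_coords z m hz hm hD
  have hrD := mul_inv_cancel₀ hD
  change (∑ i, xx z m i) / 4 * s2 (fun i => 4 * xx z m i / (∑ k, xx z m k) - 1) = _
  rw [s2_fourier_aux _ hs, ha, hb, hc, hS]
  generalize fa z = a at *
  generalize fb z = b at *
  generalize fc z = c at *
  generalize fa m = y1 at *
  generalize fb m = y2 at *
  generalize fc m = y3 at *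
  generalize (1 + uu a b c y1 y2 y3)⁻¹ = r at *
  generalize hDD : 1 + uu a b c y1 y2 y3 = D at *
  simp only [ZH, XX]
  generalize hh1 a b c y1 y2 y3 = h1
  generalize hh2 a b c y1 y2 y3 = h2
  generalize hh3 a b c y1 y2 y3 = h3
  linear_combination (2 * (a * h1 + b * h2 + c * h3) + (h1 ^ 2 + h2 ^ 2 + h3 ^ 2) * r) * hrD

/-- `D L(o)` in Fourier coordinates. Write `a,b,c,y1,y2,y3` for the Fourier coordinates,
`p = a^2+b^2+c^2`, `r = (1+u)⁻¹`. -/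
theorem Kp_L_fourier (z m : Fin 4 → ℝ) (hz : ∑ i, z i = 0) (hm : ∑ i, m i = 0) (k : ℝ)
    (hD : 1 + uu (fa z) (fb z) (fc z) (fa m) (fb m) (fc m) ≠ 0) :
    ∀ a b c y1 y2 y3 p r : ℝ, a = fa z → b = fb z → c = fc z → y1 = fa m → y2 = fb m → y3 = fc m →
      p = a ^ 2 + b ^ 2 + c ^ 2 → r = (1 + uu a b c y1 y2 y3)⁻¹ →
    Kp (Lk k) z m =
      (1 + uu a b c y1 y2 y3) * (a * b * c - k * p ^ 2)
      + (b * c * hh1 a b c y1 y2 y3 + a * c * hh2 a b c y1 y2 y3 + a * b * hh3 a b c y1 y2 y3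
          - 4 * k * p * ZH a b c y1 y2 y3)
      + (QQ a b c y1 y2 y3 - 2 * k * p * XX a b c y1 y2 y3 - 4 * k * ZH a b c y1 y2 y3 ^ 2) * r
      + (AH a b c y1 y2 y3 - 4 * k * ZH a b c y1 y2 y3 * XX a b c y1 y2 y3) * r ^ 2
      - k * XX a b c y1 y2 y3 ^ 2 * r ^ 3 := by
  intro a b c y1 y2 y3 p r ha' hb' hc' hy1 hy2 hy3 hp hr
  subst ha' hb' hc' hy1 hy2 hy3 hp hr
  obtain ⟨hS, ha, hb, hc, hs⟩ := o_coords z m hz hm hD
  have hrD := mul_inv_cancel₀ hD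
  change (∑ i, xx z m i) / 4 * Lk k (fun i => 4 * xx z m i / (∑ k, xx z m k) - 1) = _
  simp only [Lk]
  rw [s2_fourier_aux _ hs, ha, hb, hc, hS]
  generalize fa z = a at *
  generalize fb z = b at *
  generalize fc z = c at *
  generalize fa m = y1 at *
  generalize fb m = y2 at *
  generalize fc m = y3 at *
  generalize (1 + uu a b c y1 y2 y3)⁻¹ = r at *
  generalize hDD : 1 + uu a b c y1 y2 y3 = D at *
  simp only [ZH, XX, QQ, AH]
  generalize hh1 a b c y1 y2 y3 = h1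
  generalize hh2 a b c y1 y2 y3 = h2
  generalize hh3 a b c y1 y2 y3 = h3
  linear_combination ((b * c * h1 + a * c * h2 + a * b * h3)
      + (a * (h2 * h3) + b * (h1 * h3) + c * (h1 * h2)) * r + h1 * h2 * h3 * r ^ 2
      - k * (4 * (a ^ 2 + b ^ 2 + c ^ 2) * (a * h1 + b * h2 + c * h3)
        + (4 * (a * h1 + b * h2 + c * h3) ^ 2 + 2 * (a ^ 2 + b ^ 2 + c ^ 2) * (h1 ^ 2 + h2 ^ 2 + h3 ^ 2)) * r
        + 4 * (a * h1 + b * h2 + c * h3) * (h1 ^ 2 + h2 ^ 2 + h3 ^ 2) * r ^ 2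
        + (h1 ^ 2 + h2 ^ 2 + h3 ^ 2) ^ 2 * r ^ 3)) * hrD

/-- Explicit sum over the 24 signed permutations (the order is fixed here once and for all). -/
def sum24 (F : ℝ → ℝ → ℝ → ℝ) (x y w : ℝ) : ℝ :=
  (F x y w + F x (-y) (-w) + F (-x) y (-w) + F (-x) (-y) w)
  + (F x w y + F x (-w) (-y) + F (-x) w (-y) + F (-x) (-w) y)
  + (F y x w + F y (-x) (-w) + F (-y) x (-w) + F (-y) (-x) w)
  + (F y w x + F y (-w) (-x) + F (-y) w (-x) + F (-y) (-w) x)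
  + (F w x y + F w (-x) (-y) + F (-w) x (-y) + F (-w) (-x) y)
  + (F w y x + F w (-y) (-x) + F (-w) y (-x) + F (-w) (-y) x)

/-- The 24 colour permutations, in the order of `sum24`. -/
private def gg0 : Equiv.Perm (Fin 4) := ⟨![0,1,2,3], ![0,1,2,3], by decide, by decide⟩
private def gg1 : Equiv.Perm (Fin 4) := ⟨![1,0,3,2], ![1,0,3,2], by decide, by decide⟩
private def gg2 : Equiv.Perm (Fin 4) := ⟨![2,3,0,1], ![2,3,0,1], by decide, by decide⟩
private def gg3 : Equiv.Perm (Fin 4) := ⟨![3,2,1,0], ![3,2,1,0], by decide, by decide⟩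
private def gg4 : Equiv.Perm (Fin 4) := ⟨![0,1,3,2], ![0,1,3,2], by decide, by decide⟩
private def gg5 : Equiv.Perm (Fin 4) := ⟨![1,0,2,3], ![1,0,2,3], by decide, by decide⟩
private def gg6 : Equiv.Perm (Fin 4) := ⟨![3,2,0,1], ![2,3,1,0], by decide, by decide⟩
private def gg7 : Equiv.Perm (Fin 4) := ⟨![2,3,1,0], ![3,2,0,1], by decide, by decide⟩
private def gg8 : Equiv.Perm (Fin 4) := ⟨![0,2,1,3], ![0,2,1,3], by decide, by decide⟩
private def gg9 : Equiv.Perm (Fin 4) := ⟨![2,0,3,1], ![1,3,0,2], by decide, by decide⟩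
private def gg10 : Equiv.Perm (Fin 4) := ⟨![1,3,0,2], ![2,0,3,1], by decide, by decide⟩
private def gg11 : Equiv.Perm (Fin 4) := ⟨![3,1,2,0], ![3,1,2,0], by decide, by decide⟩
private def gg12 : Equiv.Perm (Fin 4) := ⟨![0,2,3,1], ![0,3,1,2], by decide, by decide⟩
private def gg13 : Equiv.Perm (Fin 4) := ⟨![2,0,1,3], ![1,2,0,3], by decide, by decide⟩
private def gg14 : Equiv.Perm (Fin 4) := ⟨![3,1,0,2], ![2,1,3,0], by decide, by decide⟩
private def gg15 : Equiv.Perm (Fin 4) := ⟨![1,3,2,0], ![3,0,2,1], by decide, by decide⟩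
private def gg16 : Equiv.Perm (Fin 4) := ⟨![0,3,1,2], ![0,2,3,1], by decide, by decide⟩
private def gg17 : Equiv.Perm (Fin 4) := ⟨![3,0,2,1], ![1,3,2,0], by decide, by decide⟩
private def gg18 : Equiv.Perm (Fin 4) := ⟨![1,2,0,3], ![2,0,1,3], by decide, by decide⟩
private def gg19 : Equiv.Perm (Fin 4) := ⟨![2,1,3,0], ![3,1,0,2], by decide, by decide⟩
private def gg20 : Equiv.Perm (Fin 4) := ⟨![0,3,2,1], ![0,3,2,1], by decide, by decide⟩
private def gg21 : Equiv.Perm (Fin 4) := ⟨![3,0,1,2], ![1,2,3,0], by decide, by decide⟩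
private def gg22 : Equiv.Perm (Fin 4) := ⟨![2,1,0,3], ![2,1,0,3], by decide, by decide⟩
private def gg23 : Equiv.Perm (Fin 4) := ⟨![1,2,3,0], ![3,0,1,2], by decide, by decide⟩
private def ggL : List (Equiv.Perm (Fin 4)) := [gg0, gg1, gg2, gg3, gg4, gg5, gg6, gg7, gg8, gg9, gg10, gg11, gg12, gg13, gg14, gg15, gg16, gg17, gg18, gg19, gg20, gg21, gg22, gg23]
private lemma ggL_nodup : ggL.Nodup := by decide
private lemma ggL_all (g : Equiv.Perm (Fin 4)) : g ∈ ggL := by revert g; decide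

private lemma sum_ggL (f : Equiv.Perm (Fin 4) → ℝ) : ∑ g, f g = (ggL.map f).sum := by
  have h : ggL.toFinset = Finset.univ := Finset.eq_univ_iff_forall.2 (fun g => List.mem_toFinset.2 (ggL_all g))
  rw [← h, List.sum_toFinset _ ggL_nodup]

theorem sum_perm4 (F : ℝ → ℝ → ℝ → ℝ) (v : Fin 4 → ℝ) :
    ∑ g : Equiv.Perm (Fin 4), F (fa fun i => v (g i)) (fb fun i => v (g i)) (fc fun i => v (g i))
      = sum24 F (fa v) (fb v) (fc v) := by
  rw [sum_ggL]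
  have h0a : fa (fun i => v (gg0 i)) = fa v := by
    show (v 0 + v 1 - v 2 - v 3) / 4 = ((v 0 + v 1 - v 2 - v 3) / 4)
    ring
  have h0b : fb (fun i => v (gg0 i)) = fb v := by
    show (v 0 - v 1 + v 2 - v 3) / 4 = ((v 0 - v 1 + v 2 - v 3) / 4)
    ring
  have h0c : fc (fun i => v (gg0 i)) = fc v := by
    show (v 0 - v 1 - v 2 + v 3) / 4 = ((v 0 - v 1 - v 2 + v 3) / 4)
    ring
  have h1a : fa (fun i => v (gg1 i)) = fa v := by
    show (v 1 + v 0 - v 3 - v 2) / 4 = ((v 0 + v 1 - v 2 - v 3) / 4)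
    ring
  have h1b : fb (fun i => v (gg1 i)) = -fb v := by
    show (v 1 - v 0 + v 3 - v 2) / 4 = -((v 0 - v 1 + v 2 - v 3) / 4)
    ring
  have h1c : fc (fun i => v (gg1 i)) = -fc v := by
    show (v 1 - v 0 - v 3 + v 2) / 4 = -((v 0 - v 1 - v 2 + v 3) / 4)
    ring
  have h2a : fa (fun i => v (gg2 i)) = -fa v := by
    show (v 2 + v 3 - v 0 - v 1) / 4 = -((v 0 + v 1 - v 2 - v 3) / 4)
    ring
  have h2b : fb (fun i => v (gg2 i)) = fb v := by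
    show (v 2 - v 3 + v 0 - v 1) / 4 = ((v 0 - v 1 + v 2 - v 3) / 4)
    ring
  have h2c : fc (fun i => v (gg2 i)) = -fc v := by
    show (v 2 - v 3 - v 0 + v 1) / 4 = -((v 0 - v 1 - v 2 + v 3) / 4)
    ring
  have h3a : fa (fun i => v (gg3 i)) = -fa v := by
    show (v 3 + v 2 - v 1 - v 0) / 4 = -((v 0 + v 1 - v 2 - v 3) / 4)
    ring
  have h3b : fb (fun i => v (gg3 i)) = -fb v := by
    show (v 3 - v 2 + v 1 - v 0) / 4 = -((v 0 - v 1 + v 2 - v 3) / 4)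
    ring
  have h3c : fc (fun i => v (gg3 i)) = fc v := by
    show (v 3 - v 2 - v 1 + v 0) / 4 = ((v 0 - v 1 - v 2 + v 3) / 4)
    ring
  have h4a : fa (fun i => v (gg4 i)) = fa v := by
    show (v 0 + v 1 - v 3 - v 2) / 4 = ((v 0 + v 1 - v 2 - v 3) / 4)
    ring
  have h4b : fb (fun i => v (gg4 i)) = fc v := by
    show (v 0 - v 1 + v 3 - v 2) / 4 = ((v 0 - v 1 - v 2 + v 3) / 4)
    ring
  have h4c : fc (fun i => v (gg4 i)) = fb v := by
    show (v 0 - v 1 - v 3 + v 2) / 4 = ((v 0 - v 1 + v 2 - v 3) / 4)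
    ring
  have h5a : fa (fun i => v (gg5 i)) = fa v := by
    show (v 1 + v 0 - v 2 - v 3) / 4 = ((v 0 + v 1 - v 2 - v 3) / 4)
    ring
  have h5b : fb (fun i => v (gg5 i)) = -fc v := by
    show (v 1 - v 0 + v 2 - v 3) / 4 = -((v 0 - v 1 - v 2 + v 3) / 4)
    ring
  have h5c : fc (fun i => v (gg5 i)) = -fb v := by
    show (v 1 - v 0 - v 2 + v 3) / 4 = -((v 0 - v 1 + v 2 - v 3) / 4)
    ring
  have h6a : fa (fun i => v (gg6 i)) = -fa v := by
    show (v 3 + v 2 - v 0 - v 1) / 4 = -((v 0 + v 1 - v 2 - v 3) / 4)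
    ring
  have h6b : fb (fun i => v (gg6 i)) = fc v := by
    show (v 3 - v 2 + v 0 - v 1) / 4 = ((v 0 - v 1 - v 2 + v 3) / 4)
    ring
  have h6c : fc (fun i => v (gg6 i)) = -fb v := by
    show (v 3 - v 2 - v 0 + v 1) / 4 = -((v 0 - v 1 + v 2 - v 3) / 4)
    ring
  have h7a : fa (fun i => v (gg7 i)) = -fa v := by
    show (v 2 + v 3 - v 1 - v 0) / 4 = -((v 0 + v 1 - v 2 - v 3) / 4)
    ring
  have h7b : fb (fun i => v (gg7 i)) = -fc v := by
    show (v 2 - v 3 + v 1 - v 0) / 4 = -((v 0 - v 1 - v 2 + v 3) / 4)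
    ring
  have h7c : fc (fun i => v (gg7 i)) = fb v := by
    show (v 2 - v 3 - v 1 + v 0) / 4 = ((v 0 - v 1 + v 2 - v 3) / 4)
    ring
  have h8a : fa (fun i => v (gg8 i)) = fb v := by
    show (v 0 + v 2 - v 1 - v 3) / 4 = ((v 0 - v 1 + v 2 - v 3) / 4)
    ring
  have h8b : fb (fun i => v (gg8 i)) = fa v := by
    show (v 0 - v 2 + v 1 - v 3) / 4 = ((v 0 + v 1 - v 2 - v 3) / 4)
    ring
  have h8c : fc (fun i => v (gg8 i)) = fc v := by
    show (v 0 - v 2 - v 1 + v 3) / 4 = ((v 0 - v 1 - v 2 + v 3) / 4)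
    ring
  have h9a : fa (fun i => v (gg9 i)) = fb v := by
    show (v 2 + v 0 - v 3 - v 1) / 4 = ((v 0 - v 1 + v 2 - v 3) / 4)
    ring
  have h9b : fb (fun i => v (gg9 i)) = -fa v := by
    show (v 2 - v 0 + v 3 - v 1) / 4 = -((v 0 + v 1 - v 2 - v 3) / 4)
    ring
  have h9c : fc (fun i => v (gg9 i)) = -fc v := by
    show (v 2 - v 0 - v 3 + v 1) / 4 = -((v 0 - v 1 - v 2 + v 3) / 4)
    ring
  have h10a : fa (fun i => v (gg10 i)) = -fb v := by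
    show (v 1 + v 3 - v 0 - v 2) / 4 = -((v 0 - v 1 + v 2 - v 3) / 4)
    ring
  have h10b : fb (fun i => v (gg10 i)) = fa v := by
    show (v 1 - v 3 + v 0 - v 2) / 4 = ((v 0 + v 1 - v 2 - v 3) / 4)
    ring
  have h10c : fc (fun i => v (gg10 i)) = -fc v := by
    show (v 1 - v 3 - v 0 + v 2) / 4 = -((v 0 - v 1 - v 2 + v 3) / 4)
    ring
  have h11a : fa (fun i => v (gg11 i)) = -fb v := by
    show (v 3 + v 1 - v 2 - v 0) / 4 = -((v 0 - v 1 + v 2 - v 3) / 4)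
    ring
  have h11b : fb (fun i => v (gg11 i)) = -fa v := by
    show (v 3 - v 1 + v 2 - v 0) / 4 = -((v 0 + v 1 - v 2 - v 3) / 4)
    ring
  have h11c : fc (fun i => v (gg11 i)) = fc v := by
    show (v 3 - v 1 - v 2 + v 0) / 4 = ((v 0 - v 1 - v 2 + v 3) / 4)
    ring
  have h12a : fa (fun i => v (gg12 i)) = fb v := by
    show (v 0 + v 2 - v 3 - v 1) / 4 = ((v 0 - v 1 + v 2 - v 3) / 4)
    ring
  have h12b : fb (fun i => v (gg12 i)) = fc v := by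
    show (v 0 - v 2 + v 3 - v 1) / 4 = ((v 0 - v 1 - v 2 + v 3) / 4)
    ring
  have h12c : fc (fun i => v (gg12 i)) = fa v := by
    show (v 0 - v 2 - v 3 + v 1) / 4 = ((v 0 + v 1 - v 2 - v 3) / 4)
    ring
  have h13a : fa (fun i => v (gg13 i)) = fb v := by
    show (v 2 + v 0 - v 1 - v 3) / 4 = ((v 0 - v 1 + v 2 - v 3) / 4)
    ring
  have h13b : fb (fun i => v (gg13 i)) = -fc v := by
    show (v 2 - v 0 + v 1 - v 3) / 4 = -((v 0 - v 1 - v 2 + v 3) / 4)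
    ring
  have h13c : fc (fun i => v (gg13 i)) = -fa v := by
    show (v 2 - v 0 - v 1 + v 3) / 4 = -((v 0 + v 1 - v 2 - v 3) / 4)
    ring
  have h14a : fa (fun i => v (gg14 i)) = -fb v := by
    show (v 3 + v 1 - v 0 - v 2) / 4 = -((v 0 - v 1 + v 2 - v 3) / 4)
    ring
  have h14b : fb (fun i => v (gg14 i)) = fc v := by
    show (v 3 - v 1 + v 0 - v 2) / 4 = ((v 0 - v 1 - v 2 + v 3) / 4)
    ring
  have h14c : fc (fun i => v (gg14 i)) = -fa v := by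
    show (v 3 - v 1 - v 0 + v 2) / 4 = -((v 0 + v 1 - v 2 - v 3) / 4)
    ring
  have h15a : fa (fun i => v (gg15 i)) = -fb v := by
    show (v 1 + v 3 - v 2 - v 0) / 4 = -((v 0 - v 1 + v 2 - v 3) / 4)
    ring
  have h15b : fb (fun i => v (gg15 i)) = -fc v := by
    show (v 1 - v 3 + v 2 - v 0) / 4 = -((v 0 - v 1 - v 2 + v 3) / 4)
    ring
  have h15c : fc (fun i => v (gg15 i)) = fa v := by
    show (v 1 - v 3 - v 2 + v 0) / 4 = ((v 0 + v 1 - v 2 - v 3) / 4)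
    ring
  have h16a : fa (fun i => v (gg16 i)) = fc v := by
    show (v 0 + v 3 - v 1 - v 2) / 4 = ((v 0 - v 1 - v 2 + v 3) / 4)
    ring
  have h16b : fb (fun i => v (gg16 i)) = fa v := by
    show (v 0 - v 3 + v 1 - v 2) / 4 = ((v 0 + v 1 - v 2 - v 3) / 4)
    ring
  have h16c : fc (fun i => v (gg16 i)) = fb v := by
    show (v 0 - v 3 - v 1 + v 2) / 4 = ((v 0 - v 1 + v 2 - v 3) / 4)
    ring
  have h17a : fa (fun i => v (gg17 i)) = fc v := by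
    show (v 3 + v 0 - v 2 - v 1) / 4 = ((v 0 - v 1 - v 2 + v 3) / 4)
    ring
  have h17b : fb (fun i => v (gg17 i)) = -fa v := by
    show (v 3 - v 0 + v 2 - v 1) / 4 = -((v 0 + v 1 - v 2 - v 3) / 4)
    ring
  have h17c : fc (fun i => v (gg17 i)) = -fb v := by
    show (v 3 - v 0 - v 2 + v 1) / 4 = -((v 0 - v 1 + v 2 - v 3) / 4)
    ring
  have h18a : fa (fun i => v (gg18 i)) = -fc v := by
    show (v 1 + v 2 - v 0 - v 3) / 4 = -((v 0 - v 1 - v 2 + v 3) / 4)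
    ring
  have h18b : fb (fun i => v (gg18 i)) = fa v := by
    show (v 1 - v 2 + v 0 - v 3) / 4 = ((v 0 + v 1 - v 2 - v 3) / 4)
    ring
  have h18c : fc (fun i => v (gg18 i)) = -fb v := by
    show (v 1 - v 2 - v 0 + v 3) / 4 = -((v 0 - v 1 + v 2 - v 3) / 4)
    ring
  have h19a : fa (fun i => v (gg19 i)) = -fc v := by
    show (v 2 + v 1 - v 3 - v 0) / 4 = -((v 0 - v 1 - v 2 + v 3) / 4)
    ring
  have h19b : fb (fun i => v (gg19 i)) = -fa v := by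
    show (v 2 - v 1 + v 3 - v 0) / 4 = -((v 0 + v 1 - v 2 - v 3) / 4)
    ring
  have h19c : fc (fun i => v (gg19 i)) = fb v := by
    show (v 2 - v 1 - v 3 + v 0) / 4 = ((v 0 - v 1 + v 2 - v 3) / 4)
    ring
  have h20a : fa (fun i => v (gg20 i)) = fc v := by
    show (v 0 + v 3 - v 2 - v 1) / 4 = ((v 0 - v 1 - v 2 + v 3) / 4)
    ring
  have h20b : fb (fun i => v (gg20 i)) = fb v := by
    show (v 0 - v 3 + v 2 - v 1) / 4 = ((v 0 - v 1 + v 2 - v 3) / 4)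
    ring
  have h20c : fc (fun i => v (gg20 i)) = fa v := by
    show (v 0 - v 3 - v 2 + v 1) / 4 = ((v 0 + v 1 - v 2 - v 3) / 4)
    ring
  have h21a : fa (fun i => v (gg21 i)) = fc v := by
    show (v 3 + v 0 - v 1 - v 2) / 4 = ((v 0 - v 1 - v 2 + v 3) / 4)
    ring
  have h21b : fb (fun i => v (gg21 i)) = -fb v := by
    show (v 3 - v 0 + v 1 - v 2) / 4 = -((v 0 - v 1 + v 2 - v 3) / 4)
    ring
  have h21c : fc (fun i => v (gg21 i)) = -fa v := by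
    show (v 3 - v 0 - v 1 + v 2) / 4 = -((v 0 + v 1 - v 2 - v 3) / 4)
    ring
  have h22a : fa (fun i => v (gg22 i)) = -fc v := by
    show (v 2 + v 1 - v 0 - v 3) / 4 = -((v 0 - v 1 - v 2 + v 3) / 4)
    ring
  have h22b : fb (fun i => v (gg22 i)) = fb v := by
    show (v 2 - v 1 + v 0 - v 3) / 4 = ((v 0 - v 1 + v 2 - v 3) / 4)
    ring
  have h22c : fc (fun i => v (gg22 i)) = -fa v := by
    show (v 2 - v 1 - v 0 + v 3) / 4 = -((v 0 + v 1 - v 2 - v 3) / 4)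
    ring
  have h23a : fa (fun i => v (gg23 i)) = -fc v := by
    show (v 1 + v 2 - v 3 - v 0) / 4 = -((v 0 - v 1 - v 2 + v 3) / 4)
    ring
  have h23b : fb (fun i => v (gg23 i)) = -fb v := by
    show (v 1 - v 2 + v 3 - v 0) / 4 = -((v 0 - v 1 + v 2 - v 3) / 4)
    ring
  have h23c : fc (fun i => v (gg23 i)) = fa v := by
    show (v 1 - v 2 - v 3 + v 0) / 4 = ((v 0 + v 1 - v 2 - v 3) / 4)
    ring
  simp only [ggL, List.map_cons, List.map_nil, List.sum_cons, List.sum_nil, h0a, h0b, h0c, h1a, h1b, h1c, h2a, h2b, h2c, h3a, h3b, h3c, h4a, h4b, h4c, h5a, h5b, h5c, h6a, h6b, h6c, h7a, h7b, h7c, h8a, h8b, h8c, h9a, h9b, h9c, h10a, h10b, h10c, h11a, h11b, h11c, h12a, h12b, h12c, h13a, h13b, h13c, h14a, h14b, h14c, h15a, h15b, h15c, h16a, h16b, h16c, h17a, h17b, h17c, h18a, h18b, h18c, h19a, h19b, h19c, h20a, h20b, h20c, h21a, h21b, h21c, h22a, h22b, h22c, h23a, h23b, h23c, sum24]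
  ring

lemma fa_smul (l : ℝ) (v : Fin 4 → ℝ) : fa (fun i => l * v i) = l * fa v := by
  simp only [fa]; ring
lemma fb_smul (l : ℝ) (v : Fin 4 → ℝ) : fb (fun i => l * v i) = l * fb v := by
  simp only [fb]; ring
lemma fc_smul (l : ℝ) (v : Fin 4 → ℝ) : fc (fun i => l * v i) = l * fc v := by
  simp only [fc]; ring

/-- Region facts for a message, in the invariants `p, τ, e`. -/
theorem region (v : Fin 4 → ℝ) (hv : Msg v) :
    let a := fa v; let b := fb v; let c := fc v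
    let p := a ^ 2 + b ^ 2 + c ^ 2; let τ := a * b * c
    let e := a ^ 2 * b ^ 2 + a ^ 2 * c ^ 2 + b ^ 2 * c ^ 2
    p ≤ 3 ∧ 0 ≤ 1 - p + 2 * τ ∧ 0 ≤ (1 - p) ^ 2 + 8 * τ - 4 * e ∧ 3 * e ≤ p ^ 2
      ∧ 3 * p * τ ^ 2 ≤ e ^ 2 ∧ 27 * τ ^ 2 ≤ p ^ 3 := by
  intro a b c p τ e
  obtain ⟨v0, v1, v2, v3⟩ := v_eq v hv.1
  have h0 := hv.2 0
  have h1 := hv.2 1
  have h2 := hv.2 2
  have h3 := hv.2 3
  rw [v0] at h0
  rw [v1] at h1
  rw [v2] at h2
  rw [v3] at h3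
  have x0 : 0 ≤ 1 + (a + b + c) := by simp only [a, b, c]; linarith
  have x1 : 0 ≤ 1 + (a - b - c) := by simp only [a, b, c]; linarith
  have x2 : 0 ≤ 1 + (-a + b - c) := by simp only [a, b, c]; linarith
  have x3 : 0 ≤ 1 + (-a - b + c) := by simp only [a, b, c]; linarith
  clear_value a b c
  refine ⟨?_, ?_, ?_, ?_, ?_, ?_⟩
  · -- `v_i^2 ≤ 2 v_i + 3`
    have t0 : 0 ≤ (1 + (a + b + c)) * (3 - (a + b + c)) := mul_nonneg x0 (by linarith)
    have t1 : 0 ≤ (1 + (a - b - c)) * (3 - (a - b - c)) := mul_nonneg x1 (by linarith)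
    have t2 : 0 ≤ (1 + (-a + b - c)) * (3 - (-a + b - c)) := mul_nonneg x2 (by linarith)
    have t3 : 0 ≤ (1 + (-a - b + c)) * (3 - (-a - b + c)) := mul_nonneg x3 (by linarith)
    nlinarith
  · have t0 := mul_nonneg (mul_nonneg x0 x1) x2
    have t1 := mul_nonneg (mul_nonneg x0 x1) x3
    have t2 := mul_nonneg (mul_nonneg x0 x2) x3
    have t3 := mul_nonneg (mul_nonneg x1 x2) x3
    nlinarith
  · have t0 := mul_nonneg (mul_nonneg (mul_nonneg x0 x1) x2) x3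
    nlinarith
  · nlinarith [sq_nonneg (a ^ 2 - b ^ 2), sq_nonneg (a ^ 2 - c ^ 2), sq_nonneg (b ^ 2 - c ^ 2)]
  · nlinarith [sq_nonneg (a ^ 2 * b ^ 2 - a ^ 2 * c ^ 2), sq_nonneg (a ^ 2 * b ^ 2 - b ^ 2 * c ^ 2),
      sq_nonneg (a ^ 2 * c ^ 2 - b ^ 2 * c ^ 2)]
  · have hA := sq_nonneg a
    have hB := sq_nonneg b
    have hC := sq_nonneg c
    have hS : 0 ≤ a ^ 2 + b ^ 2 + c ^ 2 := by positivity
    have t1 := mul_nonneg hS (sq_nonneg (a ^ 2 - b ^ 2))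
    have t2 := mul_nonneg hS (sq_nonneg (b ^ 2 - c ^ 2))
    have t3 := mul_nonneg hS (sq_nonneg (c ^ 2 - a ^ 2))
    have t4 := mul_nonneg hA (sq_nonneg (b ^ 2 - c ^ 2))
    have t5 := mul_nonneg hB (sq_nonneg (c ^ 2 - a ^ 2))
    have t6 := mul_nonneg hC (sq_nonneg (a ^ 2 - b ^ 2))
    nlinarith

/-- Range of `u`: for messages `z, v`, `-1 ≤ <z,v> ≤ 3`. -/
theorem uu_range (z v : Fin 4 → ℝ) (hz : Msg z) (hv : Msg v) :
    -1 ≤ uu (fa z) (fb z) (fc z) (fa v) (fb v) (fc v)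
      ∧ uu (fa z) (fb z) (fc z) (fa v) (fb v) (fc v) ≤ 3 := by
  obtain ⟨z0, z1, z2, z3⟩ := v_eq z hz.1
  obtain ⟨v0, v1, v2, v3⟩ := v_eq v hv.1
  have hz0 := hz.2 0
  have hz1 := hz.2 1
  have hz2 := hz.2 2
  have hz3 := hz.2 3
  have hv0 := hv.2 0
  have hv1 := hv.2 1
  have hv2 := hv.2 2
  have hv3 := hv.2 3
  rw [z0] at hz0
  rw [z1] at hz1
  rw [z2] at hz2
  rw [z3] at hz3
  rw [v0] at hv0
  rw [v1] at hv1
  rw [v2] at hv2
  rw [v3] at hv3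
  generalize fa z = a at *
  generalize fb z = b at *
  generalize fc z = c at *
  generalize fa v = y1 at *
  generalize fb v = y2 at *
  generalize fc v = y3 at *
  simp only [uu]
  constructor
  · have t0 := mul_nonneg (by linarith : 0 ≤ 1 + (a + b + c)) (by linarith : 0 ≤ 1 + (y1 + y2 + y3))
    have t1 := mul_nonneg (by linarith : 0 ≤ 1 + (a - b - c)) (by linarith : 0 ≤ 1 + (y1 - y2 - y3))
    have t2 := mul_nonneg (by linarith : 0 ≤ 1 + (-a + b - c)) (by linarith : 0 ≤ 1 + (-y1 + y2 - y3))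
    have t3 := mul_nonneg (by linarith : 0 ≤ 1 + (-a - b + c)) (by linarith : 0 ≤ 1 + (-y1 - y2 + y3))
    nlinarith
  · -- `v_i ≤ 3`
    have t0 := mul_nonneg (by linarith : 0 ≤ 3 - (a + b + c)) (by linarith : 0 ≤ 1 + (y1 + y2 + y3))
    have t1 := mul_nonneg (by linarith : 0 ≤ 3 - (a - b - c)) (by linarith : 0 ≤ 1 + (y1 - y2 - y3))
    have t2 := mul_nonneg (by linarith : 0 ≤ 3 - (-a + b - c)) (by linarith : 0 ≤ 1 + (-y1 + y2 - y3))
    have t3 := mul_nonneg (by linarith : 0 ≤ 3 - (-a - b + c)) (by linarith : 0 ≤ 1 + (-y1 - y2 + y3))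
    nlinarith

/-- The scaled message `(l/Lam) v` stays in the simplex when `0 ≤ l ≤ Lam` (so the region facts apply to `Y/Lam`). -/
theorem Msg_smul (l : ℝ) (h0 : 0 ≤ l) (h1 : l ≤ 1) (v : Fin 4 → ℝ) (hv : Msg v) :
    Msg (fun i => l * v i) := by
  constructor
  · rw [← Finset.mul_sum, hv.1, mul_zero]
  · intro i
    have := hv.2 i
    nlinarith

end Vale.Agent.P154q4
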