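import Mathlib
import Vale.Agent.P154q4.Fourier

/-!
Generic bounds for the coefficients of `r`, `r^2` in the Fourier form of the potential, and
region inequalities on messages.
-/

namespace Vale.Agent.P154q4

private lemma cs_ZH (a b c h1 h2 h3 : ℝ) :
    (a * h1 + b * h2 + c * h3) ^ 2 ≤ (a ^ 2 + b ^ 2 + c ^ 2) * (h1 ^ 2 + h2 ^ 2 + h3 ^ 2) := by
  nlinarith [sq_nonneg (a * h2 - b * h1), sq_nonneg (a * h3 - c * h1), sq_nonneg (b * h3 - c * h2)]

private lemma abs_le_half (a : ℝ) : |a| ≤ (1 + a ^ 2) / 2 := by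
  rw [abs_le]
  constructor <;> nlinarith [sq_nonneg (a + 1), sq_nonneg (a - 1)]

private lemma QQ_core (a b c h1 h2 h3 : ℝ) :
    |a * (h2 * h3) + b * (h1 * h3) + c * (h1 * h2)|
      ≤ (1 + (a ^ 2 + b ^ 2 + c ^ 2)) / 2 * (h1 ^ 2 + h2 ^ 2 + h3 ^ 2) := by
  set s := (1 + (a ^ 2 + b ^ 2 + c ^ 2)) / 2 with hs
  have hs0 : 0 ≤ s := by rw [hs]; positivity
  have ha : |a| ≤ s := (abs_le_half a).trans (by rw [hs]; nlinarith [sq_nonneg b, sq_nonneg c])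
  have hb : |b| ≤ s := (abs_le_half b).trans (by rw [hs]; nlinarith [sq_nonneg a, sq_nonneg c])
  have hc : |c| ≤ s := (abs_le_half c).trans (by rw [hs]; nlinarith [sq_nonneg a, sq_nonneg b])
  have t1 : |a * (h2 * h3)| ≤ s * |h2 * h3| := by
    rw [abs_mul]; exact mul_le_mul_of_nonneg_right ha (abs_nonneg _)
  have t2 : |b * (h1 * h3)| ≤ s * |h1 * h3| := by
    rw [abs_mul]; exact mul_le_mul_of_nonneg_right hb (abs_nonneg _)
  have t3 : |c * (h1 * h2)| ≤ s * |h1 * h2| := by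
    rw [abs_mul]; exact mul_le_mul_of_nonneg_right hc (abs_nonneg _)
  have a1 : |h2 * h3| ≤ (h2 ^ 2 + h3 ^ 2) / 2 := by
    rw [abs_le]; constructor <;> nlinarith [sq_nonneg (h2 + h3), sq_nonneg (h2 - h3)]
  have a2 : |h1 * h3| ≤ (h1 ^ 2 + h3 ^ 2) / 2 := by
    rw [abs_le]; constructor <;> nlinarith [sq_nonneg (h1 + h3), sq_nonneg (h1 - h3)]
  have a3 : |h1 * h2| ≤ (h1 ^ 2 + h2 ^ 2) / 2 := by
    rw [abs_le]; constructor <;> nlinarith [sq_nonneg (h1 + h2), sq_nonneg (h1 - h2)]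
  have tri : |a * (h2 * h3) + b * (h1 * h3) + c * (h1 * h2)|
      ≤ |a * (h2 * h3)| + |b * (h1 * h3)| + |c * (h1 * h2)| := abs_add_three _ _ _
  have m1 := mul_le_mul_of_nonneg_left a1 hs0
  have m2 := mul_le_mul_of_nonneg_left a2 hs0
  have m3 := mul_le_mul_of_nonneg_left a3 hs0
  nlinarith

/-- Generic bounds for the coefficients of `r`, `r^2`. -/
theorem W1_bound (k a b c y1 y2 y3 : ℝ) (hk : 0 ≤ k) :
    let p := a ^ 2 + b ^ 2 + c ^ 2; let X := XX a b c y1 y2 y3; let Z := ZH a b c y1 y2 y3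
    |QQ a b c y1 y2 y3 - 2 * k * p * X - 4 * k * Z ^ 2| ≤ ((1 + p) / 2 + 6 * k * p) * X := by
  intro p X Z
  have hQ : |QQ a b c y1 y2 y3| ≤ (1 + p) / 2 * X := QQ_core a b c _ _ _
  have hZ : Z ^ 2 ≤ p * X := cs_ZH a b c _ _ _
  have hX : 0 ≤ X := by simp only [X, XX]; positivity
  have hp : 0 ≤ p := by simp only [p]; positivity
  have hZ0 : 0 ≤ Z ^ 2 := sq_nonneg Z
  have hkZ : k * Z ^ 2 ≤ k * (p * X) := mul_le_mul_of_nonneg_left hZ hk
  have hkZ0 : 0 ≤ k * Z ^ 2 := mul_nonneg hk hZ0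
  have hkp : 0 ≤ k * (p * X) := mul_nonneg hk (mul_nonneg hp hX)
  rw [abs_le] at hQ ⊢
  constructor <;> nlinarith [hQ.1, hQ.2]

private lemma AH_core (h1 h2 h3 mu : ℝ) (hmu : 0 < mu) :
    |h1 * h2 * h3| ≤ mu / 6 * (h1 ^ 2 + h2 ^ 2 + h3 ^ 2)
      + 1 / (18 * mu) * (h1 ^ 2 + h2 ^ 2 + h3 ^ 2) ^ 2 := by
  set X := h1 ^ 2 + h2 ^ 2 + h3 ^ 2 with hXd
  have hX : 0 ≤ X := by rw [hXd]; positivity
  have hAM : 27 * (h1 * h2 * h3) ^ 2 ≤ X ^ 3 := by
    have hA := sq_nonneg h1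
    have hB := sq_nonneg h2
    have hC := sq_nonneg h3
    have t1 := mul_nonneg hX (sq_nonneg (h1 ^ 2 - h2 ^ 2))
    have t2 := mul_nonneg hX (sq_nonneg (h2 ^ 2 - h3 ^ 2))
    have t3 := mul_nonneg hX (sq_nonneg (h3 ^ 2 - h1 ^ 2))
    have t4 := mul_nonneg hA (sq_nonneg (h2 ^ 2 - h3 ^ 2))
    have t5 := mul_nonneg hB (sq_nonneg (h3 ^ 2 - h1 ^ 2))
    have t6 := mul_nonneg hC (sq_nonneg (h1 ^ 2 - h2 ^ 2))
    rw [hXd] at t1 t2 t3 ⊢
    nlinarith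
  set R := mu / 6 * X + 1 / (18 * mu) * X ^ 2 with hR
  have hR0 : 0 ≤ R := by rw [hR]; positivity
  have hRsq : X ^ 3 ≤ 27 * R ^ 2 := by
    have hm : mu * (1 / (18 * mu)) = 1 / 18 := by field_simp
    have hid : 27 * R ^ 2 - X ^ 3
        = 27 * X ^ 2 * (mu / 6 - 1 / (18 * mu) * X) ^ 2 := by
      have : 27 * R ^ 2 - X ^ 3 - 27 * X ^ 2 * (mu / 6 - 1 / (18 * mu) * X) ^ 2
          = X ^ 3 * (18 * (mu * (1 / (18 * mu))) - 1) := by
        rw [hR]; ring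
      rw [hm] at this
      linarith
    have : 0 ≤ 27 * X ^ 2 * (mu / 6 - 1 / (18 * mu) * X) ^ 2 := by positivity
    linarith
  have hsq : (h1 * h2 * h3) ^ 2 ≤ R ^ 2 := by linarith
  exact abs_le_of_sq_le_sq hsq hR0

theorem W2_bound (k mu nu a b c y1 y2 y3 : ℝ) (hk : 0 ≤ k) (hmu : 0 < mu) (hnu : 0 < nu) :
    let p := a ^ 2 + b ^ 2 + c ^ 2; let X := XX a b c y1 y2 y3; let Z := ZH a b c y1 y2 y3
    |AH a b c y1 y2 y3 - 4 * k * Z * X| ≤
      (mu / 6 + 2 * k * nu * p) * X + (1 / (18 * mu) + 2 * k / nu) * X ^ 2 := by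
  intro p X Z
  have hA : |AH a b c y1 y2 y3| ≤ mu / 6 * X + 1 / (18 * mu) * X ^ 2 := AH_core _ _ _ mu hmu
  have hZ : Z ^ 2 ≤ p * X := cs_ZH a b c _ _ _
  have hX : 0 ≤ X := by simp only [X, XX]; positivity
  have hp : 0 ≤ p := by simp only [p]; positivity
  have hZ2 : 2 * |Z| ≤ nu * p + X / nu := by
    have hS : 0 ≤ nu * p + X / nu := by positivity
    have hsq : (2 * Z) ^ 2 ≤ (nu * p + X / nu) ^ 2 := by
      have hm : nu * p * (X / nu) = p * X := by field_simp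
      have : (nu * p + X / nu) ^ 2 = (nu * p - X / nu) ^ 2 + 4 * (nu * p * (X / nu)) := by ring
      rw [this, hm]
      nlinarith [sq_nonneg (nu * p - X / nu)]
    have := abs_le_of_sq_le_sq hsq hS
    rwa [abs_mul, abs_of_pos (by norm_num : (0:ℝ) < 2)] at this
  have hZk : |4 * k * Z * X| ≤ (2 * k * nu * p) * X + (2 * k / nu) * X ^ 2 := by
    rw [abs_mul, abs_mul, abs_of_nonneg hX, abs_of_nonneg (by positivity : 0 ≤ 4 * k)]
    have h2 := mul_le_mul_of_nonneg_left hZ2 (mul_nonneg hk hX)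
    have e : k * X * (nu * p + X / nu) = k * nu * p * X + k / nu * X ^ 2 := by
      field_simp
    have e2 : 4 * k * |Z| * X = 2 * (k * X * (2 * |Z|)) := by ring
    rw [e2]
    rw [e] at h2
    have e3 : 2 * k * nu * p * X + 2 * k / nu * X ^ 2
        = 2 * (k * nu * p * X + k / nu * X ^ 2) := by ring
    rw [e3]
    linarith
  calc |AH a b c y1 y2 y3 - 4 * k * Z * X|
      ≤ |AH a b c y1 y2 y3| + |4 * k * Z * X| := abs_sub _ _
    _ ≤ _ := by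
      have e4 : (mu / 6 + 2 * k * nu * p) * X + (1 / (18 * mu) + 2 * k / nu) * X ^ 2
          = (mu / 6 * X + 1 / (18 * mu) * X ^ 2) + ((2 * k * nu * p) * X + (2 * k / nu) * X ^ 2) := by
        ring
      rw [e4]
      linarith

/-- On messages: `C ≥ 0` (vanishes at the vertices; C = average of |P_z y|^2 <z,y> / tau(y)). -/
theorem C_nonneg (v : Fin 4 → ℝ) (hv : Msg v) :
    let a := fa v; let b := fb v; let c := fc v
    let p := a ^ 2 + b ^ 2 + c ^ 2; let τ := a * b * c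
    let e := a ^ 2 * b ^ 2 + a ^ 2 * c ^ 2 + b ^ 2 * c ^ 2
    0 ≤ 4 * p - 6 * τ - 8 * e + 6 * p * τ := by
  intro a b c p τ e
  have hr : p ≤ 3 ∧ 0 ≤ 1 - p + 2 * τ ∧ 0 ≤ (1 - p) ^ 2 + 8 * τ - 4 * e ∧ 3 * e ≤ p ^ 2
      ∧ 3 * p * τ ^ 2 ≤ e ^ 2 ∧ 27 * τ ^ 2 ≤ p ^ 3 := region v hv
  obtain ⟨-, h2, -, h4, -, h6⟩ := hr
  have hp : 0 ≤ p := by simp only [p]; positivity
  clear_value p τ e
  rcases le_total 1 p with h1p | h1p
  · -- `p ≥ 1`: `τ ≥ (p-1)/2`, `e ≤ p²/3`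
    have ht : 0 ≤ (p - 1) * (τ - (p - 1) / 2) := mul_nonneg (by linarith) (by linarith)
    nlinarith [sq_nonneg (p - 3)]
  · -- `p ≤ 1`
    have hp3 : p ^ 3 ≤ p ^ 2 := by nlinarith [mul_nonneg hp hp, mul_nonneg (mul_nonneg hp hp) (sub_nonneg.2 h1p)]
    have ht : τ ≤ p / 5 := by
      by_contra hc
      have hc : p / 5 < τ := not_le.1 hc
      have : (p / 5) ^ 2 < τ ^ 2 := by
        have hp5 : 0 ≤ p / 5 := by positivity
        nlinarith
      nlinarith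
    have hm : τ * (1 - p) ≤ p / 5 * (1 - p) :=
      mul_le_mul_of_nonneg_right ht (by linarith)
    nlinarith [mul_nonneg hp (sub_nonneg.2 h1p), mul_nonneg hp hp]

/-- On messages: `p + 9 τ ≥ 0`. -/
theorem tau_lower (v : Fin 4 → ℝ) (hv : Msg v) :
    let a := fa v; let b := fb v; let c := fc v
    0 ≤ a ^ 2 + b ^ 2 + c ^ 2 + 9 * (a * b * c) := by
  intro a b c
  obtain ⟨v0, v1, v2, v3⟩ := v_eq v hv.1
  have h0 := hv.2 0
  have h1 := hv.2 1
  have h2 := hv.2 2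
  have h3 := hv.2 3
  rw [v0] at h0
  rw [v1] at h1
  rw [v2] at h2
  rw [v3] at h3
  have x0 : 0 ≤ 1 + (a + b + c) := by simp only [a, b, c]; linarith
  have x1 : 0 ≤ 1 + (a - b - c) := by simp only [a, b, c]; linarith
  have x2 : 0 ≤ 1 + (-a + b - c) := by simp only [a, b, c]; linarith
  have x3 : 0 ≤ 1 + (-a - b + c) := by simp only [a, b, c]; linarith
  clear_value a b c
  -- the core inequality in absolute values
  have core : ∀ x y w : ℝ, 0 ≤ x → 0 ≤ y → 0 ≤ w → x + y + w ≤ 1 →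
      9 * (x * y * w) ≤ x ^ 2 + y ^ 2 + w ^ 2 := by
    intro x y w hx hy hw hs
    have hT : 9 * (x * y * w) ≤ (x + y + w) * (x ^ 2 + y ^ 2 + w ^ 2) := by
      nlinarith [mul_nonneg hx (sq_nonneg (y - w)), mul_nonneg hy (sq_nonneg (x - w)),
        mul_nonneg hw (sq_nonneg (x - y)), mul_nonneg (add_nonneg (add_nonneg hx hy) hw)
          (add_nonneg (add_nonneg (sq_nonneg (x - y)) (sq_nonneg (y - w))) (sq_nonneg (x - w)))]
    have hS : 0 ≤ x ^ 2 + y ^ 2 + w ^ 2 := by positivity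
    nlinarith
  by_cases ht : 0 ≤ a * b * c
  · nlinarith [sq_nonneg a, sq_nonneg b, sq_nonneg c]
  have ht : a * b * c < 0 := not_le.1 ht
  -- sign cases of a, b, c
  rcases le_total 0 a with ha | ha <;> rcases le_total 0 b with hb | hb <;>
    rcases le_total 0 c with hc | hc
  · have := mul_nonneg (mul_nonneg ha hb) hc; linarith
  · -- a ≥ 0, b ≥ 0, c ≤ 0
    have := core a b (-c) ha hb (by linarith) (by linarith)
    nlinarith
  · have := core a (-b) c ha (by linarith) hc (by linarith)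
    nlinarith
  · have := mul_nonneg (mul_nonneg ha (neg_nonneg.2 hb)) (neg_nonneg.2 hc)
    nlinarith
  · have := core (-a) b c (by linarith) hb hc (by linarith)
    nlinarith
  · have := mul_nonneg (mul_nonneg (neg_nonneg.2 ha) hb) (neg_nonneg.2 hc)
    nlinarith
  · have := mul_nonneg (mul_nonneg (neg_nonneg.2 ha) (neg_nonneg.2 hb)) hc
    nlinarith
  · have := core (-a) (-b) (-c) (by linarith) (by linarith) (by linarith) (by linarith)
    nlinarith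

/-- The discriminant of the cubic with roots a²,b²,c². -/
theorem disc_nonneg (a b c : ℝ) :
    let p := a ^ 2 + b ^ 2 + c ^ 2; let τ := a * b * c
    let e := a ^ 2 * b ^ 2 + a ^ 2 * c ^ 2 + b ^ 2 * c ^ 2
    0 ≤ p ^ 2 * e ^ 2 - 4 * e ^ 3 - 4 * p ^ 3 * τ ^ 2 + 18 * p * e * τ ^ 2 - 27 * τ ^ 4 := by
  intro p τ e
  have : p ^ 2 * e ^ 2 - 4 * e ^ 3 - 4 * p ^ 3 * τ ^ 2 + 18 * p * e * τ ^ 2 - 27 * τ ^ 4
      = ((a ^ 2 - b ^ 2) * (a ^ 2 - c ^ 2) * (b ^ 2 - c ^ 2)) ^ 2 := by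
    simp only [p, τ, e]; ring
  rw [this]; positivity

end Vale.Agent.P154q4
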