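import Vale.Agent.P154.Defs

/-!
Potts channel with four colours on the rooted `d`-ary tree: a law-level master theorem.
A cone potential `L` and a second-moment inequality with margin give non-reconstruction.
-/

open Finset BigOperators Filter Topology

namespace Vale.Agent.P154q4

open Vale.Agent.P154

/-- Normalized second moment of a vector. -/
noncomputable def s2 (v : Fin 4 → ℝ) : ℝ := (∑ i, v i ^ 2) / 4

/-- Homogeneous extension of a potential. -/
noncomputable def Hom (f : (Fin 4 → ℝ) → ℝ) (x : Fin 4 → ℝ) : ℝ :=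
  (∑ i, x i) / 4 * f (fun i => 4 * x i / (∑ k, x k) - 1)

/-- The two-point potential `D * f(z ⊕ m)`, with `D = ∑ (1+z_i)(1+m_i)/4`. -/
noncomputable def Kp (f : (Fin 4 → ℝ) → ℝ) (z m : Fin 4 → ℝ) : ℝ :=
  Hom f (fun i => (1 + z i) * (1 + m i))

/-- Messages: normalized posterior vectors. -/
def Msg (v : Fin 4 → ℝ) : Prop := (∑ i, v i = 0) ∧ (∀ i, -1 ≤ v i)

/-- The vertices of the simplex of messages. -/
def vertex (i : Fin 4) : Fin 4 → ℝ := fun j => if j = i then 3 else -1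

/-- The normalized message of a positive vector. -/
noncomputable def zOf (x : Fin 4 → ℝ) : Fin 4 → ℝ := fun i => 4 * x i / (∑ k, x k) - 1

lemma zOf_msg {x : Fin 4 → ℝ} (hx : ∀ i, 0 < x i) : Msg (zOf x) := by
  have hS : 0 < ∑ i, x i := Finset.sum_pos (fun i _ => hx i) ⟨0, Finset.mem_univ _⟩
  constructor
  · have h3 : ∑ i, 4 * x i / (∑ k, x k) = 4 := by
      rw [← Finset.sum_div, ← Finset.mul_sum]
      field_simp
    simp only [zOf, Finset.sum_sub_distrib, h3]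
    simp
  · intro i
    have : 0 ≤ 4 * x i / ∑ k, x k := div_nonneg (by have := hx i; linarith) hS.le
    simp only [zOf]
    linarith

lemma Hom_eq (f : (Fin 4 → ℝ) → ℝ) (x : Fin 4 → ℝ) : Hom f x = (∑ i, x i) / 4 * f (zOf x) := rfl

lemma Hom_smul (f : (Fin 4 → ℝ) → ℝ) (c : ℝ) (hc : c ≠ 0) (v : Fin 4 → ℝ) :
    Hom f (fun i => c * v i) = c * Hom f v := by
  unfold Hom
  have h1 : (∑ i, c * v i) = c * ∑ i, v i := by rw [Finset.mul_sum]
  have h2 : ∀ i, 4 * (c * v i) / (c * ∑ k, v k) = 4 * v i / ∑ k, v k := by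
    intro i
    rw [show 4 * (c * v i) = c * (4 * v i) by ring, mul_div_mul_left _ _ hc]
  simp only [h1, h2]
  ring

lemma Hom_mul (f : (Fin 4 → ℝ) → ℝ) (x m : Fin 4 → ℝ) (hS : (∑ i, x i) ≠ 0) :
    Hom f (fun i => x i * (1 + m i))
      = (∑ i, x i) / 4 * Kp f (zOf x) m := by
  unfold Kp zOf
  have hc : (∑ i, x i) / 4 ≠ 0 := div_ne_zero hS (by norm_num)
  rw [← Hom_smul f _ hc]
  congr 1
  funext i
  field_simp
  ring

lemma Hom_one_add (f : (Fin 4 → ℝ) → ℝ) (m : Fin 4 → ℝ) (hm : ∑ i, m i = 0) :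
    Hom f (fun i => 1 + m i) = f m := by
  unfold Hom
  have h1 : ∑ i, (1 + m i) = 4 := by
    rw [Finset.sum_add_distrib, hm]; simp
  simp only [h1]
  have h2 : (fun i => 4 * (1 + m i) / 4 - 1) = m := by
    funext i; ring
  rw [h2]; simp

lemma s2_nonneg (v : Fin 4 → ℝ) : 0 ≤ s2 v := by
  unfold s2
  exact div_nonneg (Finset.sum_nonneg fun i _ => sq_nonneg _) (by norm_num)

lemma s2_smul (r : ℝ) (v : Fin 4 → ℝ) : s2 (fun i => r * v i) = r ^ 2 * s2 v := by
  unfold s2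
  simp only [mul_pow, ← Finset.mul_sum]
  ring

section law

variable {X : Type*} [Fintype X]

/-- The `k`-fold merging operator. -/
noncomputable def mergeA (p : X → ℝ) (y : X → Fin 4 → ℝ) (lam : ℝ) (k : ℕ)
    (G : (Fin 4 → ℝ) → ℝ) (x : Fin 4 → ℝ) : ℝ :=
  ∑ f : Fin k → X, (∏ c, p (f c)) * G (fun i => x i * ∏ c, (1 + lam * y (f c) i))

lemma mergeA_zero (p : X → ℝ) (y : X → Fin 4 → ℝ) (lam : ℝ) (G : (Fin 4 → ℝ) → ℝ)
    (x : Fin 4 → ℝ) : mergeA p y lam 0 G x = G x := by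
  simp [mergeA]

lemma mergeA_succ (p : X → ℝ) (y : X → Fin 4 → ℝ) (lam : ℝ) (k : ℕ) (G : (Fin 4 → ℝ) → ℝ)
    (x : Fin 4 → ℝ) :
    mergeA p y lam (k + 1) G x
      = ∑ ξ, p ξ * mergeA p y lam k G (fun i => x i * (1 + lam * y ξ i)) := by
  classical
  unfold mergeA
  rw [← (Fin.consEquiv (fun _ => X)).sum_comp, Fintype.sum_prod_type]
  refine Finset.sum_congr rfl fun ξ _ => ?_
  rw [Finset.mul_sum]
  refine Finset.sum_congr rfl fun f _ => ?_
  simp only [Fin.consEquiv, Equiv.coe_fn_mk, Fin.prod_univ_succ, Fin.cons_zero, Fin.cons_succ]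
  rw [mul_assoc]
  congr 3
  funext i
  ring

/-- Peeling off the last message instead of the first one. -/
lemma mergeA_succ' (p : X → ℝ) (y : X → Fin 4 → ℝ) (lam : ℝ) (k : ℕ) (G : (Fin 4 → ℝ) → ℝ)
    (x : Fin 4 → ℝ) :
    mergeA p y lam (k + 1) G x
      = mergeA p y lam k (fun x' => ∑ ξ, p ξ * G (fun i => x' i * (1 + lam * y ξ i))) x := by
  induction k generalizing x with
  | zero =>
    rw [mergeA_succ, mergeA_zero]
    simp only [mergeA_zero]
  | succ k ih =>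
    rw [mergeA_succ, mergeA_succ (k := k)]
    refine Finset.sum_congr rfl fun ξ _ => ?_
    rw [ih]

lemma mergeA_add (p : X → ℝ) (y : X → Fin 4 → ℝ) (lam : ℝ) (k : ℕ) (G G' : (Fin 4 → ℝ) → ℝ)
    (x : Fin 4 → ℝ) :
    mergeA p y lam k (fun x => G x + G' x) x = mergeA p y lam k G x + mergeA p y lam k G' x := by
  unfold mergeA
  rw [← Finset.sum_add_distrib]
  exact Finset.sum_congr rfl fun f _ => by ring

lemma mergeA_const_mul (p : X → ℝ) (y : X → Fin 4 → ℝ) (lam : ℝ) (k : ℕ) (r : ℝ)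
    (G : (Fin 4 → ℝ) → ℝ) (x : Fin 4 → ℝ) :
    mergeA p y lam k (fun x => r * G x) x = r * mergeA p y lam k G x := by
  unfold mergeA
  rw [Finset.mul_sum]
  exact Finset.sum_congr rfl fun f _ => by ring

variable {p : X → ℝ} {y : X → Fin 4 → ℝ} {lam : ℝ}

lemma mergeA_mono (hp : ∀ ξ, 0 ≤ p ξ) (hpos : ∀ ξ i, 0 < 1 + lam * y ξ i) (k : ℕ)
    {G G' : (Fin 4 → ℝ) → ℝ} (h : ∀ x, (∀ i, 0 < x i) → G x ≤ G' x) (x : Fin 4 → ℝ)
    (hx : ∀ i, 0 < x i) :
    mergeA p y lam k G x ≤ mergeA p y lam k G' x := by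
  unfold mergeA
  refine Finset.sum_le_sum fun f _ =>
    mul_le_mul_of_nonneg_left ?_ (Finset.prod_nonneg fun c _ => hp _)
  exact h _ fun i => mul_pos (hx i) (Finset.prod_pos fun c _ => hpos _ i)

lemma mergeA_nonneg (hp : ∀ ξ, 0 ≤ p ξ) (hpos : ∀ ξ i, 0 < 1 + lam * y ξ i) (k : ℕ)
    {G : (Fin 4 → ℝ) → ℝ} (h : ∀ x, (∀ i, 0 < x i) → 0 ≤ G x) (x : Fin 4 → ℝ)
    (hx : ∀ i, 0 < x i) :
    0 ≤ mergeA p y lam k G x := by
  unfold mergeA
  refine Finset.sum_nonneg fun f _ =>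
    mul_nonneg (Finset.prod_nonneg fun c _ => hp _) ?_
  exact h _ fun i => mul_pos (hx i) (Finset.prod_pos fun c _ => hpos _ i)

lemma avg_sym
    (hsym : ∀ (g : Equiv.Perm (Fin 4)) (f : (Fin 4 → ℝ) → ℝ),
      ∑ ξ, p ξ * f (y ξ) = ∑ ξ, p ξ * f (fun i => y ξ (g i)))
    (f : (Fin 4 → ℝ) → ℝ) :
    ∑ ξ, p ξ * f (y ξ)
      = ∑ ξ, p ξ * ((1 / 24 : ℝ) * ∑ g : Equiv.Perm (Fin 4), f (fun i => y ξ (g i))) := by
  have h : ∑ ξ, p ξ * ((1 / 24 : ℝ) * ∑ g : Equiv.Perm (Fin 4), f (fun i => y ξ (g i)))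
      = (1 / 24 : ℝ) * ∑ g : Equiv.Perm (Fin 4), ∑ ξ, p ξ * f (fun i => y ξ (g i)) := by
    rw [Finset.sum_comm, Finset.mul_sum]
    refine Finset.sum_congr rfl fun ξ _ => ?_
    rw [Finset.mul_sum, Finset.mul_sum, Finset.mul_sum]
    refine Finset.sum_congr rfl fun g _ => ?_
    ring
  rw [h]
  have h2 : ∀ g : Equiv.Perm (Fin 4), ∑ ξ, p ξ * f (fun i => y ξ (g i)) = ∑ ξ, p ξ * f (y ξ) :=
    fun g => (hsym g f).symm
  simp only [h2, Finset.sum_const, Finset.card_univ, Fintype.card_perm, Fintype.card_fin]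
  simp [Nat.factorial]

lemma mean_zero
    (hy0 : ∀ ξ, ∑ i, y ξ i = 0)
    (hsym : ∀ (g : Equiv.Perm (Fin 4)) (f : (Fin 4 → ℝ) → ℝ),
      ∑ ξ, p ξ * f (y ξ) = ∑ ξ, p ξ * f (fun i => y ξ (g i))) (i : Fin 4) :
    ∑ ξ, p ξ * y ξ i = 0 := by
  have h : ∀ j : Fin 4, ∑ ξ, p ξ * y ξ j = ∑ ξ, p ξ * y ξ i := by
    intro j
    have := hsym (Equiv.swap i j) (fun v => v i)
    simp only [Equiv.swap_apply_left] at this
    exact this.symm
  have h3 : ∑ j : Fin 4, ∑ ξ, p ξ * y ξ j = 0 := by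
    rw [Finset.sum_comm]
    refine Finset.sum_eq_zero fun ξ _ => ?_
    rw [← Finset.mul_sum, hy0, mul_zero]
  simp only [h, Finset.sum_const, Finset.card_univ, Fintype.card_fin] at h3
  simpa using h3

lemma mass_step (hp1 : ∑ ξ, p ξ = 1) (hm : ∀ i, ∑ ξ, p ξ * y ξ i = 0) (x : Fin 4 → ℝ) :
    ∑ ξ, p ξ * ((∑ i, x i * (1 + lam * y ξ i)) / 4) = (∑ i, x i) / 4 := by
  have : ∀ ξ, p ξ * ((∑ i, x i * (1 + lam * y ξ i)) / 4)
      = p ξ * ((∑ i, x i) / 4) + (lam / 4) * ∑ i, x i * (p ξ * y ξ i) := by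
    intro ξ
    simp only [Fin.sum_univ_four]
    ring
  simp only [this]
  rw [Finset.sum_add_distrib, ← Finset.sum_mul, hp1, one_mul]
  have h2 : ∑ ξ, (lam / 4) * ∑ i, x i * (p ξ * y ξ i) = 0 := by
    rw [← Finset.mul_sum, Finset.sum_comm]
    have : ∀ i, ∑ ξ, x i * (p ξ * y ξ i) = 0 := by
      intro i
      rw [← Finset.mul_sum, hm, mul_zero]
    simp [this]
  rw [h2, add_zero]

lemma mergeA_mass (hp1 : ∑ ξ, p ξ = 1) (hm : ∀ i, ∑ ξ, p ξ * y ξ i = 0) (k : ℕ)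
    (x : Fin 4 → ℝ) :
    mergeA p y lam k (fun x => (∑ i, x i) / 4) x = (∑ i, x i) / 4 := by
  induction k generalizing x with
  | zero => rw [mergeA_zero]
  | succ k ih =>
    rw [mergeA_succ]
    simp only [ih]
    exact mass_step hp1 hm x

/-- One merge with a symmetrized message distribution. -/
lemma T_eq
    (hsym : ∀ (g : Equiv.Perm (Fin 4)) (f : (Fin 4 → ℝ) → ℝ),
      ∑ ξ, p ξ * f (y ξ) = ∑ ξ, p ξ * f (fun i => y ξ (g i)))
    (f : (Fin 4 → ℝ) → ℝ) (x : Fin 4 → ℝ) (hS : ∑ i, x i ≠ 0) :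
    ∑ ξ, p ξ * Hom f (fun i => x i * (1 + lam * y ξ i))
      = (∑ i, x i) / 4 * ∑ ξ, p ξ * ((1 / 24 : ℝ) * ∑ g : Equiv.Perm (Fin 4),
          Kp f (zOf x) (fun i => lam * y ξ (g i))) := by
  have e1 : ∀ ξ, Hom f (fun i => x i * (1 + lam * y ξ i))
      = (∑ i, x i) / 4 * Kp f (zOf x) (fun i => lam * y ξ i) :=
    fun ξ => Hom_mul f x _ hS
  have := avg_sym hsym (fun v => Kp f (zOf x) (fun i => lam * v i))
  simp only at this
  simp only [e1]
  rw [← this, Finset.mul_sum]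
  exact Finset.sum_congr rfl fun ξ _ => by ring

/-- One law-level step: the cone is preserved, and the second moment loses a cubic margin. -/
theorem law_step
    (hp : ∀ ξ, 0 ≤ p ξ) (hp1 : ∑ ξ, p ξ = 1) (hy : ∀ ξ, Msg (y ξ))
    (hsym : ∀ (g : Equiv.Perm (Fin 4)) (f : (Fin 4 → ℝ) → ℝ),
      ∑ ξ, p ξ * f (y ξ) = ∑ ξ, p ξ * f (fun i => y ξ (g i)))
    (hl0 : 0 ≤ lam) (hl1 : lam < 1)
    {L a b a' b' : (Fin 4 → ℝ) → ℝ} {c c1 : ℝ} (hc : 0 ≤ c) (hc1 : 0 ≤ c1)
    (ha : ∀ v, Msg v → 0 ≤ a v) (hb : ∀ z, Msg z → 0 ≤ b z)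
    (ha' : ∀ v, Msg v → 0 ≤ a' v) (hb' : ∀ z, Msg z → 0 ≤ b' z)
    (hfirst : ∀ v, Msg v → c1 * L v ≤ L (fun i => lam * v i))
    (hI : ∀ z v, Msg z → Msg v →
      a v * L z + b z * L v
        ≤ (1 / 24) * ∑ g : Equiv.Perm (Fin 4), Kp L z (fun i => lam * v (g i)))
    (hM : ∀ z v, Msg z → Msg v →
      (1 / 24) * (∑ g : Equiv.Perm (Fin 4), Kp s2 z (fun i => lam * v (g i)))
        + a' v * L z + b' z * L v + c * s2 v * s2 z ^ 2 ≤ s2 z + lam ^ 2 * s2 v)
    (hLbar : 0 ≤ ∑ ξ, p ξ * L (y ξ)) :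
    (∀ j : ℕ, 0 ≤ mergeA p y lam (j + 1) (Hom L) (fun _ => 1)) ∧
    (∀ k : ℕ, mergeA p y lam (k + 2) (Hom s2) (fun _ => 1)
      ≤ ((k : ℝ) + 2) * lam ^ 2 * (∑ ξ, p ξ * s2 (y ξ))
        - c * lam ^ 4 * (∑ ξ, p ξ * s2 (y ξ)) ^ 3) := by
  classical
  set Lbar := ∑ ξ, p ξ * L (y ξ) with hLbardef
  set E := ∑ ξ, p ξ * s2 (y ξ) with hE
  set Abar := ∑ ξ, p ξ * a (y ξ) with hAbar
  set Abar' := ∑ ξ, p ξ * a' (y ξ) with hAbar'
  have hy0 : ∀ ξ, ∑ i, y ξ i = 0 := fun ξ => (hy ξ).1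
  have hy1 : ∀ ξ i, -1 ≤ y ξ i := fun ξ => (hy ξ).2
  have h1l : 0 < 1 - lam := by linarith
  have hpos : ∀ ξ i, 0 < 1 + lam * y ξ i := by
    intro ξ i
    have := hy1 ξ i
    nlinarith
  have hm := mean_zero (p := p) (y := y) hy0 hsym
  have hE0 : 0 ≤ E := Finset.sum_nonneg fun ξ _ => mul_nonneg (hp ξ) (s2_nonneg _)
  have hAbar0 : 0 ≤ Abar := Finset.sum_nonneg fun ξ _ => mul_nonneg (hp ξ) (ha _ (hy ξ))
  have hAbar'0 : 0 ≤ Abar' := Finset.sum_nonneg fun ξ _ => mul_nonneg (hp ξ) (ha' _ (hy ξ))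
  have hone : ∀ i : Fin 4, (0 : ℝ) < (fun _ => 1 : Fin 4 → ℝ) i := fun _ => one_pos
  have hSpos : ∀ x : Fin 4 → ℝ, (∀ i, 0 < x i) → 0 < ∑ i, x i :=
    fun x hx => Finset.sum_pos (fun i _ => hx i) ⟨0, Finset.mem_univ _⟩
  have hHom1 : ∀ (f : (Fin 4 → ℝ) → ℝ) ξ, Hom f (fun i => 1 * (1 + lam * y ξ i))
      = f (fun i => lam * y ξ i) := by
    intro f ξ
    simp only [one_mul]
    exact Hom_one_add f _ (by rw [← Finset.mul_sum, hy0, mul_zero])
  have hfirstE : ∀ f : (Fin 4 → ℝ) → ℝ, mergeA p y lam 1 (Hom f) (fun _ => 1)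
      = ∑ ξ, p ξ * f (fun i => lam * y ξ i) := by
    intro f
    rw [mergeA_succ']
    simp only [mergeA_zero, hHom1]
  -- the cone inequality after averaging
  have hTL : ∀ x : Fin 4 → ℝ, (∀ i, 0 < x i) →
      (fun x => Abar * Hom L x) x ≤ ∑ ξ, p ξ * Hom L (fun i => x i * (1 + lam * y ξ i)) := by
    intro x hx
    have hS := hSpos x hx
    have hz := zOf_msg hx
    simp only
    rw [T_eq hsym L x hS.ne', Hom_eq]
    have h1 : Abar * L (zOf x) + b (zOf x) * Lbar ≤ ∑ ξ, p ξ * ((1 / 24 : ℝ) *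
        ∑ g : Equiv.Perm (Fin 4), Kp L (zOf x) (fun i => lam * y ξ (g i))) := by
      calc Abar * L (zOf x) + b (zOf x) * Lbar
          = ∑ ξ, p ξ * (a (y ξ) * L (zOf x) + b (zOf x) * L (y ξ)) := by
            rw [hAbar, hLbardef, Finset.sum_mul, Finset.mul_sum, ← Finset.sum_add_distrib]
            exact Finset.sum_congr rfl fun ξ _ => by ring
        _ ≤ _ := Finset.sum_le_sum fun ξ _ =>
            mul_le_mul_of_nonneg_left (hI _ _ hz (hy ξ)) (hp ξ)
    have h2 : 0 ≤ b (zOf x) * Lbar := mul_nonneg (hb _ hz) hLbar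
    have h3 : 0 ≤ (∑ i, x i) / 4 := by positivity
    have h4 := mul_le_mul_of_nonneg_left (h1.trans' (le_add_of_nonneg_right h2)) h3
    calc Abar * ((∑ i, x i) / 4 * L (zOf x)) = (∑ i, x i) / 4 * (Abar * L (zOf x)) := by ring
      _ ≤ _ := h4
  have hconeE : ∀ j : ℕ, 0 ≤ mergeA p y lam (j + 1) (Hom L) (fun _ => 1) := by
    intro j
    induction j with
    | zero =>
      rw [hfirstE]
      have h1 : c1 * Lbar ≤ ∑ ξ, p ξ * L (fun i => lam * y ξ i) := by
        rw [hLbardef, Finset.mul_sum]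
        refine Finset.sum_le_sum fun ξ _ => ?_
        have := mul_le_mul_of_nonneg_left (hfirst _ (hy ξ)) (hp ξ)
        calc c1 * (p ξ * L (y ξ)) = p ξ * (c1 * L (y ξ)) := by ring
          _ ≤ _ := this
      exact le_trans (mul_nonneg hc1 hLbar) h1
    | succ j ih =>
      rw [mergeA_succ']
      refine le_trans ?_ (mergeA_mono hp hpos (j + 1) hTL _ hone)
      rw [mergeA_const_mul]
      exact mul_nonneg hAbar0 ih
  refine ⟨hconeE, ?_⟩
  -- the second moment inequality after averaging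
  set S2 : (Fin 4 → ℝ) → ℝ := fun v => s2 v ^ 2 with hS2
  have hTM : ∀ x : Fin 4 → ℝ, (∀ i, 0 < x i) →
      ∑ ξ, p ξ * Hom s2 (fun i => x i * (1 + lam * y ξ i))
        ≤ (fun x => Hom s2 x + ((lam ^ 2 * E) * ((∑ i, x i) / 4)
            + ((-Abar') * Hom L x + (-(c * E)) * Hom S2 x))) x := by
    intro x hx
    have hS := hSpos x hx
    have hz := zOf_msg hx
    simp only
    rw [T_eq hsym s2 x hS.ne', Hom_eq s2, Hom_eq L, Hom_eq S2]
    have h1 : ∑ ξ, p ξ * ((1 / 24 : ℝ) *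
        ∑ g : Equiv.Perm (Fin 4), Kp s2 (zOf x) (fun i => lam * y ξ (g i)))
        ≤ s2 (zOf x) + lam ^ 2 * E - Abar' * L (zOf x) - b' (zOf x) * Lbar
          - c * E * s2 (zOf x) ^ 2 := by
      calc _ ≤ ∑ ξ, p ξ * (s2 (zOf x) + lam ^ 2 * s2 (y ξ) - a' (y ξ) * L (zOf x)
            - b' (zOf x) * L (y ξ) - c * s2 (y ξ) * s2 (zOf x) ^ 2) := by
            refine Finset.sum_le_sum fun ξ _ => mul_le_mul_of_nonneg_left ?_ (hp ξ)
            have := hM _ _ hz (hy ξ)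
            linarith
        _ = s2 (zOf x) * (∑ ξ, p ξ) + lam ^ 2 * E - Abar' * L (zOf x) - b' (zOf x) * Lbar
            - c * E * s2 (zOf x) ^ 2 := by
            rw [hE, hAbar', hLbardef, Finset.mul_sum, Finset.mul_sum, Finset.mul_sum,
              Finset.sum_mul, Finset.mul_sum, Finset.sum_mul, ← Finset.sum_add_distrib,
              ← Finset.sum_sub_distrib, ← Finset.sum_sub_distrib, ← Finset.sum_sub_distrib]
            exact Finset.sum_congr rfl fun ξ _ => by ring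
        _ = _ := by rw [hp1, mul_one]
    have h2 : 0 ≤ b' (zOf x) * Lbar := mul_nonneg (hb' _ hz) hLbar
    have h3 : 0 ≤ (∑ i, x i) / 4 := by positivity
    have h4 : ∑ ξ, p ξ * ((1 / 24 : ℝ) *
        ∑ g : Equiv.Perm (Fin 4), Kp s2 (zOf x) (fun i => lam * y ξ (g i)))
        ≤ s2 (zOf x) + lam ^ 2 * E - Abar' * L (zOf x) - c * E * s2 (zOf x) ^ 2 := by
      linarith
    have h5 := mul_le_mul_of_nonneg_left h4 h3
    simp only [hS2]
    calc _ ≤ _ := h5
      _ = _ := by ring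
  have hE1 : mergeA p y lam 1 (Hom s2) (fun _ => 1) = lam ^ 2 * E := by
    rw [hfirstE, hE, Finset.mul_sum]
    refine Finset.sum_congr rfl fun ξ _ => ?_
    rw [s2_smul]
    ring
  have hS2pos : ∀ j, 0 ≤ mergeA p y lam j (Hom S2) (fun _ => 1) := by
    intro j
    refine mergeA_nonneg hp hpos j (fun x hx => ?_) _ hone
    rw [Hom_eq]
    have := hSpos x hx
    simp only [hS2]
    positivity
  have hS2one : lam ^ 4 * E ^ 2 ≤ mergeA p y lam 1 (Hom S2) (fun _ => 1) := by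
    rw [hfirstE]
    have e1 : ∀ ξ, S2 (fun i => lam * y ξ i) = lam ^ 4 * s2 (y ξ) ^ 2 := by
      intro ξ
      simp only [hS2]
      rw [s2_smul]
      ring
    simp only [e1]
    have hcs : E ^ 2 ≤ ∑ ξ, p ξ * s2 (y ξ) ^ 2 := by
      have h : 0 ≤ ∑ ξ, p ξ * (s2 (y ξ) - E) ^ 2 :=
        Finset.sum_nonneg fun ξ _ => mul_nonneg (hp ξ) (sq_nonneg _)
      have e : ∑ ξ, p ξ * (s2 (y ξ) - E) ^ 2
          = ∑ ξ, p ξ * s2 (y ξ) ^ 2 - 2 * E * E + E ^ 2 * ∑ ξ, p ξ := by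
        calc ∑ ξ, p ξ * (s2 (y ξ) - E) ^ 2
            = ∑ ξ, (p ξ * s2 (y ξ) ^ 2 - 2 * E * (p ξ * s2 (y ξ)) + E ^ 2 * p ξ) :=
              Finset.sum_congr rfl fun ξ _ => by ring
          _ = _ := by
              rw [Finset.sum_add_distrib, Finset.sum_sub_distrib, ← Finset.mul_sum,
                ← Finset.mul_sum, ← hE]
      rw [e, hp1] at h
      nlinarith
    have : ∑ ξ, p ξ * (lam ^ 4 * s2 (y ξ) ^ 2) = lam ^ 4 * ∑ ξ, p ξ * s2 (y ξ) ^ 2 := by
      rw [Finset.mul_sum]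
      exact Finset.sum_congr rfl fun ξ _ => by ring
    rw [this]
    exact mul_le_mul_of_nonneg_left hcs (by positivity)
  -- one step of the chain
  have hstep : ∀ j : ℕ, mergeA p y lam (j + 1 + 1) (Hom s2) (fun _ => 1)
      ≤ mergeA p y lam (j + 1) (Hom s2) (fun _ => 1) + lam ^ 2 * E
        - (c * E) * mergeA p y lam (j + 1) (Hom S2) (fun _ => 1) := by
    intro j
    rw [mergeA_succ']
    refine (mergeA_mono hp hpos (j + 1) hTM _ hone).trans ?_
    rw [mergeA_add, mergeA_add, mergeA_add, mergeA_const_mul, mergeA_const_mul, mergeA_const_mul,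
      mergeA_mass hp1 hm]
    have e : (∑ i : Fin 4, (1 : ℝ)) / 4 = 1 := by simp
    simp only [e]
    have h1 := mul_nonneg hAbar'0 (hconeE j)
    nlinarith
  intro k
  induction k with
  | zero =>
    have h1 := hstep 0
    simp only [zero_add] at h1 ⊢
    rw [hE1] at h1
    have h2 := mul_le_mul_of_nonneg_left hS2one (mul_nonneg hc hE0)
    push_cast
    nlinarith
  | succ k ih =>
    have h1 := hstep (k + 1)
    have h2 := mul_nonneg (mul_nonneg hc hE0) (hS2pos (k + 1 + 1))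
    push_cast
    have e : k + 1 + 2 = k + 2 + 1 := by omega
    rw [e]
    have e2 : k + 1 + 1 = k + 2 := by omega
    rw [e2] at h1 h2
    nlinarith

end law

/-- Leaf configurations at depth `n`. -/
abbrev Cfg (d n : ℕ) := (Fin n → Fin d) → Fin 4

/-- Splitting a configuration at depth `n+1` into the configurations of the `d` subtrees. -/
def cfgEquiv (d n : ℕ) : Cfg d (n + 1) ≃ (Fin d → Cfg d n) where
  toFun η c w := η (Fin.cons c w)
  invFun f w := f (w 0) (Fin.tail w)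
  left_inv η := by funext w; simp [Fin.cons_self_tail]
  right_inv f := by funext c w; simp

section tree

variable {d : ℕ} {lam : ℝ}

lemma potts_nonneg (h0 : 0 ≤ lam) (h1 : lam ≤ 1) (i j : Fin 4) : 0 ≤ potts 4 lam i j := by
  unfold potts
  have : 0 ≤ (1 - lam) / ((4 : ℕ) : ℝ) := by
    push_cast; linarith
  split_ifs <;> linarith

lemma potts_sum (lam : ℝ) (i : Fin 4) (w : Fin 4 → ℝ) :
    ∑ j, potts 4 lam i j * w j = lam * w i + (1 - lam) / 4 * ∑ j, w j := by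
  unfold potts
  simp only [add_mul, Finset.sum_add_distrib, ite_mul, zero_mul, Finset.sum_ite_eq, Finset.mem_univ,
    if_true, ← Finset.mul_sum]
  push_cast
  ring

/-- Total mass at `η`. -/
noncomputable def Sn (d : ℕ) (lam : ℝ) (n : ℕ) (η : Cfg d n) : ℝ :=
  ∑ i, leafLik 4 d lam n i η

/-- Posterior vector. -/
noncomputable def yn (d : ℕ) (lam : ℝ) (n : ℕ) (η : Cfg d n) (i : Fin 4) : ℝ :=
  4 * leafLik 4 d lam n i η / Sn d lam n η - 1

/-- Marginal probability. -/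
noncomputable def pn (d : ℕ) (lam : ℝ) (n : ℕ) (η : Cfg d n) : ℝ := Sn d lam n η / 4

lemma leafLik_succ (n : ℕ) (i : Fin 4) (η : Cfg d (n + 1)) :
    leafLik 4 d lam (n + 1) i η
      = ∏ c : Fin d, ∑ j : Fin 4, potts 4 lam i j * leafLik 4 d lam n j (cfgEquiv d n η c) := rfl

lemma leafLik_nonneg (h0 : 0 ≤ lam) (h1 : lam ≤ 1) (n : ℕ) (i : Fin 4) (η : Cfg d n) :
    0 ≤ leafLik 4 d lam n i η := by
  induction n generalizing i with
  | zero =>
    unfold leafLik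
    split_ifs <;> norm_num
  | succ n ih =>
    rw [leafLik_succ]
    refine Finset.prod_nonneg fun c _ => Finset.sum_nonneg fun j _ => ?_
    exact mul_nonneg (potts_nonneg h0 h1 i j) (ih _ _)

lemma Sn_pos (h0 : 0 ≤ lam) (h1 : lam < 1) (n : ℕ) (η : Cfg d n) : 0 < Sn d lam n η := by
  induction n with
  | zero =>
    unfold Sn
    have : leafLik 4 d lam 0 (η Fin.elim0) η = 1 := by
      unfold leafLik; simp
    have h2 : ∀ i ∈ (Finset.univ : Finset (Fin 4)), 0 ≤ leafLik 4 d lam 0 i η :=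
      fun i _ => leafLik_nonneg h0 h1.le 0 i η
    have h3 := Finset.single_le_sum h2 (Finset.mem_univ (η Fin.elim0))
    rw [this] at h3
    linarith
  | succ n ih =>
    unfold Sn
    refine Finset.sum_pos (fun i _ => ?_) ⟨0, Finset.mem_univ _⟩
    rw [leafLik_succ]
    refine Finset.prod_pos fun c _ => ?_
    rw [potts_sum]
    have h2 := ih (cfgEquiv d n η c)
    unfold Sn at h2
    have h3 := leafLik_nonneg (d := d) h0 h1.le n i (cfgEquiv d n η c)
    have h4 : 0 < (1 - lam) / 4 := by linarith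
    have : 0 ≤ lam * leafLik 4 d lam n i (cfgEquiv d n η c) := mul_nonneg h0 h3
    have := mul_pos h4 h2
    linarith

lemma sum_leafLik (n : ℕ) (i : Fin 4) :
    ∑ η : Cfg d n, leafLik 4 d lam n i η = 1 := by
  induction n generalizing i with
  | zero =>
    rw [← (Equiv.funUnique (Fin 0 → Fin d) (Fin 4)).symm.sum_comp]
    simp only [leafLik, Equiv.funUnique_symm_apply, uniqueElim_const]
    simp
  | succ n ih =>
    rw [← (cfgEquiv d n).symm.sum_comp]
    simp only [leafLik_succ, Equiv.apply_symm_apply]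
    have : ∑ f : Fin d → Cfg d n, ∏ c, ∑ j, potts 4 lam i j * leafLik 4 d lam n j (f c)
        = ∏ c : Fin d, ∑ ξ : Cfg d n, ∑ j, potts 4 lam i j * leafLik 4 d lam n j ξ := by
      rw [Finset.prod_univ_sum, Fintype.piFinset_univ]
    rw [this]
    have h2 : ∑ ξ : Cfg d n, ∑ j, potts 4 lam i j * leafLik 4 d lam n j ξ = 1 := by
      rw [Finset.sum_comm]
      simp only [← Finset.mul_sum, ih, mul_one]
      have := potts_sum lam i (fun _ => 1)
      simp only [mul_one] at this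
      rw [this]
      simp
    simp [h2]

lemma potts_perm (g : Equiv.Perm (Fin 4)) (i j : Fin 4) :
    potts 4 lam (g i) (g j) = potts 4 lam i j := by
  unfold potts
  simp

/-- Colour-permutation equivariance of the likelihoods. -/
lemma leafLik_perm (g : Equiv.Perm (Fin 4)) (n : ℕ) (i : Fin 4) (η : Cfg d n) :
    leafLik 4 d lam n (g i) (fun w => g (η w)) = leafLik 4 d lam n i η := by
  induction n generalizing i with
  | zero =>
    simp [leafLik]
  | succ n ih =>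
    rw [leafLik_succ, leafLik_succ]
    refine Finset.prod_congr rfl fun c _ => ?_
    rw [← Equiv.sum_comp g]
    refine Finset.sum_congr rfl fun j _ => ?_
    rw [potts_perm]
    congr 1
    exact ih j (cfgEquiv d n η c)

lemma Sn_perm (g : Equiv.Perm (Fin 4)) (n : ℕ) (η : Cfg d n) :
    Sn d lam n (fun w => g (η w)) = Sn d lam n η := by
  unfold Sn
  rw [← Equiv.sum_comp g]
  exact Finset.sum_congr rfl fun i _ => leafLik_perm g n i η

lemma yn_perm (g : Equiv.Perm (Fin 4)) (n : ℕ) (η : Cfg d n) (i : Fin 4) :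
    yn d lam n (fun w => g (η w)) i = yn d lam n η (g⁻¹ i) := by
  unfold yn
  rw [Sn_perm]
  have := leafLik_perm (lam := lam) g n (g⁻¹ i) η
  rw [show g (g⁻¹ i) = i by simp] at this
  rw [this]

/-- Configuration action. -/
def cfgPerm (d n : ℕ) (g : Equiv.Perm (Fin 4)) : Cfg d n ≃ Cfg d n :=
  Equiv.arrowCongr (Equiv.refl _) g

lemma law_sym (n : ℕ) (g : Equiv.Perm (Fin 4)) (f : (Fin 4 → ℝ) → ℝ) :
    ∑ η : Cfg d n, pn d lam n η * f (yn d lam n η)
      = ∑ η : Cfg d n, pn d lam n η * f (fun i => yn d lam n η (g i)) := by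
  rw [← (cfgPerm d n g⁻¹).sum_comp]
  refine Finset.sum_congr rfl fun η _ => ?_
  have h1 : (cfgPerm d n g⁻¹) η = fun w => g⁻¹ (η w) := rfl
  rw [h1]
  unfold pn
  rw [Sn_perm]
  congr 2
  funext i
  rw [yn_perm]
  simp

lemma sum_pn (n : ℕ) : ∑ η : Cfg d n, pn d lam n η = 1 := by
  unfold pn Sn
  rw [← Finset.sum_div, Finset.sum_comm]
  simp only [sum_leafLik]
  simp

lemma pn_nonneg (h0 : 0 ≤ lam) (h1 : lam < 1) (n : ℕ) (η : Cfg d n) : 0 ≤ pn d lam n η := by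
  unfold pn
  have := Sn_pos h0 h1 n η
  positivity

lemma yn_msg (h0 : 0 ≤ lam) (h1 : lam < 1) (n : ℕ) (η : Cfg d n) : Msg (yn d lam n η) := by
  have hS := Sn_pos h0 h1 n η
  constructor
  · unfold yn
    rw [Finset.sum_sub_distrib, ← Finset.sum_div, ← Finset.mul_sum]
    change 4 * Sn d lam n η / Sn d lam n η - _ = 0
    field_simp
    simp
  · intro i
    unfold yn
    have := leafLik_nonneg (d := d) h0 h1.le n i η
    have : 0 ≤ 4 * leafLik 4 d lam n i η / Sn d lam n η := by positivity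
    linarith

lemma yn_zero (η : Cfg d 0) : yn d lam 0 η = vertex (η Fin.elim0) := by
  funext i
  have hS : Sn d lam 0 η = 1 := by
    unfold Sn leafLik
    simp
  unfold yn
  rw [hS]
  unfold vertex leafLik
  by_cases h : i = η Fin.elim0
  · rw [if_pos h, if_pos h.symm]; norm_num
  · rw [if_neg h, if_neg (Ne.symm h)]; norm_num

/-- The message passed through an edge. -/
lemma message (h0 : 0 ≤ lam) (h1 : lam < 1) (n : ℕ) (ξ : Cfg d n) (i : Fin 4) :
    ∑ j, potts 4 lam i j * leafLik 4 d lam n j ξ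
      = pn d lam n ξ * (1 + lam * yn d lam n ξ i) := by
  rw [potts_sum]
  have hS := Sn_pos h0 h1 n ξ
  unfold pn yn
  change _ + (1 - lam) / 4 * Sn d lam n ξ = _
  field_simp
  ring

/-- The potential expectation at depth `n+1` is a merge of `d` messages from depth `n`. -/
lemma phi_succ (h0 : 0 ≤ lam) (h1 : lam < 1) (n : ℕ) (F : (Fin 4 → ℝ) → ℝ) :
    ∑ η : Cfg d (n + 1), pn d lam (n + 1) η * F (yn d lam (n + 1) η)
      = mergeA (pn d lam n) (yn d lam n) lam d (Hom F) (fun _ => 1) := by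
  unfold mergeA
  rw [← (cfgEquiv d n).symm.sum_comp]
  refine Finset.sum_congr rfl fun f _ => ?_
  set η := (cfgEquiv d n).symm f with hη
  have hf : ∀ c, cfgEquiv d n η c = f c := by
    intro c; rw [hη]; simp
  have hW : ∀ i, leafLik 4 d lam (n + 1) i η
      = (∏ c, pn d lam n (f c)) * ∏ c, (1 + lam * yn d lam n (f c) i) := by
    intro i
    rw [leafLik_succ, ← Finset.prod_mul_distrib]
    refine Finset.prod_congr rfl fun c _ => ?_
    rw [hf, message h0 h1]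
  have hPi : (∏ c, pn d lam n (f c)) ≠ 0 := by
    refine Finset.prod_ne_zero_iff.mpr fun c _ => ?_
    unfold pn
    have := Sn_pos h0 h1 n (f c)
    positivity
  have hL : pn d lam (n + 1) η * F (yn d lam (n + 1) η)
      = Hom F (fun i => leafLik 4 d lam (n + 1) i η) := rfl
  rw [hL]
  simp only [hW, one_mul]
  exact Hom_smul F _ hPi _

/-- Bound on the reconstruction error by the second moment. -/
lemma reconError_sq_le (h0 : 0 ≤ lam) (h1 : lam < 1) (n : ℕ) :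
    reconError 4 d lam n ^ 2 ≤ (∑ η : Cfg d n, pn d lam n η * s2 (yn d lam n η)) / 4 := by
  have hl : ∀ η : Cfg d n, leafProb 4 d lam n η = pn d lam n η := by
    intro η
    unfold leafProb jointProb pn Sn
    rw [← Finset.mul_sum]
    push_cast
    ring
  have hj : ∀ (η : Cfg d n) (i : Fin 4),
      |jointProb 4 d lam n i η / pn d lam n η - 1 / ((4 : ℕ) : ℝ)|
        = |yn d lam n η i| / 4 := by
    intro η i
    have hS := Sn_pos h0 h1 n η
    have e : jointProb 4 d lam n i η / pn d lam n η - 1 / ((4 : ℕ) : ℝ) = yn d lam n η i / 4 := by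
      unfold jointProb pn yn
      push_cast
      field_simp
    rw [e, abs_div]
    simp
  have e1 : reconError 4 d lam n
      = ∑ η : Cfg d n, pn d lam n η * ((1 / 8 : ℝ) * ∑ i, |yn d lam n η i|) := by
    unfold reconError
    refine Finset.sum_congr rfl fun η _ => ?_
    rw [hl]
    congr 1
    simp only [hj, Fin.sum_univ_four]
    ring
  rw [e1]
  -- Cauchy-Schwarz (Jensen) for the probability weights
  have hp := fun η : Cfg d n => pn_nonneg (d := d) h0 h1 n η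
  have hp1 := sum_pn (d := d) (lam := lam) n
  have cs : (∑ η : Cfg d n, pn d lam n η * ((1 / 8 : ℝ) * ∑ i, |yn d lam n η i|)) ^ 2
      ≤ ∑ η : Cfg d n, pn d lam n η * ((1 / 8 : ℝ) * ∑ i, |yn d lam n η i|) ^ 2 := by
    have h := Finset.sum_mul_sq_le_sq_mul_sq (Finset.univ : Finset (Cfg d n))
      (fun η => Real.sqrt (pn d lam n η))
      (fun η => Real.sqrt (pn d lam n η) * ((1 / 8 : ℝ) * ∑ i, |yn d lam n η i|))
    have e2 : ∀ η, Real.sqrt (pn d lam n η) *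
        (Real.sqrt (pn d lam n η) * ((1 / 8 : ℝ) * ∑ i, |yn d lam n η i|))
        = pn d lam n η * ((1 / 8 : ℝ) * ∑ i, |yn d lam n η i|) := by
      intro η
      rw [← mul_assoc, Real.mul_self_sqrt (hp η)]
    have e3 : ∀ η, Real.sqrt (pn d lam n η) ^ 2 = pn d lam n η := fun η => Real.sq_sqrt (hp η)
    have e4 : ∀ η, (Real.sqrt (pn d lam n η) * ((1 / 8 : ℝ) * ∑ i, |yn d lam n η i|)) ^ 2
        = pn d lam n η * ((1 / 8 : ℝ) * ∑ i, |yn d lam n η i|) ^ 2 := by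
      intro η
      rw [mul_pow, e3]
    simp only [e2, e3, e4, hp1, one_mul] at h
    exact h
  refine cs.trans ?_
  rw [Finset.sum_div]
  refine Finset.sum_le_sum fun η _ => ?_
  rw [mul_div_assoc]
  refine mul_le_mul_of_nonneg_left ?_ (hp η)
  unfold s2
  simp only [Fin.sum_univ_four]
  have a0 := abs_nonneg (yn d lam n η 0)
  have a1 := abs_nonneg (yn d lam n η 1)
  have a2 := abs_nonneg (yn d lam n η 2)
  have a3 := abs_nonneg (yn d lam n η 3)
  rw [← sq_abs (yn d lam n η 0), ← sq_abs (yn d lam n η 1), ← sq_abs (yn d lam n η 2),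
    ← sq_abs (yn d lam n η 3)]
  nlinarith [sq_nonneg (|yn d lam n η 0| - |yn d lam n η 1|),
    sq_nonneg (|yn d lam n η 0| - |yn d lam n η 2|),
    sq_nonneg (|yn d lam n η 1| - |yn d lam n η 2|),
    sq_nonneg (|yn d lam n η 0| - |yn d lam n η 3|),
    sq_nonneg (|yn d lam n η 1| - |yn d lam n η 3|),
    sq_nonneg (|yn d lam n η 2| - |yn d lam n η 3|)]

end tree

/-- **Master theorem** (four colours): a cone potential `L`, together with a law-level
second-moment inequality with cubic margin, gives non-reconstruction. -/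
theorem nonrecon_of_cone {d : ℕ} {lam : ℝ} (hd : 2 ≤ d) (h0 : 0 ≤ lam) (hdl : d * lam ^ 2 ≤ 1)
    (L a b a' b' : (Fin 4 → ℝ) → ℝ) (c c1 : ℝ) (hc : 0 ≤ c) (hc2 : 0 < lam → 0 < c) (hc1 : 0 ≤ c1)
    (ha : ∀ v, Msg v → 0 ≤ a v) (hb : ∀ z, Msg z → 0 ≤ b z)
    (ha' : ∀ v, Msg v → 0 ≤ a' v) (hb' : ∀ z, Msg z → 0 ≤ b' z)
    (hleaf : ∀ i, 0 ≤ L (vertex i))
    (hfirst : ∀ v, Msg v → c1 * L v ≤ L (fun i => lam * v i))
    (hI : ∀ z v, Msg z → Msg v →
      a v * L z + b z * L v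
        ≤ (1 / 24) * ∑ g : Equiv.Perm (Fin 4), Kp L z (fun i => lam * v (g i)))
    (hM : ∀ z v, Msg z → Msg v →
      (1 / 24) * (∑ g : Equiv.Perm (Fin 4), Kp s2 z (fun i => lam * v (g i)))
        + a' v * L z + b' z * L v + c * s2 v * s2 z ^ 2 ≤ s2 z + lam ^ 2 * s2 v) :
    Tendsto (reconError 4 d lam) atTop (𝓝 0) := by
  have hd2 : (2 : ℝ) ≤ d := by exact_mod_cast hd
  have h1 : lam < 1 := by nlinarith
  have hpn := fun n (η : Cfg d n) => pn_nonneg (d := d) h0 h1 n η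
  have hyn := fun n (η : Cfg d n) => yn_msg (d := d) h0 h1 n η
  set e : ℕ → ℝ := fun n => ∑ η : Cfg d n, pn d lam n η * s2 (yn d lam n η) with he
  set Lb : ℕ → ℝ := fun n => ∑ η : Cfg d n, pn d lam n η * L (yn d lam n η) with hLb
  have hstep := fun n (hn : 0 ≤ Lb n) =>
    law_step (p := pn d lam n) (y := yn d lam n) (lam := lam) (hpn n) (sum_pn n) (hyn n)
      (fun g f => law_sym n g f) h0 h1 hc hc1 ha hb ha' hb' hfirst hI hM hn
  have hLb0 : ∀ n, 0 ≤ Lb n := by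
    intro n
    induction n with
    | zero =>
      refine Finset.sum_nonneg fun η _ => mul_nonneg (hpn 0 η) ?_
      rw [yn_zero]
      exact hleaf _
    | succ n ih =>
      simp only [hLb]
      rw [phi_succ h0 h1 n L]
      obtain ⟨d', rfl⟩ : ∃ d', d = d' + 1 := ⟨d - 1, by omega⟩
      exact (hstep n ih).1 d'
  have he0 : ∀ n, 0 ≤ e n := fun n =>
    Finset.sum_nonneg fun η _ => mul_nonneg (hpn n η) (s2_nonneg _)
  have hrec : ∀ n, e (n + 1) ≤ d * lam ^ 2 * e n - c * lam ^ 4 * e n ^ 3 := by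
    intro n
    simp only [he]
    rw [phi_succ h0 h1 n s2]
    obtain ⟨d', rfl⟩ : ∃ d', d = d' + 2 := ⟨d - 2, by omega⟩
    have := (hstep n (hLb0 n)).2 d'
    push_cast
    exact this
  have hdrop : ∀ n, 0 ≤ c * lam ^ 4 * e n ^ 3 := fun n => by
    have := he0 n
    positivity
  have hanti : Antitone e := by
    refine antitone_nat_of_succ_le fun n => ?_
    have h2 := hrec n
    have h3 := hdrop n
    have h4 := he0 n
    nlinarith
  have hbdd : BddBelow (Set.range e) := ⟨0, by rintro _ ⟨n, rfl⟩; exact he0 n⟩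
  have hlim := tendsto_atTop_ciInf hanti hbdd
  set ℓ := ⨅ n, e n with hℓ
  have hℓ0 : 0 ≤ ℓ := le_ciInf he0
  have hlim2 : Tendsto (fun n => d * lam ^ 2 * e n - c * lam ^ 4 * e n ^ 3) atTop
      (𝓝 (d * lam ^ 2 * ℓ - c * lam ^ 4 * ℓ ^ 3)) :=
    (hlim.const_mul _).sub ((hlim.pow 3).const_mul _)
  have hle : ℓ ≤ d * lam ^ 2 * ℓ - c * lam ^ 4 * ℓ ^ 3 :=
    le_of_tendsto_of_tendsto' (hlim.comp (tendsto_add_atTop_nat 1)) hlim2 hrec
  have hℓz : ℓ = 0 := by
    by_contra hne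
    have hpos : 0 < ℓ := lt_of_le_of_ne hℓ0 (Ne.symm hne)
    rcases h0.eq_or_lt with hl | hl
    · rw [← hl] at hle
      norm_num at hle
      linarith
    · have hcpos := hc2 hl
      have h2 : 0 < c * lam ^ 4 * ℓ ^ 3 := by positivity
      nlinarith
  rw [hℓz] at hlim
  have hsq : ∀ n, reconError 4 d lam n ^ 2 ≤ e n / 4 := fun n => reconError_sq_le h0 h1 n
  have h12 : Tendsto (fun n => Real.sqrt (e n / 4)) atTop (𝓝 0) := by
    have := (hlim.div_const 4).sqrt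
    simpa using this
  refine squeeze_zero_norm (fun n => ?_) h12
  rw [Real.norm_eq_abs]
  exact Real.abs_le_sqrt (hsq n)

end Vale.Agent.P154q4
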